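import Crest.Statements.S0010
import Crest.Agent.H1Milnor.Coll
import Crest.Agent.H1Milnor.Fin

set_option autoImplicit false
open Crest.NumberTheoryR.MilnorK
open Crest Crest.NumberTheoryR

namespace Crest.Agent.S0010

open Crest.Agent.H1Milnor in
theorem aux {p : ℕ} [Fact p.Prime]
    {K L : Type*} [Field K] [Field L] [CharP K p] [CharP L p] (k : Subfield K) (l : Subfield L)
    [IsAlgClosed k] [IsAlgClosed l]
    (hK : ∃ s : Finset K, Subfield.closure ((k : Set K) ∪ (s : Set K)) = ⊤)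
    (hL : ∃ s : Finset L, Subfield.closure ((l : Set L) ∪ (s : Set L)) = ⊤)
    (hK2 : 2 ≤ Algebra.trdeg k K) (hL2 : 2 ≤ Algebra.trdeg l L)
    (Θ : V K p ≃ₗ[ZMod p] V L p) (hΘ : Compat Θ) :
    ∃! α : K ≃+* L, k.map α.toRingHom = l ∧
      ∃ c : ZMod p, c ≠ 0 ∧ ∀ x : K, x ≠ 0 → Θ (cl p x) = c • cl p (α x) := by
  have hp : p.Prime := Fact.out
  have := essFiniteType_of_closure k hK
  have := essFiniteType_of_closure l hL
  have hK' := exists_notMem_adjoin (p := p) k hK2
  have hL' := exists_notMem_adjoin (p := p) l hL2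
  obtain ⟨n, hn0, hn, l1⟩ := exists_lin Θ.toAddEquiv (weak_of_compatible Θ hΘ) hL'
  obtain ⟨n', hn0', hn', l2⟩ := exists_lin Θ.symm.toAddEquiv (weak_symm_of_compatible Θ hΘ) hK'
  obtain ⟨x₀, hx₀⟩ := hK' 0
  have hx₀' : x₀ ∉ Pw K p := fun h =>
    hx₀ (IntermediateField.algebraMap_mem _ (⟨x₀, h⟩ : Pw K p))
  have hnn : ((n' * n : ℕ) : ZMod p) = 1 := by
    obtain ⟨Z, hZ, e1, e2⟩ := (l1.comp l2) x₀ hx₀'
    change n' • Θ.symm (n • Θ _) = _ at e1 e2
    simp only [map_nsmul, LinearEquiv.symm_apply_apply, smul_smul] at e1 e2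
    have h1 := eq_one_of_lin hx₀' hZ e1 e2
    have h2 : ((n' * n : ℕ) : K) = ((1 : ℕ) : K) := by rw [h1, Nat.cast_one]
    rw [CharP.natCast_eq_natCast K p] at h2
    rw [← Nat.cast_one, ZMod.natCast_eq_natCast_iff]
    exact h2
  have hnV : ∀ v : V K p, n' • n • v = v := fun v => by
    rw [smul_smul, ← Nat.cast_smul_eq_nsmul (ZMod p), hnn, one_smul]
  have hnW : ∀ v : V L p, n • n' • v = v := fun v => by
    rw [smul_smul, mul_comm, ← Nat.cast_smul_eq_nsmul (ZMod p), hnn, one_smul]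
  let Ψ : V K p ≃+ V L p :=
    { toFun := fun v => n • Θ v
      invFun := fun w => n' • Θ.symm w
      left_inv := fun v => by simp only [map_nsmul, LinearEquiv.symm_apply_apply, hnV]
      right_inv := fun w => by simp only [map_nsmul, LinearEquiv.apply_symm_apply, hnW]
      map_add' := fun v w => by simp only [map_add, smul_add] }
  obtain ⟨α, hα⟩ := exists_ringEquiv Ψ l1 l2 (exists_out hK')
  have hmap : ∀ β : K ≃+* L, k.map β.toRingHom = l := by
    intro β
    ext z
    rw [Subfield.mem_map]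
    constructor
    · rintro ⟨x, hx, rfl⟩
      apply mem_of_forall_pow (p := p) l
      intro m
      obtain ⟨y, hy⟩ := forall_pow_of_mem (p := p) k hx m
      exact ⟨β y, by rw [← map_pow, hy]; rfl⟩
    · intro hz
      refine ⟨β.symm z, ?_, by simp⟩
      apply mem_of_forall_pow (p := p) k
      intro m
      obtain ⟨y, hy⟩ := forall_pow_of_mem (p := p) l hz m
      exact ⟨β.symm y, by rw [← map_pow, hy]⟩
  have hn'0 : (n' : ZMod p) ≠ 0 := by
    intro h0
    rw [Nat.cast_mul, h0, zero_mul] at hnn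
    exact zero_ne_one hnn
  have hα' : ∀ x : K, x ≠ 0 → Θ (cl p x) = (n' : ZMod p) • cl p (α x) := by
    intro x hx
    rw [← hα x hx, Nat.cast_smul_eq_nsmul]
    change _ = n' • n • Θ (cl p x)
    rw [smul_comm, hnW]
  refine ⟨α, ⟨hmap α, n', hn'0, hα'⟩, ?_⟩
  rintro β ⟨-, c, hc, hβ⟩
  have hnot : ∀ (γ : K ≃+* L) {x : K}, x ∉ Pw K p → γ x ∉ Pw L p := by
    intro γ x hx h
    obtain ⟨w, hw⟩ := mem_Pw.1 h
    exact hx (mem_Pw.2 ⟨γ.symm w, by rw [← map_pow, hw]; simp⟩)
  have key : ∀ x : K, x ∉ Pw K p → β x = α x := by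
    intro x hx
    have hx0 := ne_zero_of_notMem hx
    have hx1 := ne_zero_of_notMem (one_add_notMem hx)
    have e : ∀ y : K, y ≠ 0 → (c⁻¹ * n').val • cl p (α y) = cl p (β y) := by
      intro y hy
      rw [← Nat.cast_smul_eq_nsmul (ZMod p), ZMod.natCast_zmod_val, mul_smul, ← hα' y hy, hβ y hy,
        smul_smul, inv_mul_cancel₀ hc, one_smul]
    have e1 := e x hx0
    have e2 := e (1 + x) hx1
    rw [map_add, map_add, map_one, map_one] at e2
    have h1 := eq_one_of_lin (hnot α hx) (hnot β hx) e1 e2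
    have h2 : (((c⁻¹ * n').val : ℕ) : L) = ((1 : ℕ) : L) := by rw [h1, Nat.cast_one]
    rw [CharP.natCast_eq_natCast L p, ← ZMod.natCast_eq_natCast_iff] at h2
    rw [← Nat.cast_smul_eq_nsmul (ZMod p), h2, Nat.cast_one, one_smul] at e1 e2
    exact eq_of_cl_eq (hnot α hx) (hnot β hx) e1.symm e2.symm
  ext x
  by_cases hx : x ∈ Pw K p
  · have h1 : x + x₀ ∉ Pw K p := fun h => hx₀' (by simpa using sub_mem h hx)
    have e1 := key _ h1
    rw [map_add, map_add, key _ hx₀'] at e1
    exact add_right_cancel e1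
  · exact key x hx

/-- Let K and L be fields of characteristic p that are finitely generated and of transcendence degree at least 2 over algebraically closed subfields k and l. Let Θ be a linear isomorphism, over the integers mod p, from Kˣ/(Kˣ)^p to Lˣ/(Lˣ)^p that maps the span of the Steinberg elements [f] ⊗ [1 - f] (f ≠ 0, 1) of K exactly onto that of L. Then there is exactly one field isomorphism α from K to L with α(k) = l such that, for some non-zero scalar c, Θ[u] = c · [α(u)] for every unit u of K. -/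
theorem result {p : ℕ} [Fact p.Prime]
    {K L : Type*} [Field K] [Field L] [CharP K p] [CharP L p] (k : Subfield K) (l : Subfield L)
    [IsAlgClosed k] [IsAlgClosed l]
    (hK : ∃ s : Finset K, Subfield.closure ((k : Set K) ∪ (s : Set K)) = ⊤)
    (hL : ∃ s : Finset L, Subfield.closure ((l : Set L) ∪ (s : Set L)) = ⊤)
    (hK2 : 2 ≤ Algebra.trdeg k K) (hL2 : 2 ≤ Algebra.trdeg l L)
    (Θ : KOne K p ≃ₗ[ZMod p] KOne L p) (hΘ : IsCompatible Θ) :
    ∃! α : K ≃+* L, k.map α.toRingHom = l ∧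
      ∃ c : ZMod p, c ≠ 0 ∧ ∀ u : Kˣ, Θ (cls K p u) = c • cls L p (Units.map α.toRingHom.toMonoidHom u) := by
  have h := aux k l hK hL hK2 hL2 Θ (Crest.Agent.H1Milnor.compat_of Θ hΘ)
  have hiff : ∀ (α : K ≃+* L) (c : ZMod p),
      (∀ u : Kˣ, Θ (cls K p u) = c • cls L p (Units.map α.toRingHom.toMonoidHom u)) ↔
      (∀ x : K, x ≠ 0 → (Θ (Crest.Agent.H1Milnor.cl p x) : Crest.Agent.H1Milnor.V L p) =
        c • Crest.Agent.H1Milnor.cl p (α x)) := by
    intro α c
    constructor
    · intro h x hx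
      have h1 := h (Units.mk0 x hx)
      rw [← Crest.Agent.H1Milnor.cl_unit, ← Crest.Agent.H1Milnor.cl_unit] at h1
      exact h1
    · intro h u
      have h1 := h u u.ne_zero
      rw [← Crest.Agent.H1Milnor.cl_unit, ← Crest.Agent.H1Milnor.cl_unit]
      exact h1
  simp only [hiff]
  exact h

end Crest.Agent.S0010
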