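import Crest.Statements.S0066
import Crest.Agent.H2.OM3

set_option autoImplicit false
open Crest Crest.CombinatoricsR

namespace Crest.Agent.S0066

open Crest.Agent.H2OM

/-- There is a fixed 66 × 66 binary pattern H such that for every h ≥ 1, with n = (386h + 2) · 2^h and ε = (386h + 2)⁻², some n × n binary matrix A is ε-far from free of ordered copies of H (every n × n binary matrix without an ordered copy of H differs from A in at least ε · n² cells) while the number of ordered copies of H in A is at most ε · 2^(-h) · n^132. An ordered copy picks 66 rows and 66 columns in increasing order on which A coincides with H, zeros included. -/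
theorem result :
    ∃ H : Fin 66 → Fin 66 → Bool, ∀ h : ℕ, 1 ≤ h →
      ∃ A : Fin ((386 * h + 2) * 2 ^ h) → Fin ((386 * h + 2) * 2 ^ h) → Bool,
        (∀ B : Fin ((386 * h + 2) * 2 ^ h) → Fin ((386 * h + 2) * 2 ^ h) → Bool,
          Crest.CombinatoricsR.OrderedMatrix.orderedCopyCount H B = 0 →
            ((386 * (h : ℝ) + 2) ^ 2)⁻¹ * (((386 * h + 2) * 2 ^ h : ℕ) : ℝ) ^ 2 ≤
              ((Finset.univ.filter (fun rc : Fin ((386 * h + 2) * 2 ^ h) × Fin ((386 * h + 2) * 2 ^ h) =>
                A rc.1 rc.2 ≠ B rc.1 rc.2)).card : ℝ)) ∧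
        (Crest.CombinatoricsR.OrderedMatrix.orderedCopyCount H A : ℝ) /
            (((386 * h + 2) * 2 ^ h : ℕ) : ℝ) ^ 132 ≤
          ((386 * (h : ℝ) + 2) ^ 2)⁻¹ * (2 : ℝ)⁻¹ ^ h := by
  classical
  refine ⟨Hpat, fun h hh => ?_⟩
  obtain ⟨σ, hσ⟩ := exists_sort _ (card_Idx h) (keyR (h := h))
  obtain ⟨τ, hτ⟩ := exists_sort _ (card_Idx h) (keyC (h := h))
  have hK : (0 : ℝ) < 386 * (h : ℝ) + 2 := by positivity
  have hN : (0 : ℝ) < 2 ^ h := by positivity
  refine ⟨fun i j => decide (A0 (σ i) (τ j)), ?_, ?_⟩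
  · intro B hB
    have hno : ¬ HasCopy (fun r c => B (σ.symm r) (τ.symm c)) := by
      rintro ⟨p, q, hp, hq, hpq⟩
      unfold OrderedMatrix.orderedCopyCount at hB
      rw [Fintype.card_eq_zero_iff] at hB
      refine hB.false ⟨(fun i => σ.symm (p i), fun i => τ.symm (q i)), ?_, ?_, hpq⟩
      · intro i j hij
        by_contra hle
        have := hσ (not_lt.1 hle)
        simp only [Function.comp, Equiv.apply_symm_apply] at this
        exact absurd (hp hij) (not_lt.2 this)
      · intro i j hij
        by_contra hle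
        have := hτ (not_lt.1 hle)
        simp only [Function.comp, Equiv.apply_symm_apply] at this
        exact absurd (hq hij) (not_lt.2 this)
    have hex : ∀ xy : Fin (2 ^ h) × Fin (2 ^ h), ∃ bb : Blk h × Blk h, robust bb.1 bb.2 ∧
        ¬ (B (σ.symm (bb.1, ra xy.1 xy.2 bb.1)) (τ.symm (bb.2, ca xy.1 xy.2 bb.2)) = true ↔
          A0 (bb.1, ra xy.1 xy.2 bb.1) (bb.2, ca xy.1 xy.2 bb.2)) := by
      intro xy
      by_contra hcon
      apply hno
      refine complete hh _ xy.1 xy.2 (fun b b' hb => ?_)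
      by_contra hc
      exact hcon ⟨(b, b'), hb, hc⟩
    choose f hf using hex
    have hcard := Finset.card_le_card_of_injOn
      (s := (Finset.univ : Finset (Fin (2 ^ h) × Fin (2 ^ h))))
      (t := Finset.univ.filter (fun rc : Fin ((386 * h + 2) * 2 ^ h) × Fin ((386 * h + 2) * 2 ^ h) =>
                decide (A0 (σ rc.1) (τ rc.2)) ≠ B rc.1 rc.2))
      (fun xy => (σ.symm ((f xy).1, ra xy.1 xy.2 (f xy).1), τ.symm ((f xy).2, ca xy.1 xy.2 (f xy).2)))
      (by
        intro xy _
        simp only [Finset.coe_filter, Finset.mem_univ, true_and, Set.mem_setOf_eq,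
          Equiv.apply_symm_apply]
        intro heq
        apply (hf xy).2
        rw [← heq]
        simp)
      (by
        intro xy _ xy' _ heq
        simp only [Prod.mk.injEq, EmbeddingLike.apply_eq_iff_eq] at heq
        obtain ⟨⟨e1, e2⟩, e3, e4⟩ := heq
        have := robust_inj _ _ (hf xy).1 xy.1 xy.2 xy'.1 xy'.2 (by rw [e2, e1]) (by rw [e4, e3])
        exact Prod.ext this.1 this.2)
    simp only [Finset.card_univ, Fintype.card_prod, Fintype.card_fin] at hcard
    have hc' : ((2 ^ h * 2 ^ h : ℕ) : ℝ) ≤ _ := Nat.cast_le.2 hcard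
    refine le_trans (le_of_eq ?_) hc'
    push_cast
    field_simp
  · have hcount : OrderedMatrix.orderedCopyCount Hpat (fun i j => decide (A0 (σ i) (τ j))) ≤
        2 ^ h * (((386 * h + 2) * 2 ^ h) ^ 65 * ((386 * h + 2) * 2 ^ h) ^ 65) := by
      unfold OrderedMatrix.orderedCopyCount
      have hs : ∀ rc : {rc : (Fin 66 → Fin ((386 * h + 2) * 2 ^ h)) × (Fin 66 → Fin ((386 * h + 2) * 2 ^ h)) //
          StrictMono rc.1 ∧ StrictMono rc.2 ∧
            ∀ i j : Fin 66, decide (A0 (σ (rc.1 i)) (τ (rc.2 j))) = Hpat i j},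
          (σ (rc.1.1 65)).1 = leaf h ∧ (τ (rc.1.2 65)).1 = leaf h ∧
            (σ (rc.1.1 65)).2 = (τ (rc.1.2 65)).2 := by
        rintro ⟨⟨r, c⟩, hr, hc, hrc⟩
        refine sound (fun i => σ (r i)) (fun i => τ (c i)) (hσ.comp hr.monotone)
          (hτ.comp hc.monotone) (fun i j => ?_)
        rw [← hrc i j]
        simp
      have := Fintype.card_le_of_injective
        (β := Fin (2 ^ h) × ((Fin 65 → Fin ((386 * h + 2) * 2 ^ h)) × (Fin 65 → Fin ((386 * h + 2) * 2 ^ h))))
        (fun rc : {rc : (Fin 66 → Fin ((386 * h + 2) * 2 ^ h)) × (Fin 66 → Fin ((386 * h + 2) * 2 ^ h)) //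
          StrictMono rc.1 ∧ StrictMono rc.2 ∧
            ∀ i j : Fin 66, decide (A0 (σ (rc.1 i)) (τ (rc.2 j))) = Hpat i j} =>
          ((σ (rc.1.1 65)).2, (fun i => rc.1.1 i.castSucc, fun i => rc.1.2 i.castSucc)))
        (by
          intro a b hab
          simp only [Prod.mk.injEq] at hab
          obtain ⟨e1, e2, e3⟩ := hab
          obtain ⟨a1, a2, a3⟩ := hs a
          obtain ⟨b1, b2, b3⟩ := hs b
          apply Subtype.ext
          apply Prod.ext
          · funext i
            refine Fin.lastCases ?_ (fun i => congrFun e2 i) i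
            apply σ.injective
            exact Prod.ext (a1.trans b1.symm) e1
          · funext i
            refine Fin.lastCases ?_ (fun i => congrFun e3 i) i
            apply τ.injective
            exact Prod.ext (a2.trans b2.symm) (a3.symm.trans (e1.trans b3)))
      simpa only [Fintype.card_prod, Fintype.card_fun, Fintype.card_fin] using this
    have hc' : (OrderedMatrix.orderedCopyCount Hpat (fun i j => decide (A0 (σ i) (τ j))) : ℝ) ≤
        ((2 ^ h * (((386 * h + 2) * 2 ^ h) ^ 65 * ((386 * h + 2) * 2 ^ h) ^ 65) : ℕ) : ℝ) :=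
      Nat.cast_le.2 hcount
    rw [div_le_iff₀ (by push_cast; positivity)]
    refine hc'.trans (le_of_eq ?_)
    push_cast
    rw [inv_pow]
    field_simp

end Crest.Agent.S0066
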