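import Crest.Statements.S0071
import Crest.Agent.Lead.Tal

set_option autoImplicit false
open Crest Crest.CombinatoricsR

namespace Crest.Agent.S0071

/-- Let F be a non-empty family of subsets of a finite non-empty type, closed upwards and not containing ∅, and let r ∈ [0, 1]. If F has a fractional cover of cost at most 1/2 at r (weights g(S) ∈ [0, 1] with Σ_{S ⊆ H} g(S) ≥ 1 for all H ∈ F and Σ_S g(S) · r^(card S) ≤ 1/2), then F has an integral cover of cost at most 1/2 at r / (25 · 512^4): a family G such that every member of F contains a member of G and Σ_{S ∈ G} (r / (25 · 512^4))^(card S) ≤ 1/2. -/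
theorem result (α : Type) [Fintype α]
    [DecidableEq α] [Nonempty α] (F : Finset (Finset α)) (hne : F.Nonempty) (hempty : ∅ ∉ F)
    (hup : ∀ A ∈ F, ∀ B : Finset α, A ⊆ B → B ∈ F) (r : ℝ) (hr0 : 0 ≤ r) (hr1 : r ≤ 1)
    (g : Finset α → ℝ) (hg : ∀ S : Finset α, 0 ≤ g S ∧ g S ≤ 1)
    (hcov : ∀ H ∈ F, 1 ≤ ∑ S ∈ H.powerset, g S)
    (hcost : ∑ S : Finset α, g S * r ^ S.card ≤ 1 / 2) :
    ∃ G : Finset (Finset α), (∀ H ∈ F, ∃ S ∈ G, S ⊆ H) ∧
      ∑ S ∈ G, (r / (25 * 512 ^ 4)) ^ S.card ≤ 1 / 2 := by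
  rcases hr0.eq_or_lt with h0 | h0
  · refine ⟨F, fun H hH => ⟨H, hH, subset_rfl⟩, ?_⟩
    rw [Finset.sum_eq_zero]
    · norm_num
    · intro S hS
      have : S.card ≠ 0 := fun h => hempty (Finset.card_eq_zero.mp h ▸ hS)
      rw [← h0]; simp [this]
  · obtain ⟨G, hG1, hG2⟩ := Crest.Agent.Lead.Tal.tal_core F g (fun S => (hg S).1) hcov
      (r / 2 ^ 20) (by positivity) (by
        have : (2:ℝ) ^ 20 * (r / 2 ^ 20) = r := by field_simp
        rw [this]; exact hcost)
    refine ⟨G, hG1, le_trans (Finset.sum_le_sum fun S _ => ?_) hG2⟩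
    apply pow_le_pow_left₀ (by positivity)
    apply div_le_div_of_nonneg_left hr0 (by positivity) (by norm_num)

end Crest.Agent.S0071
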