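import Crest.Statements.S0074
import Crest.Agent.H7.MtE

set_option autoImplicit false
open Crest Crest.CombinatoricsR

namespace Crest.Agent.S0074

/-- There are two matroids M₀, M₁ on the whole of ℕ (a countably infinite ground set), each equal to its own dual on the same labelled ground set, such that no independent set of M₀ together with an independent set of M₁ covers ℕ, and the pair has no packing/covering partition: no splitting ℕ = P ⊔ C allows disjoint S₀, S₁ ⊆ P with Sᵢ spanning the restriction of Mᵢ to P, and sets I₀, I₁ with union C, Iᵢ independent in the contraction of Mᵢ onto C (the complement of C contracted). -/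
theorem result :
    ∃ M₀ M₁ : Matroid ℕ, M₀.E = Set.univ ∧ M₁.E = Set.univ ∧ M₀.dual = M₀ ∧ M₁.dual = M₁ ∧
      (∀ I₀ I₁ : Set ℕ, M₀.Indep I₀ → M₁.Indep I₁ → I₀ ∪ I₁ ≠ Set.univ) ∧
      ¬ ∃ P C S₀ S₁ I₀ I₁ : Set ℕ, P ∪ C = Set.univ ∧ Disjoint P C ∧
          S₀ ⊆ P ∧ S₁ ⊆ P ∧ Disjoint S₀ S₁ ∧
          (M₀.restrict P).closure S₀ = P ∧ (M₁.restrict P).closure S₁ = P ∧
          I₀ ⊆ C ∧ I₁ ⊆ C ∧ (M₀.contract Cᶜ).Indep I₀ ∧ (M₁.contract Cᶜ).Indep I₁ ∧
          I₀ ∪ I₁ = C := by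
  obtain ⟨M₀, M₁, a, b, c, d, h⟩ := Crest.Agent.H7.Mt.exists_no_cover
  refine ⟨M₀, M₁, a, b, c, d, h, ?_⟩
  rintro ⟨P, C, S₀, S₁, I₀, I₁, hPC, hd, s0, s1, hS, c0, c1, -, -, i0, i1, hI⟩
  refine h _ _ (Crest.Agent.H7.Mt.indep_compl M₀ a c hPC c0 i0 s0)
    (Crest.Agent.H7.Mt.indep_compl M₁ b d hPC c1 i1 s1) ?_
  rw [← Set.compl_inter, Set.compl_univ_iff, Set.eq_empty_iff_forall_notMem]
  rintro x ⟨h0 | h0, h1 | h1⟩
  · exact Set.disjoint_left.1 hS h0 h1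
  · exact Set.disjoint_left.1 hd (s0 h0) h1.1
  · exact Set.disjoint_left.1 hd (s1 h1) h0.1
  · have hx : x ∈ I₀ ∪ I₁ := hI ▸ h0.1
    exact hx.elim h0.2 h1.2

end Crest.Agent.S0074
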