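import Crest.Statements.S0077
import Crest.Agent.H6.SymBridge

set_option autoImplicit false
open Crest Crest.CombinatoricsR

namespace Crest.Agent.S0077

/-- Let n ≥ 2 and let P be a family of simple graphs on n labelled vertices that is invariant under renaming vertices, closed under adding edges, non-empty and not everything; let 0 < ε < 1/2. If the binomial random graph with edge probability p ∈ [0, 1] lies in P with probability at least ε, then at every edge probability q ∈ [0, 1] with q ≥ p + 2^19 · log(1/(2ε)) / (log n)² it lies in P with probability at least 1 - ε: the threshold interval from ε to 1 - ε is at most that long. -/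
theorem result (n : ℕ) (hn : 2 ≤ n)
    (P : Set (SimpleGraph (Fin n)))
    (hsymm : ∀ σ : Equiv.Perm (Fin n), ∀ G : SimpleGraph (Fin n), G ∈ P → G.map σ.toEmbedding ∈ P)
    (hmono : ∀ G G' : SimpleGraph (Fin n), G ≤ G' → G ∈ P → G' ∈ P)
    (hne : P.Nonempty) (hnu : P ≠ Set.univ) (ε : ℝ) (hε0 : 0 < ε) (hε : ε < 1 / 2)
    (p q : ℝ) (hp0 : 0 ≤ p) (hp1 : p ≤ 1) (hq0 : 0 ≤ q) (hq1 : q ≤ 1)
    (hp : ε ≤ Crest.CombinatoricsR.RandomGraph.gnpProb n p P)
    (hq : p + 2 ^ 19 / Real.log n ^ 2 * Real.log (1 / (2 * ε)) ≤ q) :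
    1 - ε ≤ Crest.CombinatoricsR.RandomGraph.gnpProb n q P := by
  classical
  open Crest.Agent.H6.Cube Crest.CombinatoricsR.RandomGraph in
  set f : (EdgeSlot n → Bool) → ℝ := fun x => if graphOf x ∈ P then 1 else 0 with hf
  have hb : ∀ x, f x = 0 ∨ f x = 1 := fun x => by
    simp only [hf]; split_ifs <;> simp
  have hadj : ∀ (x : EdgeSlot n → Bool) (u v : Fin n), (graphOf x).Adj u v ↔
      ∃ h : ¬ (s(u, v) : Sym2 (Fin n)).IsDiag, x ⟨s(u, v), h⟩ = true := by
    intro x u v
    simp only [graphOf, SimpleGraph.fromEdgeSet_adj, Set.mem_ofPred_eq]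
    exact ⟨fun h => h.1, fun h => ⟨h, by obtain ⟨h, _⟩ := h; simpa using h⟩⟩
  have hsym : SymData 2 (fun e : EdgeSlot n => e.1.toFinset) f := by
    refine ⟨fun e => Sym2.card_toFinset_of_not_isDiag _ e.2, fun e e' h => ?_, fun a b => ?_, hb⟩
    · apply Subtype.ext
      ext c
      have := Finset.ext_iff.1 h c
      simpa using this
    · set σ := Equiv.swap a b with hσ
      let t : EdgeSlot n → EdgeSlot n := fun e =>
        ⟨e.1.map σ, fun h => e.2 ((Sym2.isDiag_map σ.injective).1 h)⟩
      have hσσ : ∀ c, σ (σ c) = c := fun c => Equiv.swap_apply_self a b c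
      have hinv : Function.Involutive t := by
        intro e
        apply Subtype.ext
        simp only [t, Sym2.map_map]
        have : (σ ∘ σ : Fin n → Fin n) = id := funext hσσ
        rw [this, Sym2.map_id, id]
      have hg : ∀ x : EdgeSlot n → Bool, graphOf (x ∘ t) = (graphOf x).map σ.toEmbedding := by
        intro x
        ext u v
        rw [SimpleGraph.map_adj, hadj]
        constructor
        · rintro ⟨h, hx⟩
          exact ⟨σ u, σ v, (hadj _ _ _).2 ⟨(t ⟨_, h⟩).2, hx⟩, hσσ u, hσσ v⟩
        · rintro ⟨u', v', h, rfl, rfl⟩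
          obtain ⟨h1, h2⟩ := (hadj _ _ _).1 h
          refine ⟨(t ⟨_, h1⟩).2, ?_⟩
          have := hinv ⟨_, h1⟩
          exact (congrArg x this).trans h2
      refine ⟨hinv.toPerm, fun e => ?_, fun x => ?_⟩
      · ext c
        simp only [Finset.mem_map, Sym2.mem_toFinset]
        simp [t, Function.Involutive.toPerm]
      · have h1 : ∀ y : EdgeSlot n → Bool, graphOf y ∈ P → graphOf (y ∘ t) ∈ P := fun y hy => by
          rw [hg]; exact hsymm _ _ hy
        have h2 : graphOf (x ∘ t) ∈ P ↔ graphOf x ∈ P := by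
          refine ⟨fun h => ?_, h1 x⟩
          have := h1 _ h
          rwa [Function.comp_assoc, hinv.comp_self, Function.comp_id] at this
        show f (x ∘ t) = f x
        simp only [hf, h2]
  set μ : ℝ → ℝ := fun t => Ex (fun _ => t) f with hμ
  have hprob : ∀ t, gnpProb n t P = μ t := fun t =>
    prob_eq t _ _ (fun x hx => if_pos hx) (fun x hx => if_neg hx)
  rw [hprob] at hp ⊢
  have hD : ∀ e, (fun x => D e f x ^ 2) = D e f := by
    intro e
    funext x
    have hle : graphOf (Function.update x e false) ≤ graphOf (Function.update x e true) := by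
      intro u v huv
      obtain ⟨h1, h2⟩ := (hadj _ _ _).1 huv
      refine (hadj _ _ _).2 ⟨h1, ?_⟩
      by_cases he : (⟨s(u, v), h1⟩ : EdgeSlot n) = e
      · rw [he]; simp
      · rw [Function.update_of_ne he] at h2 ⊢; exact h2
    have := hmono _ _ hle
    simp only [D, hf]
    split_ifs with h1 h2 h2
    · simp
    · simp
    · exact absurd (this h2) h1
    · simp
  have hder : ∀ t, HasDerivAt μ (∑ e, Inf t f e) t := by
    intro t
    have := hasDerivAt_Ex f t
    simp only [Inf, hD]
    exact this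
  have hL : 0 < Real.log n := Real.log_pos (by exact_mod_cast (by omega : 1 < n))
  have hkey : ∀ t, 0 < t → t < 1 →
      Real.log n ^ 2 * (μ t * (1 - μ t)) ≤ 22500 * ∑ e, Inf t f e := by
    intro t h0 h1
    have := sym_influence hsym le_rfl (by rw [Fintype.card_fin]; omega) h0 h1
    rw [var_bool t hb, Fintype.card_fin] at this
    norm_num at this
    linarith
  have hlog : 0 < Real.log (1 / (2 * ε)) := Real.log_pos (by rw [lt_div_iff₀ (by linarith)]; linarith)
  have hpq : p < q := by
    have : 0 < 2 ^ 19 / Real.log n ^ 2 * Real.log (1 / (2 * ε)) := by positivity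
    linarith
  have hcont : Continuous μ := continuous_iff_continuousAt.2 fun t => (hder t).continuousAt
  have hmonoμ : MonotoneOn μ (Set.Icc p q) := by
    refine monotoneOn_of_deriv_nonneg (convex_Icc p q) hcont.continuousOn
      (fun t _ => (hder t).differentiableAt.differentiableWithinAt) fun t ht => ?_
    rw [interior_Icc] at ht
    rw [(hder t).deriv]
    exact Finset.sum_nonneg fun e _ => Inf_nonneg (by linarith [ht.1]) (by linarith [ht.2]) f e
  by_contra hcon
  push Not at hcon
  have hrange : ∀ t ∈ Set.Icc p q, ε ≤ μ t ∧ μ t < 1 - ε := fun t ht =>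
    ⟨hp.trans (hmonoμ ⟨le_rfl, hpq.le⟩ ht ht.1), (hmonoμ ht ⟨hpq.le, le_rfl⟩ ht.2).trans_lt hcon⟩
  set c := Real.log n ^ 2 / 22500 with hc
  set g : ℝ → ℝ := fun t => Real.log (μ t) - Real.log (1 - μ t) - c * t with hg
  have hgd : ∀ t ∈ Set.Icc p q, HasDerivAt g
      ((∑ e, Inf t f e) / μ t - (-(∑ e, Inf t f e)) / (1 - μ t) - c) t := by
    intro t ht
    have h1 := hrange t ht
    have a1 := (hder t).log (by linarith [h1.1] : μ t ≠ 0)
    have a2 := ((hder t).const_sub 1).log (by linarith [h1.2] : 1 - μ t ≠ 0)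
    have a3 := (hasDerivAt_id' t).const_mul c
    have := (a1.sub a2).sub a3
    refine HasDerivAt.congr_deriv this ?_
    ring
  have hgm : MonotoneOn g (Set.Icc p q) := by
    refine monotoneOn_of_deriv_nonneg (convex_Icc p q)
      (fun t ht => (hgd t ht).continuousAt.continuousWithinAt)
      (fun t ht => (hgd t (interior_subset ht)).differentiableAt.differentiableWithinAt)
      fun t ht => ?_
    rw [(hgd t (interior_subset ht)).deriv]
    have h1 := hrange t (interior_subset ht)
    rw [interior_Icc] at ht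
    have h2 := hkey t (by linarith [ht.1]) (by linarith [ht.2])
    have h3 : 0 < μ t := by linarith [h1.1]
    have h4 : 0 < 1 - μ t := by linarith [h1.2]
    have h5 : (∑ e, Inf t f e) / μ t - (-(∑ e, Inf t f e)) / (1 - μ t) =
        (∑ e, Inf t f e) / (μ t * (1 - μ t)) := by
      field_simp; ring
    rw [h5, sub_nonneg, le_div_iff₀ (mul_pos h3 h4), hc]
    linarith
  have h1 := hgm ⟨le_rfl, hpq.le⟩ ⟨hpq.le, le_rfl⟩ hpq.le
  simp only [hg] at h1
  have hp' := hrange p ⟨le_rfl, hpq.le⟩
  have hq' := hrange q ⟨hpq.le, le_rfl⟩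
  have b1 : Real.log ε ≤ Real.log (μ p) := Real.log_le_log hε0 hp'.1
  have b2 : Real.log (1 - μ p) ≤ Real.log (1 - ε) :=
    Real.log_le_log (by linarith [hp'.2]) (by linarith [hp'.1])
  have b3 : Real.log (μ q) ≤ Real.log (1 - ε) := Real.log_le_log (by linarith [hq'.1]) hq'.2.le
  have b4 : Real.log ε ≤ Real.log (1 - μ q) := Real.log_le_log hε0 (by linarith [hq'.2])
  have b5 : Real.log (1 - ε) - Real.log ε ≤ 2 * Real.log (1 / (2 * ε)) := by
    rw [← Real.log_div (by linarith) hε0.ne', show 2 * Real.log (1 / (2 * ε)) =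
      Real.log ((1 / (2 * ε)) ^ 2) by rw [Real.log_pow]; norm_num]
    refine Real.log_le_log (div_pos (by linarith) hε0) ?_
    rw [div_pow, div_le_div_iff₀ hε0 (by positivity)]
    nlinarith [sq_nonneg (2 * ε - 1), mul_nonneg hε0.le (sq_nonneg (2 * ε - 1))]
  have b6 : c * (2 ^ 19 / Real.log n ^ 2 * Real.log (1 / (2 * ε))) ≤ c * (q - p) :=
    mul_le_mul_of_nonneg_left (by linarith) (by positivity)
  have b7 : c * (2 ^ 19 / Real.log n ^ 2 * Real.log (1 / (2 * ε))) =
      2 ^ 19 / 22500 * Real.log (1 / (2 * ε)) := by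
    rw [hc]; field_simp
  rw [b7] at b6
  nlinarith

end Crest.Agent.S0077
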