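import Crest.Statements.S0078
import Crest.Agent.H6.SymBridge

set_option autoImplicit false
open Crest Crest.CombinatoricsR

namespace Crest.Agent.S0078

/-- For every r ≥ 3 there is a real constant C such that for all n ≥ r, all 0 < p < 1 and every Boolean function f of the simple r-uniform hypergraph on n labelled vertices that is invariant under renaming the vertices (no monotonicity assumed), the variance of f under independent edge-coins of bias p, namely P(f = true) · (1 - P(f = true)), is at most C · (log n)^(-r/(r-1)) times the total pivotal influence of f at bias p (natural logarithm). -/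
theorem result (r : ℕ) (hr : 3 ≤ r) :
    ∃ C : ℝ, ∀ n : ℕ, r ≤ n → ∀ p : ℝ, 0 < p → p < 1 →
      ∀ f : (Crest.CombinatoricsR.HypergraphCube.HyperedgeSlot n r → Bool) → Bool,
        Crest.CombinatoricsR.HypergraphCube.IsSymmetric f →
          Crest.CombinatoricsR.HypergraphCube.probTrue p f *
              (1 - Crest.CombinatoricsR.HypergraphCube.probTrue p f) ≤
            C / Real.log n ^ ((r : ℝ) / ((r : ℝ) - 1)) *
              Crest.CombinatoricsR.HypergraphCube.totalInfluence p f := by
  open Crest.Agent.H6.Cube Crest.CombinatoricsR.HypergraphCube in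
  refine ⟨(3 * (9 * r + 7)) ^ ((r : ℝ) / ((r : ℝ) - 1)) * (2 * r), fun n hn p hp0 hp1 f hf => ?_⟩
  have hb : ∀ x, bv (f x) = 0 ∨ bv (f x) = 1 := fun x => by cases f x <;> simp
  have hsym : SymData r (fun e : HyperedgeSlot n r => e.1) (fun x => bv (f x)) := by
    refine ⟨fun e => e.2, Subtype.val_injective, fun a b => ?_, hb⟩
    have hinv : Function.Involutive (relabelSlot (r := r) (Equiv.swap a b)) := by
      intro e
      apply Subtype.ext
      simp only [relabelSlot, Finset.map_map]
      ext c
      simp
    exact ⟨hinv.toPerm, fun e => rfl, fun x => congrArg bv (hf (Equiv.swap a b) x)⟩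
  have hmain := sym_influence hsym (by omega) (by rw [Fintype.card_fin]; omega) hp0 hp1
  rw [var_bool p hb, Fintype.card_fin] at hmain
  have h1 : probTrue p f = Ex (fun _ => p) (fun x => bv (f x)) :=
    prob_eq p _ _ (fun x hx => by simp [show f x = true from hx])
      (fun x hx => by simp [show f x = false by simpa using hx])
  have h2 : totalInfluence p f = ∑ e, Inf p (fun x => bv (f x)) e := by
    refine Finset.sum_congr rfl fun e _ => prob_eq p _ _ (fun x hx => ?_) (fun x hx => ?_)
    · simp only [Set.mem_ofPred_eq] at hx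
      simp only [D]
      revert hx
      cases f (Function.update x e true) <;> cases f (Function.update x e false) <;> simp
    · simp only [Set.mem_ofPred_eq, not_not] at hx
      simp [D, hx]
  rw [h1, h2]
  set μ := Ex (fun _ => p) (fun x => bv (f x)) with hμ
  set I := ∑ e, Inf p (fun x => bv (f x)) e with hI
  have hI0 : 0 ≤ I := Finset.sum_nonneg fun e _ => Inf_nonneg hp0.le hp1.le _ e
  have hr' : (3 : ℝ) ≤ r := by exact_mod_cast hr
  have hL : 0 < Real.log n := Real.log_pos (by exact_mod_cast (by omega : 1 < n))
  have hpow : ∀ y : ℝ, 0 ≤ y → (y ^ ((r : ℝ) / ((r : ℝ) - 1))) ^ (r - 1) = y ^ r := by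
    intro y hy
    rw [← Real.rpow_natCast, ← Real.rpow_mul hy, ← Real.rpow_natCast]
    congr 1
    rw [Nat.cast_sub (by omega), Nat.cast_one, div_mul_cancel₀ _ (by linarith)]
  have hLp : 0 < Real.log n ^ ((r : ℝ) / ((r : ℝ) - 1)) := Real.rpow_pos_of_pos hL _
  rw [← hpow _ hL.le, ← hpow (3 * (9 * r + 7)) (by positivity), ← mul_pow, ← mul_pow] at hmain
  have h3 := le_of_pow_le_pow_left₀ (by omega) (by positivity) hmain
  rw [div_mul_eq_mul_div, le_div_iff₀ hLp]
  linarith

end Crest.Agent.S0078
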