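import Crest.Statements.S0094
import Crest.Agent.H8.EntDualC

set_option autoImplicit false
open Pointwise Crest.AnalysisR
open Crest Crest.AnalysisR

namespace Crest.Agent.S0094

/-- For all real a, b ≥ 1 there are n ≥ 1 and a compact convex set K in Euclidean n-space with nonempty interior, symmetric about 0, such that, with L the cube of points having all coordinates in [-1, 1] and polars taken for the standard inner product (the y pairing to at most 1 with each point of the set): some m translates of a⁻¹ • (polar of K) cover the polar of L, while any k translates of L covering K satisfy b * log m < log k. So log N(K, L) > b log N(L°, a⁻¹K°) for covering numbers N. -/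
theorem result
    (a b : ℝ) (ha : 1 ≤ a) (hb : 1 ≤ b) :
    ∃ n : ℕ, 0 < n ∧ ∃ K : Set (EuclideanSpace ℝ (Fin n)),
      Convex ℝ K ∧ IsCompact K ∧ (interior K).Nonempty ∧ (∀ x ∈ K, -x ∈ K) ∧
      ∃ t₁ : Finset (EuclideanSpace ℝ (Fin n)),
        polarSet {x : EuclideanSpace ℝ (Fin n) | ∀ i, |x i| ≤ 1} ⊆ ⋃ y ∈ t₁, (y +ᵥ a⁻¹ • polarSet K) ∧
        ∀ t₂ : Finset (EuclideanSpace ℝ (Fin n)),
          K ⊆ ⋃ x ∈ t₂, (x +ᵥ {z : EuclideanSpace ℝ (Fin n) | ∀ i, |z i| ≤ 1}) →
          b * Real.log t₁.card < Real.log t₂.card := by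
  classical
  have ha0 : 0 < a := by linarith
  obtain ⟨m, hm⟩ := exists_nat_gt (24 * a)
  obtain ⟨X, F, D, iX, nX, iF, nF, iD, f, g, hdual, hprimal⟩ := Crest.Agent.H8ED.core m b hb
  set n := Fintype.card X with hn
  let e : X ≃ Fin n := Fintype.equivFin X
  set lam : ℝ := 1 / (12 * a) with hlam
  set κ : ℝ := 1 / (4 * a) with hκ
  have hlam0 : 0 < lam := by positivity
  have hκ0 : 0 < κ := by positivity
  let v : F → EuclideanSpace ℝ (Fin n) := fun α => WithLp.toLp 2 (fun i => lam * f α (e.symm i))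
  let S : Set (EuclideanSpace ℝ (Fin n)) := Set.range v ∪ -Set.range v
  have hSfin : S.Finite := (Set.finite_range v).union (Set.finite_range v).neg
  have hSneg : -S = S := by
    simp only [S, Set.union_neg, neg_neg]
    exact Set.union_comm _ _
  have hvS : ∀ α, v α ∈ convexHull ℝ S := fun α =>
    subset_convexHull ℝ S (Or.inl ⟨α, rfl⟩)
  have hinner : ∀ (α : F) (y : EuclideanSpace ℝ (Fin n)),
      inner ℝ (v α) y = lam * ∑ x, f α x * y (e x) := by
    intro α y
    rw [PiLp.inner_apply, Finset.mul_sum]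
    refine (Fintype.sum_equiv e _ _ fun x => ?_).symm
    simp [v]
    ring
  -- the polar of the cube lies in the `ℓ¹` ball
  have hl1 : ∀ y ∈ polarSet {x : EuclideanSpace ℝ (Fin n) | ∀ i, |x i| ≤ 1},
      ∑ i, |y i| ≤ 1 := by
    intro y hy
    have := hy (WithLp.toLp 2 (fun i => if 0 ≤ y i then 1 else -1)) (by
      intro i
      by_cases h : 0 ≤ y i <;> simp [h])
    rw [PiLp.inner_apply] at this
    refine le_of_eq_of_le (Finset.sum_congr rfl fun i _ => ?_) this
    by_cases h : 0 ≤ y i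
    · simp [h, abs_of_nonneg h]
    · simp [h, abs_of_neg (not_le.1 h)]
  have hnorm : ∀ y : EuclideanSpace ℝ (Fin n), ∑ i, |y i| ≤ 1 → ‖y‖ ≤ 1 := by
    intro y hy
    have h1 : ‖y‖ ^ 2 ≤ (∑ i, |y i|) ^ 2 := by
      rw [EuclideanSpace.real_norm_sq_eq]
      refine le_of_eq_of_le (Finset.sum_congr rfl fun i _ => (sq_abs _).symm) ?_
      exact Finset.sum_sq_le_sq_sum_of_nonneg fun i _ => abs_nonneg _
    have h2 : 0 ≤ ∑ i, |y i| := Finset.sum_nonneg fun i _ => abs_nonneg _
    exact (pow_le_pow_iff_left₀ (norm_nonneg _) h2 two_ne_zero).1 h1 |>.trans hy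
  let fits : D → EuclideanSpace ℝ (Fin n) → Prop := fun d y =>
    ∑ i, |y i| ≤ 1 ∧ ∀ α, |∑ x, f α x * y (e x) - g d α| ≤ 3
  have hrep : ∀ d, ∃ y : EuclideanSpace ℝ (Fin n), (∃ z, fits d z) → fits d y := by
    intro d
    by_cases h : ∃ z, fits d z
    · obtain ⟨z, hz⟩ := h
      exact ⟨z, fun _ => hz⟩
    · exact ⟨0, fun h' => (h h').elim⟩
  choose rep hrep using hrep
  refine ⟨n, Fintype.card_pos, convexHull ℝ S + Metric.closedBall 0 κ,
    (convex_convexHull ℝ S).add (convex_closedBall 0 κ),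
    (hSfin.isCompact_convexHull ℝ).add (isCompact_closedBall 0 κ), ?_, ?_,
    Finset.univ.image rep, ?_, ?_⟩
  · obtain ⟨α⟩ := nF
    refine ⟨v α, mem_interior.2 ⟨Metric.ball (v α) κ, fun z hz => ?_, Metric.isOpen_ball,
      Metric.mem_ball_self hκ0⟩⟩
    refine ⟨v α, hvS α, z - v α, ?_, by simp⟩
    rw [Metric.mem_ball, dist_eq_norm] at hz
    simpa using hz.le
  · rintro x ⟨y, hy, z, hz, rfl⟩
    refine ⟨-y, ?_, -z, by simpa using hz, by simp [add_comm]⟩
    rw [← hSneg, convexHull_neg]
    simpa using hy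
  · intro y hy
    have hy1 := hl1 y hy
    obtain ⟨d, hd⟩ := hdual (fun x => y (e x)) (by
      rwa [Fintype.sum_equiv e (fun x => |y (e x)|) (fun i => |y i|) (fun _ => rfl)])
    obtain ⟨hr1, hr2⟩ := hrep d ⟨y, hy1, hd⟩
    simp only [Set.mem_iUnion]
    refine ⟨rep d, Finset.mem_image_of_mem _ (Finset.mem_univ _), y - rep d, ?_, by simp⟩
    refine ⟨a • (y - rep d), ?_, by simp [smul_smul, inv_mul_cancel₀ ha0.ne']⟩
    have hv : ∀ α, |inner ℝ (v α) (a • (y - rep d))| ≤ 1 / 2 := by
      intro α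
      rw [inner_smul_right, inner_sub_right, hinner, hinner, ← mul_sub, ← mul_assoc, abs_mul]
      have h1 := abs_le.1 (hd α)
      have h2 := abs_le.1 (hr2 α)
      have h3 : |∑ x, f α x * y (e x) - ∑ x, f α x * (rep d) (e x)| ≤ 6 := by
        rw [abs_le]; constructor <;> linarith
      have h4 : a * lam = 1 / 12 := by rw [hlam]; field_simp
      rw [h4, abs_of_pos (by norm_num : (0 : ℝ) < 1 / 12)]
      linarith
    rintro x ⟨u, hu, z, hz, rfl⟩
    have hu' : inner ℝ u (a • (y - rep d)) ≤ 1 / 2 := by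
      have hconv : Convex ℝ {w : EuclideanSpace ℝ (Fin n) |
          inner ℝ w (a • (y - rep d)) ≤ (1 / 2 : ℝ)} :=
        convex_halfSpace_le ⟨fun w w' => inner_add_left _ _ _,
          fun c w => by rw [real_inner_smul_left, smul_eq_mul]⟩ _
      refine convexHull_min ?_ hconv hu
      rintro w (⟨α, rfl⟩ | hw)
      · exact (abs_le.1 (hv α)).2
      · obtain ⟨α, hα⟩ := Set.mem_neg.1 hw
        have : w = -v α := by rw [hα, neg_neg]
        rw [Set.mem_ofPred_eq, this, inner_neg_left]
        linarith [(abs_le.1 (hv α)).1]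
    have hz' : inner ℝ z (a • (y - rep d)) ≤ 1 / 2 := by
      have h1 : ‖z‖ ≤ κ := by simpa using hz
      have h2 : ‖a • (y - rep d)‖ ≤ a * 2 := by
        rw [norm_smul, Real.norm_of_nonneg ha0.le]
        refine mul_le_mul_of_nonneg_left ((norm_sub_le _ _).trans ?_) ha0.le
        linarith [hnorm y hy1, hnorm _ hr1]
      refine (real_inner_le_norm _ _).trans ?_
      calc ‖z‖ * ‖a • (y - rep d)‖ ≤ κ * (a * 2) :=
            mul_le_mul h1 h2 (norm_nonneg _) hκ0.le
        _ = 1 / 2 := by rw [hκ]; field_simp; norm_num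
    change inner ℝ (u + z) (a • (y - rep d)) ≤ (1 : ℝ)
    rw [inner_add_left]
    linarith
  · intro t₂ ht₂
    have hc : ∀ α, ∃ x ∈ t₂, ∀ i, |v α i - x i| ≤ 1 := by
      intro α
      have := ht₂ ⟨v α, hvS α, 0, Metric.mem_closedBall_self hκ0.le, add_zero _⟩
      simp only [Set.mem_iUnion] at this
      obtain ⟨x, hx, z, hz, hxz⟩ := this
      refine ⟨x, hx, fun i => ?_⟩
      rw [← hxz]
      simpa using hz i
    choose c hc1 hc2 using hc
    have h1 := hprimal _ t₂ c hc1 (by
      intro α β hαβ x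
      have h1 := abs_le.1 (hc2 α (e x))
      have h2 := abs_le.1 (hc2 β (e x))
      rw [hαβ] at h1
      simp only [v, Equiv.symm_apply_apply] at h1 h2
      have h3 : |lam * (f α x - f β x)| ≤ 2 := by
        rw [abs_le]; constructor <;> linarith
      rw [abs_mul, abs_of_pos hlam0, hlam, div_mul_eq_mul_div, one_mul,
        div_le_iff₀ (by positivity)] at h3
      linarith)
    refine lt_of_le_of_lt (mul_le_mul_of_nonneg_left ?_ (by linarith)) h1
    have h2 : (Finset.univ.image rep).card ≤ Fintype.card D :=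
      Finset.card_image_le.trans (by simp)
    rcases Nat.eq_zero_or_pos (Finset.univ.image rep).card with h | h
    · rw [h]
      simpa using Real.log_natCast_nonneg _
    · exact Real.log_le_log (by exact_mod_cast h) (by exact_mod_cast h2)

end Crest.Agent.S0094
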