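import Crest.Statements.S0103
import Crest.Agent.H1KK.Main
import Crest.Agent.H1KK.Newton
import Crest.Agent.H1KK.F3

set_option autoImplicit false
open Crest Crest.AnalysisR Crest.AnalysisR.OperatorAlgebra

namespace Crest.Agent.S0103

/-- For every ε > 0 there is δ > 0 such that, for every complex Hilbert space H and all von Neumann algebras M and N on H for which every element of norm at most 1 of either algebra lies within operator-norm distance less than δ of some element of norm at most 1 of the other, there is a unitary operator u on H with ‖u − 1‖ < ε and u M u⋆ = N (the elements of N are exactly the conjugates u x u⋆ of elements x of M). -/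
theorem result (ε : ℝ) (hε : 0 < ε) :
    ∃ δ : ℝ, 0 < δ ∧
      ∀ (H : Type*) [NormedAddCommGroup H] [InnerProductSpace ℂ H] [CompleteSpace H] (M N : VonNeumannAlgebra H),
        (∀ x ∈ M, ‖x‖ ≤ 1 → ∃ y ∈ N, ‖y‖ ≤ 1 ∧ ‖x - y‖ < δ) →
        (∀ y ∈ N, ‖y‖ ≤ 1 → ∃ x ∈ M, ‖x‖ ≤ 1 ∧ ‖y - x‖ < δ) →
        ∃ u : H →L[ℂ] H, u ∈ unitary (H →L[ℂ] H) ∧ ‖u - 1‖ < ε ∧
          ∀ y : H →L[ℂ] H, y ∈ N ↔ ∃ x ∈ M, y = u * x * star u := by
  obtain ⟨δ, hδ, h⟩ := H1KK.kk_of H1KK.newton (fun c hc => by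
    obtain ⟨δ₀, h0, h⟩ := H1KK.lift_main c hc
    exact ⟨δ₀, h0, h δ₀ h0.le le_rfl⟩) ε hε
  exact ⟨δ, hδ, fun H _ _ _ M N h1 h2 => h H M N
    (fun x hx hx1 => let ⟨y, a, b, c⟩ := h1 x hx hx1; ⟨y, a, b, c.le⟩)
    (fun x hx hx1 => let ⟨y, a, b, c⟩ := h2 x hx hx1; ⟨y, a, b, c.le⟩)⟩

end Crest.Agent.S0103
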