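import Crest.Statements.S0109
import Crest.Agent.H6.OTQuant

set_option autoImplicit false
open MeasureTheory
open scoped ENNReal NNReal
open Crest.AnalysisR.OT
open Crest Crest.AnalysisR Crest.AnalysisR.OT

namespace Crest.Agent.S0109

/-- Fix d ≥ 2, a compact convex K ⊆ ℝᵈ with nonempty interior, ρ the uniform probability measure on K, and a nonempty compact Y ⊆ ℝᵈ. There is a constant C such that for all probability measures μ, ν carried by Y, all quadratic optimal transport maps Tμ from ρ to μ and Tν from ρ to ν, and every coupling π of μ and ν, ∫ ‖Tμ - Tν‖² dρ ≤ C · (∫ ‖y - z‖² dπ)^(1/3). With the best coupling: the L²(ρ) distance of the maps is at most √C times the cube root of the Wasserstein-2 distance of the targets. -/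
theorem result
    (d : ℕ) (hd : 2 ≤ d) (K : Set (EuclideanSpace ℝ (Fin d))) (hKc : IsCompact K) (hKv : Convex ℝ K)
    (hKi : (interior K).Nonempty) (Y : Set (EuclideanSpace ℝ (Fin d))) (hYc : IsCompact Y) (hYn : Y.Nonempty) :
    ∃ C : ℝ≥0, ∀ μ ν : Measure (EuclideanSpace ℝ (Fin d)), IsProbabilityOn Y μ → IsProbabilityOn Y ν →
      ∀ Tμ Tν : EuclideanSpace ℝ (Fin d) → EuclideanSpace ℝ (Fin d),
        IsOptimalMap (uniformProbOn K) μ Tμ → IsOptimalMap (uniformProbOn K) ν Tν →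
        ∀ π : Measure (EuclideanSpace ℝ (Fin d) × EuclideanSpace ℝ (Fin d)), IsPairCoupling μ ν π →
          ∫⁻ x, ‖Tμ x - Tν x‖ₑ ^ 2 ∂(uniformProbOn K) ≤ C * quadCost π ^ (1 / 3 : ℝ) := by
  have : Nonempty (Fin d) := ⟨⟨0, by omega⟩⟩
  have hK := hKc.measurableSet
  have h0 : volume K ≠ 0 := (Measure.measure_pos_of_nonempty_interior volume hKi).ne'
  obtain ⟨R, hR0, hR⟩ := hKc.isBounded.exists_pos_norm_le
  obtain ⟨L, hL0, hL⟩ := hYc.isBounded.exists_pos_norm_le
  obtain ⟨x0, hx0⟩ := hKi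
  obtain ⟨r0, hr0, hb⟩ := Metric.nhds_basis_closedBall.mem_iff.mp (mem_interior_iff_mem_nhds.mp hx0)
  have hs := H6OT.src_uniform hK h0 hKc.measure_lt_top.ne hR
  have := hs.prob
  set A : ℝ := 18 * H6OT.potC R with hA
  set B : ℝ := 4 * (L + 1) ^ 2 * ((volume K)⁻¹.toReal *
    volume.real (Metric.closedBall (0 : EuclideanSpace ℝ (Fin d)) (R + 2)) + d / r0) with hB
  have hA0 : 0 ≤ A := by rw [hA]; unfold H6OT.potC; positivity
  have hB0 : 0 ≤ B := by positivity
  set r1 : ℝ := min r0 1 with hr1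
  have hr1' : 0 < r1 := lt_min hr0 one_pos
  set C : ℝ := d * (A + B) + (2 * L) ^ 2 / r1 with hC
  have hC0 : 0 ≤ C := by positivity
  refine ⟨⟨C, hC0⟩, fun μ ν hμ hν T T' hT hT' π hπ => ?_⟩
  have hμL : ∀ᵐ v ∂μ, ‖v‖ ≤ L :=
    (show ∀ᵐ v ∂μ, v ∈ Y from hμ.2).mono hL
  have hνL : ∀ᵐ v ∂ν, ‖v‖ ≤ L :=
    (show ∀ᵐ v ∂ν, v ∈ Y from hν.2).mono hL
  have : IsProbabilityMeasure π := ⟨by
    have h1 := hμ.1.measure_univ
    rwa [← hπ.1, Measure.map_apply measurable_fst MeasurableSet.univ, Set.preimage_univ] at h1⟩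
  have hπL : ∀ᵐ p ∂π, ‖p.1‖ ≤ L ∧ ‖p.2‖ ≤ L :=
    (ae_of_ae_map (p := fun v => ‖v‖ ≤ L) measurable_fst.aemeasurable (hπ.1 ▸ hμL)).and
      (ae_of_ae_map (p := fun v => ‖v‖ ≤ L) measurable_snd.aemeasurable (hπ.2 ▸ hνL))
  have iq : Integrable (fun p : EuclideanSpace ℝ (Fin d) × EuclideanSpace ℝ (Fin d) =>
      ‖p.1 - p.2‖ ^ 2) π := by
    refine Integrable.of_bound (by fun_prop) ((2 * L) ^ 2) ?_
    filter_upwards [hπL] with p hp
    rw [norm_pow, norm_norm]
    gcongr
    linarith [norm_sub_le p.1 p.2]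
  have hTT : ∀ᵐ x ∂uniformProbOn K, ‖T x - T' x‖ ≤ 2 * L := by
    filter_upwards [H6OT.ae_push hT.1 hT.2.1 hμL, H6OT.ae_push hT'.1 hT'.2.1 hνL] with x h1 h2
    linarith [norm_sub_le (T x) (T' x)]
  have hm := hT.1.sub hT'.1
  have iE : Integrable (fun x => ‖T x - T' x‖ ^ 2) (uniformProbOn K) := by
    refine Integrable.of_bound (hm.norm.pow_const 2).aestronglyMeasurable ((2 * L) ^ 2) ?_
    filter_upwards [hTT] with x hx
    rw [norm_pow, norm_norm]
    gcongr
  set q : ℝ := ∫ p, ‖p.1 - p.2‖ ^ 2 ∂π with hq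
  set E : ℝ := ∫ x, ‖T x - T' x‖ ^ 2 ∂uniformProbOn K with hE
  have hq0 : 0 ≤ q := integral_nonneg fun _ => sq_nonneg _
  have e1 : quadCost π = ENNReal.ofReal q := by
    rw [hq, ofReal_integral_eq_lintegral_ofReal iq
      (Filter.Eventually.of_forall fun x => sq_nonneg _), quadCost]
    congr 1; ext x
    rw [ENNReal.ofReal_pow (norm_nonneg _), ofReal_norm]
  have e2 : ∫⁻ x, ‖T x - T' x‖ₑ ^ 2 ∂(uniformProbOn K) = ENNReal.ofReal E := by
    rw [hE, ofReal_integral_eq_lintegral_ofReal iE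
      (Filter.Eventually.of_forall fun x => sq_nonneg _)]
    congr 1; ext x
    rw [ENNReal.ofReal_pow (norm_nonneg _), ofReal_norm]
  have hEL : E ≤ (2 * L) ^ 2 := by
    calc E ≤ ∫ _x, (2 * L) ^ 2 ∂uniformProbOn K := by
          refine integral_mono_ae iE (integrable_const _) ?_
          filter_upwards [hTT] with x hx
          gcongr
      _ = _ := by simp
  have key : ∀ r : ℝ, 0 < r → r ≤ r1 → r ^ 2 * E ≤ d * (A * q + r ^ 3 * B) := by
    intro r hr hrr
    have e3 : E = ∑ k : Fin d, ∫ x, (inner ℝ (EuclideanSpace.single k (1 : ℝ)) (T x - T' x)) ^ 2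
        ∂uniformProbOn K := by
      rw [← integral_finsetSum]
      · rw [hE]
        congr 1; ext x
        rw [EuclideanSpace.real_norm_sq_eq]
        simp [EuclideanSpace.inner_single_left]
      · intro k _
        refine iE.mono' ((measurable_const.inner hm).pow_const 2).aestronglyMeasurable
          (Filter.Eventually.of_forall fun x => ?_)
        rw [norm_pow]
        gcongr
        simpa using abs_real_inner_le_norm (EuclideanSpace.single k (1 : ℝ)) (T x - T' x)
    rw [e3, Finset.mul_sum]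
    refine (Finset.sum_le_sum fun k _ => H6OT.main_real hKc hKv h0 hR0 hR hr0 hb hr
      (hrr.trans (min_le_left _ _)) (hrr.trans (min_le_right _ _)) hL0.le hμL hνL hT hT' hπ
      (by simp)).trans (le_of_eq ?_)
    rw [Finset.sum_const, Finset.card_univ, Fintype.card_fin, nsmul_eq_mul]
  set t : ℝ := q ^ (1 / 3 : ℝ) with ht
  have ht0 : 0 ≤ t := Real.rpow_nonneg hq0 _
  have ht3 : t ^ 3 = q := by
    rw [ht, ← Real.rpow_natCast, ← Real.rpow_mul hq0]; norm_num
  have fin : E ≤ C * t := by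
    rcases ht0.eq_or_lt with h | h
    · have : E ≤ 0 := by
        refine H6OT.le_of_small (B := d * (r1 * B)) fun δ hδ hδ1 => ?_
        have h1 := key (δ * r1) (by positivity) (mul_le_of_le_one_left hr1'.le hδ1)
        rw [← ht3, ← h] at h1
        have h2 : (δ * r1) ^ 2 * E ≤ (δ * r1) ^ 2 * (0 + δ * (d * (r1 * B))) := by
          refine h1.trans (le_of_eq ?_); ring
        exact le_of_mul_le_mul_left h2 (by positivity)
      rw [← h]; linarith
    · by_cases h1 : t ≤ r1
      · have h2 := key t h h1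
        rw [← ht3] at h2
        have h3 : t ^ 2 * E ≤ t ^ 2 * (d * (A + B) * t) := by
          refine h2.trans (le_of_eq ?_); ring
        have h4 := le_of_mul_le_mul_left h3 (by positivity)
        have h5 : 0 ≤ (2 * L) ^ 2 / r1 * t := by positivity
        rw [hC]; linarith
      · have h2 : (2 * L) ^ 2 ≤ (2 * L) ^ 2 / r1 * t := by
          rw [div_mul_eq_mul_div, le_div_iff₀ hr1']
          gcongr
          exact (not_le.mp h1).le
        have h5 : 0 ≤ d * (A + B) * t := by positivity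
        rw [hC]; linarith
  rw [e1, e2, ENNReal.ofReal_rpow_of_nonneg hq0 (by norm_num), ← ht]
  refine (ENNReal.ofReal_le_ofReal fin).trans (le_of_eq ?_)
  rw [ENNReal.ofReal_mul hC0, ENNReal.ofReal_eq_coe_nnreal hC0]
  rfl

end Crest.Agent.S0109
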