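import Crest.Statements.S0110
import Crest.Agent.H6.OTSharp

set_option autoImplicit false
open MeasureTheory
open scoped ENNReal NNReal
open Crest.AnalysisR.OT
open Crest Crest.AnalysisR Crest.AnalysisR.OT

namespace Crest.Agent.S0110

/-- The exponent one third is optimal, even on the cube with three-atom targets: for d ≥ 2, ρ the uniform probability measure on the cube of points of ℝᵈ with all coordinates in [-1, 1], every α > 1/3 and every C ≥ 0, there are three-atomic probability measures μ, ν on that cube, each admitting a quadratic optimal transport map from ρ, such that for all such optimal maps Tμ, Tν some coupling π of μ, ν has C · (∫ ‖y - z‖² dπ)^α < ∫ ‖Tμ - Tν‖² dρ. Hence ‖Tμ - Tν‖_{L²(ρ)} > √C · W₂(μ, ν)^α. -/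
theorem result
    (d : ℕ) (hd : 2 ≤ d) (α : ℝ) (hα : 1 / 3 < α) (C : ℝ≥0) :
    ∃ μ ν : Measure (EuclideanSpace ℝ (Fin d)),
      IsProbabilityOn {x : EuclideanSpace ℝ (Fin d) | ∀ i, |x i| ≤ 1} μ ∧
      IsProbabilityOn {x : EuclideanSpace ℝ (Fin d) | ∀ i, |x i| ≤ 1} ν ∧
      IsThreeAtomic μ ∧ IsThreeAtomic ν ∧
      (∃ T, IsOptimalMap (uniformProbOn {x : EuclideanSpace ℝ (Fin d) | ∀ i, |x i| ≤ 1}) μ T) ∧
      (∃ T, IsOptimalMap (uniformProbOn {x : EuclideanSpace ℝ (Fin d) | ∀ i, |x i| ≤ 1}) ν T) ∧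
      ∀ Tμ Tν : EuclideanSpace ℝ (Fin d) → EuclideanSpace ℝ (Fin d),
        IsOptimalMap (uniformProbOn {x : EuclideanSpace ℝ (Fin d) | ∀ i, |x i| ≤ 1}) μ Tμ →
        IsOptimalMap (uniformProbOn {x : EuclideanSpace ℝ (Fin d) | ∀ i, |x i| ≤ 1}) ν Tν →
        ∃ π : Measure (EuclideanSpace ℝ (Fin d) × EuclideanSpace ℝ (Fin d)), IsPairCoupling μ ν π ∧
          (C : ℝ≥0∞) * quadCost π ^ α < ∫⁻ x, ‖Tμ x - Tν x‖ₑ ^ 2 ∂(uniformProbOn {x : EuclideanSpace ℝ (Fin d) | ∀ i, |x i| ≤ 1}) := by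
  set i : Fin d := ⟨0, by omega⟩ with hi
  set j : Fin d := ⟨1, by omega⟩ with hj
  have hij : i ≠ j := by simp [hi, hj]
  -- choice of ε
  obtain ⟨ε, hε0, hε1, hε2⟩ : ∃ ε : ℝ, 0 < ε ∧ ε ≤ 1 / 2 ∧ (C : ℝ) * (ε ^ 3) ^ α < ε / 16 := by
    have t1 : Filter.Tendsto (fun ε : ℝ => (C : ℝ) * ε ^ (3 * α - 1)) (nhdsWithin 0 (Set.Ioi 0))
        (nhds 0) := by
      have h := (Real.continuousAt_rpow_const 0 (3 * α - 1) (Or.inr (by linarith))).tendsto
      rw [Real.zero_rpow (by linarith)] at h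
      simpa using (h.const_mul (C : ℝ)).mono_left nhdsWithin_le_nhds
    obtain ⟨ε, h1, h2⟩ := ((t1.eventually (gt_mem_nhds (show (0 : ℝ) < 1 / 16 by norm_num))).and
      (Ioc_mem_nhdsGT (show (0 : ℝ) < 1 / 2 by norm_num))).exists
    refine ⟨ε, h2.1, h2.2, ?_⟩
    have e : (ε ^ 3) ^ α = ε ^ (3 * α - 1) * ε := by
      rw [← Real.rpow_natCast, ← Real.rpow_mul h2.1.le, ← Real.rpow_add_one h2.1.ne']
      norm_num
    rw [e, ← mul_assoc]
    nlinarith [h2.1]
  set m : Fin 3 → ℝ := ![(1 - ε) / 2, ε, (1 - ε) / 2] with hm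
  have hm0 : ∀ a, 0 < m a := by
    intro a; fin_cases a <;> simp [hm] <;> linarith
  have hm1 : ∑ a, ENNReal.ofReal (m a) = 1 := by
    rw [← ENNReal.ofReal_sum_of_nonneg fun a _ => (hm0 a).le, Fin.sum_univ_three]
    simp only [hm, Matrix.cons_val_zero, Matrix.cons_val_one, Matrix.cons_val]
    rw [show (1 - ε) / 2 + ε + (1 - ε) / 2 = 1 by ring, ENNReal.ofReal_one]
  set y := H6OT.site i j 0 with hy
  set z := H6OT.site i j ε with hz
  obtain ⟨oy, uy⟩ := H6OT.semi_opt H6OT.src_cube (H6OT.site_inj hij 0) ![ε, 0, ε]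
    (H6OT.mass_site hij le_rfl hε0.le hε1)
  obtain ⟨oz, uz⟩ := H6OT.semi_opt H6OT.src_cube (H6OT.site_inj hij ε) ![ε, 0, ε]
    (H6OT.mass_site hij hε0.le le_rfl hε1)
  have prob : ∀ w : Fin 3 → EuclideanSpace ℝ (Fin d), (∀ a, w a ∈ H6OT.cube d) →
      IsProbabilityOn (H6OT.cube d) (∑ a, ENNReal.ofReal (m a) • Measure.dirac (w a)) := by
    intro w hw
    refine ⟨⟨by simpa using hm1⟩, ?_⟩
    simp [Measure.dirac_apply' _ H6OT.measurableSet_cube.compl, hw]
  refine ⟨∑ a, ENNReal.ofReal (m a) • Measure.dirac (y a),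
    ∑ a, ENNReal.ofReal (m a) • Measure.dirac (z a),
    prob y (H6OT.site_mem le_rfl zero_le_one), prob z (H6OT.site_mem hε0.le (by linarith)),
    ⟨y, H6OT.site_inj hij 0, m, hm0, rfl⟩, ⟨z, H6OT.site_inj hij ε, m, hm0, rfl⟩, oy, oz,
    fun T T' hT hT' => ⟨∑ a, ENNReal.ofReal (m a) • Measure.dirac (y a, z a), ⟨?_, ?_⟩, ?_⟩⟩
  · rw [← Measure.sum_fintype, Measure.map_sum measurable_fst.aemeasurable, Measure.sum_fintype]
    simp
  · rw [← Measure.sum_fintype, Measure.map_sum measurable_snd.aemeasurable, Measure.sum_fintype]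
    simp
  have e1 : quadCost (∑ a, ENNReal.ofReal (m a) • Measure.dirac (y a, z a)) =
      ENNReal.ofReal (ε ^ 3) := by
    rw [quadCost, lintegral_finsetSum_measure, Fin.sum_univ_three]
    simp only [lintegral_smul_measure, lintegral_dirac, smul_eq_mul]
    have h1 : ‖y 1 - z 1‖ₑ = ENNReal.ofReal ε := by
      rw [← ofReal_norm]
      simp [hy, hz, H6OT.site, norm_smul, abs_of_pos hε0]
    have h0 : y 0 - z 0 = 0 := by simp [hy, hz, H6OT.site]
    have h2 : y 2 - z 2 = 0 := by simp [hy, hz, H6OT.site]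
    rw [h0, h1, h2]
    simp only [enorm_zero, ne_eq, OfNat.ofNat_ne_zero, not_false_eq_true, zero_pow, mul_zero,
      zero_add, add_zero, hm, Matrix.cons_val_one, Matrix.cons_val_zero]
    rw [ENNReal.ofReal_pow hε0.le]; ring
  set G : Set (EuclideanSpace ℝ (Fin d)) :=
    {x | (x i, x j) ∈ Set.Ioo (ε / 2) ε ×ˢ Set.Ioo (-1 : ℝ) (-1 / 2)} with hG
  have hS : MeasurableSet (Set.Ioo (ε / 2) ε ×ˢ Set.Ioo (-1 : ℝ) (-1 / 2)) :=
    measurableSet_Ioo.prod measurableSet_Ioo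
  have hGm : MeasurableSet G := (by fun_prop : Measurable fun x : EuclideanSpace ℝ (Fin d) =>
    (x i, x j)) hS
  have e2 : uniformProbOn (H6OT.cube d) G = ENNReal.ofReal (ε / 16) := by
    rw [hG, H6OT.cube_two hij hS, Measure.prod_prod, H6OT.UU_apply measurableSet_Ioo,
      H6OT.UU_apply measurableSet_Ioo,
      Set.inter_eq_left.mpr (Set.Ioo_subset_Icc_self.trans
        (Set.Icc_subset_Icc (by linarith) (by linarith))),
      Set.inter_eq_left.mpr (Set.Ioo_subset_Icc_self.trans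
        (Set.Icc_subset_Icc (by linarith) (by linarith))), Real.volume_Ioo, Real.volume_Ioo,
      show (2 : ℝ≥0∞)⁻¹ = ENNReal.ofReal (1 / 2) by
        rw [ENNReal.ofReal_div_of_pos (by norm_num)]; simp,
      ← ENNReal.ofReal_mul (by norm_num), ← ENNReal.ofReal_mul (by norm_num),
      ← ENNReal.ofReal_mul (by linarith)]
    congr 1; ring
  have e3 : uniformProbOn (H6OT.cube d) G ≤
      ∫⁻ x, ‖T x - T' x‖ₑ ^ 2 ∂uniformProbOn (H6OT.cube d) := by
    rw [← lintegral_indicator_one hGm]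
    refine lintegral_mono_ae ?_
    filter_upwards [uy T hT 1, uz T' hT' 2] with x h1 h2
    by_cases hx : x ∈ G
    · obtain ⟨⟨a1, a2⟩, a3, a4⟩ := hx
      simp only at a1 a2 a3 a4
      rw [h1 ((H6OT.mem_cell_site i j 0 ε x).2.1.mpr ⟨by linarith, by linarith⟩),
        h2 ((H6OT.mem_cell_site i j ε ε x).2.2.mpr ⟨by linarith, by nlinarith⟩)]
      refine (Set.indicator_le_self _ _ x).trans (le_of_eq ?_)
      rw [← ofReal_norm]
      simp [H6OT.site]
    · simp [Set.indicator_of_notMem hx]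
  refine lt_of_lt_of_le ?_ e3
  rw [e1, e2, ENNReal.ofReal_rpow_of_nonneg (by positivity) (by linarith),
    ← ENNReal.ofReal_coe_nnreal, ← ENNReal.ofReal_mul C.coe_nonneg]
  exact (ENNReal.ofReal_lt_ofReal_iff (by positivity)).mpr hε2

end Crest.Agent.S0110
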