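import Crest.Statements.S0122
import Crest.Agent.H3Perm.Dyn

set_option autoImplicit false
open Crest.AnalysisR.MassAction
open Crest Crest.AnalysisR Crest.AnalysisR.MassAction

namespace Crest.Agent.S0122

/-- For a finite reaction network on `d ≥ 1` species that is weakly reversible, with positive rate constants and mass-action kinetics, every positive stoichiometric class `P` contains a nonempty compact convex set `K` that is forward invariant and absorbing: from every point of `P` there is a solution defined for all forward time, it is unique, it stays coordinatewise positive, and it lies in `K` from some finite time on. -/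
theorem result
    (d : ℕ) (hd : 1 ≤ d) (R : Network d) (hR : IsWeaklyReversible R)
    (k : (Fin d → ℕ) × (Fin d → ℕ) → ℝ) (hk : ∀ r ∈ R, 0 < k r)
    (c : Fin d → ℝ) (hc : ∀ i, 0 < c i) :
    ∃ K : Set (Fin d → ℝ), K ⊆ positiveClass R c ∧ K.Nonempty ∧ IsCompact K ∧ Convex ℝ K ∧
      (∀ x : ℝ → (Fin d → ℝ), IsForwardSolution (field R k) x → x 0 ∈ K →
        ∀ t : ℝ, 0 ≤ t → x t ∈ K) ∧
      (∀ x₀ ∈ positiveClass R c,
        (∃ x : ℝ → (Fin d → ℝ), IsForwardSolution (field R k) x ∧ x 0 = x₀) ∧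
        (∀ x x' : ℝ → (Fin d → ℝ), IsForwardSolution (field R k) x →
          IsForwardSolution (field R k) x' → x 0 = x₀ → x' 0 = x₀ →
          ∀ t : ℝ, 0 ≤ t → x t = x' t) ∧
        (∀ x : ℝ → (Fin d → ℝ), IsForwardSolution (field R k) x → x 0 = x₀ →
          (∀ t : ℝ, 0 ≤ t → ∀ i, 0 < x t i) ∧
          ∃ T : ℝ, 0 ≤ T ∧ ∀ t : ℝ, T ≤ t → x t ∈ K)) := by
  obtain ⟨𝒞, hfin, hcont, hin, hev⟩ := H3Perm.constraints hd R hR k hk
  obtain ⟨A₁, hA₁⟩ := Filter.eventually_atTop.1 (hev.and (hin c hc))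
  set S := stoichSubspace R with hS
  have hb : ∀ A, A₁ ≤ A → ∀ x ∈ H3Perm.KK 𝒞 S c A, ∀ j,
      Real.exp (-(2 * A)) ≤ x j ∧ x j ≤ Real.exp (2 * A) :=
    fun A hA x hx => ((hA₁ A hA).1 x hx.1 hx.2.2).1
  have hstrict : ∀ A, A₁ ≤ A → ∀ x ∈ H3Perm.KK 𝒞 S c A, ∀ p ∈ 𝒞, ∑ j, p.1 j * x j = p.2 A →
      ∑ j, p.1 j * field R k x j < 0 := by
    intro A hA x hx p hp hact
    rcases ((hA₁ A hA).1 x hx.1 hx.2.2).2 p hp hact with h | h
    · exact h
    · exfalso
      have h1 := H3Perm.dot_eq_zero_of_mem R h hx.2.1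
      have h2 := (hA₁ A hA).2 p hp
      simp only [Pi.sub_apply, mul_sub, Finset.sum_sub_distrib] at h1
      linarith
  have hcomp : ∀ A, A₁ ≤ A → IsCompact (H3Perm.KK 𝒞 S c A) := fun A hA =>
    H3Perm.compact_KK 𝒞 hcont S c A fun A' hA' => hb A' (hA.trans hA')
  have hinv : ∀ A, A₁ ≤ A → ∀ x : ℝ → (Fin d → ℝ), IsForwardSolution (field R k) x →
      ∀ T, 0 ≤ T → x T ∈ H3Perm.KK 𝒞 S c A → ∀ t, T ≤ t → x t ∈ H3Perm.KK 𝒞 S c A :=
    fun A hA x hx T hT h0 t ht => H3Perm.invariant hfin (hcomp A hA).isClosed (hstrict A hA) hx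
      (fun t _ => H3Perm.field_mem R k _) (fun _ _ _ => rfl) hT h0 t ht
  refine ⟨H3Perm.KK 𝒞 S c A₁, fun x hx => ⟨hx.1, hx.2.1⟩,
    ⟨c, hc, by simp, fun p hp => ((hA₁ A₁ le_rfl).2 p hp).le⟩, hcomp A₁ le_rfl,
    H3Perm.convex_KK _ _ _ _, fun x hx h0 t ht => hinv A₁ le_rfl x hx 0 le_rfl h0 t ht,
    fun x₀ hx₀ => ?_⟩
  obtain ⟨A₂, h2, h12⟩ := ((hin x₀ hx₀.1).and (Filter.eventually_ge_atTop A₁)).exists
  have hx₀K : x₀ ∈ H3Perm.KK 𝒞 S c A₂ := ⟨hx₀.1, hx₀.2, fun p hp => (h2 p hp).le⟩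
  set M := Real.exp (2 * A₂) with hM
  have hM0 : 0 < M := Real.exp_pos _
  have hcube : IsCompact (Set.Icc (fun _ : Fin d => (0 : ℝ)) (fun _ => M)) := isCompact_Icc
  obtain ⟨Kf, hKf⟩ := ((H3Perm.contDiff_field R k).locallyLipschitz.locallyLipschitzOn
    (s := Set.Icc (fun _ : Fin d => (0 : ℝ)) (fun _ => M))).exists_lipschitzOnWith_of_compact hcube
  have hKsub : H3Perm.KK 𝒞 S c A₂ ⊆ Set.Icc (fun _ : Fin d => (0 : ℝ)) (fun _ => M) :=
    fun x hx => ⟨fun j => (hx.1 j).le, fun j => (hb A₂ h12 x hx j).2⟩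
  refine ⟨?_, fun x x' hx hx' h0 h0' t ht => ?_, fun x hx h0 => ⟨fun t ht => ?_, ?_⟩⟩
  · let cl : (Fin d → ℝ) → Fin d → ℝ := fun x j => max 0 (min (x j) M)
    have hcl1 : ∀ x, cl x ∈ Set.Icc (fun _ : Fin d => (0 : ℝ)) (fun _ => M) := fun x =>
      ⟨fun j => le_max_left _ _, fun j => max_le hM0.le (min_le_right _ _)⟩
    have hcl2 : ∀ x ∈ Set.Icc (fun _ : Fin d => (0 : ℝ)) (fun _ => M), cl x = x := by
      intro x hx
      funext j
      simp only [cl]
      rw [min_eq_left (hx.2 j), max_eq_right (hx.1 j)]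
    have hcl3 : LipschitzWith 1 cl := by
      refine LipschitzWith.of_dist_le_mul fun x y => ?_
      rw [NNReal.coe_one, one_mul, dist_pi_le_iff dist_nonneg]
      intro j
      have h1 : LipschitzWith 1 fun u : ℝ => max 0 (min u M) :=
        (LipschitzWith.id.min_const M).const_max 0
      have h2 := h1.dist_le_mul (x j) (y j)
      rw [NNReal.coe_one, one_mul] at h2
      exact h2.trans (dist_le_pi_dist x y j)
    have hF : LipschitzWith (Kf * 1) (field R k ∘ cl) := by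
      rw [← lipschitzOnWith_univ]
      exact hKf.comp hcl3.lipschitzOnWith fun x _ => hcl1 x
    obtain ⟨L, hL⟩ := hcube.exists_bound_of_continuousOn
      (H3Perm.contDiff_field R k).continuous.continuousOn
    obtain ⟨x, hx0, hx⟩ := H3Perm.global_existence (field R k ∘ cl) hF
      (fun x => hL _ (hcl1 x)) x₀
    refine ⟨x, fun t ht => ?_, hx0⟩
    have h3 : x t ∈ H3Perm.KK 𝒞 S c A₂ :=
      H3Perm.invariant hfin (hcomp A₂ h12).isClosed (hstrict A₂ h12) hx
        (fun t _ => H3Perm.field_mem R k _)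
        (fun t _ hK => by simp only [Function.comp_apply, hcl2 _ (hKsub hK)]) le_rfl
        (by rw [hx0]; exact hx₀K) t ht
    have h4 := hx t ht
    simp only [Function.comp_apply, hcl2 _ (hKsub h3)] at h4
    exact h4
  · exact ODE_solution_unique_of_mem_Icc_right (v := fun _ => field R k)
      (s := fun _ => Set.Icc (fun _ : Fin d => (0 : ℝ)) (fun _ => M)) (a := 0) (b := t)
      (fun _ _ => hKf) ((H3Perm.contOn_of_deriv hx).mono Set.Icc_subset_Ici_self)
      (fun s hs => H3Perm.right_deriv hs.1 (hx s hs.1))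
      (fun s hs => hKsub (hinv A₂ h12 x hx 0 le_rfl (by rw [h0]; exact hx₀K) s hs.1))
      ((H3Perm.contOn_of_deriv hx').mono Set.Icc_subset_Ici_self)
      (fun s hs => H3Perm.right_deriv hs.1 (hx' s hs.1))
      (fun s hs => hKsub (hinv A₂ h12 x' hx' 0 le_rfl (by rw [h0']; exact hx₀K) s hs.1))
      (by rw [h0, h0']) ⟨ht, le_rfl⟩
  · exact (hinv A₂ h12 x hx 0 le_rfl (by rw [h0]; exact hx₀K) t ht).1
  · obtain ⟨T, hT, hxT⟩ := H3Perm.absorb hfin hcont h12 hb
      (H3Perm.contDiff_field R k).continuous (H3Perm.field_mem R k) hstrict hx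
      (by rw [h0]; exact hx₀K)
    exact ⟨T, hT, fun t ht => hinv A₁ le_rfl x hx T hT hxT t ht⟩

end Crest.Agent.S0122
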