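import Crest.Statements.S0151
import Crest.Agent.H8.BM.Abs
import Crest.Agent.H9.BM.Conc

set_option autoImplicit false
open Crest.AnalysisR.ProductShift MeasureTheory
open Crest Crest.AnalysisR Crest.AnalysisR.ProductShift

namespace Crest.Agent.S0151

/-- For angles θ_i in (0,1) and costs c_i ≥ 0 (i ∈ ℕ) let f(x) = exp(−Σ_i c_i ⌊x_i + θ_i⌋) for x in [0,1)^ℕ with product Lebesgue measure, and suppose f > 0 almost everywhere and ∫ (−log f) = ∞. If T is the bounded operator on L²([0,1)^ℕ × ℤ) with (T g)(x, k) = f(σ^(k−1) x) g(x, k−1), σ the coordinatewise rotation by θ, then for every complex z the determinant of T − z relative to the unit vector supported on k = 0 is ‖z‖: the Brown measure of T for that tracial vector is the point mass at 0. -/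
theorem result
    (θ c : ℕ → ℝ) (hθ : ∀ i, 0 < θ i ∧ θ i < 1) (hc : ∀ i, 0 ≤ c i)
    (hpos : ∀ᵐ x ∂cubeMeasure, 0 < weight θ c x)
    (hlog : ∫⁻ x, ENNReal.ofReal (- Real.log (weight θ c x)) ∂cubeMeasure = ⊤)
    (T : pairSpace →L[ℂ] pairSpace) (hT : IsWeightedShift θ c T) (z : ℂ) :
    vectorDet vacuumVector (T - z • (1 : pairSpace →L[ℂ] pairSpace)) = ‖z‖ := by
  rcases eq_or_ne z 0 with rfl | hz
  · exact H8.BM.det_zero cubeMeasure (weight θ c) (H9.BM.meas_weight θ c)
      (fun x => ⟨H9.BM.weight_nonneg x, H9.BM.weight_le_one x⟩) hpos hlog _ H9.BM.norm_vac T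
      (H9.BM.norm_T hT) (H9.BM.moments hT)
  · exact H8.BM.det_ne _ H9.BM.norm_vac T (H9.BM.trace_words hT) (H9.BM.tau_pow hT)
      (H9.BM.quasinil hθ hc hlog hT) hz

end Crest.Agent.S0151
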