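import Crest.Statements.S0160
import Crest.Agent.H3N.Model

set_option autoImplicit false
open Crest Crest.AnalysisR Crest.AnalysisR.OperatorAlgebra

namespace Crest.Agent.S0160

theorem unital {A : Type} [CStarAlgebra A] {H : Type} [NormedAddCommGroup H]
    [InnerProductSpace ℂ H] [CompleteSpace H] (π : A →⋆ₙₐ[ℂ] (H →L[ℂ] H))
    (h : Crest.OpAlg.IsIrreducibleRep π) :
    Nontrivial H ∧ ∃ ρ : A →⋆ₐ[ℂ] (H →L[ℂ] H), (∀ a, ρ a = π a) ∧ H3N.Irr ρ := by
  have h1 : π 1 = 1 := by
    rcases h.2 (LinearMap.ker (π 1).toLinearMap) (π 1).isClosed_ker (fun a v hv => by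
      have h2 : π 1 v = 0 := hv
      show (π 1 * π a) v = 0
      rw [← map_mul, one_mul, ← mul_one a, map_mul, ContinuousLinearMap.mul_apply, h2,
        map_zero]) with h2 | h2
    · ext v
      have : π 1 v - v ∈ LinearMap.ker (π 1).toLinearMap := by
        show π 1 (π 1 v - v) = 0
        rw [map_sub, ← ContinuousLinearMap.mul_apply, ← map_mul, one_mul, sub_self]
      rw [h2, Submodule.mem_bot, sub_eq_zero] at this
      exact this
    · refine absurd ?_ h.1
      ext a v
      have : π a v ∈ LinearMap.ker (π 1).toLinearMap := h2 ▸ Submodule.mem_top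
      have h3 : (π 1 * π a) v = 0 := this
      rwa [← map_mul, one_mul] at h3
  refine ⟨?_, { toFun := π
                map_one' := h1
                map_mul' := map_mul π
                map_zero' := map_zero π
                map_add' := map_add π
                commutes' := fun c => by
                  rw [Algebra.algebraMap_eq_smul_one, map_smul, h1, Algebra.algebraMap_eq_smul_one]
                map_star' := map_star π }, fun _ => rfl, fun V hV hi => h.2 V hV fun a => hi a trivial⟩
  by_contra h2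
  rw [not_nontrivial_iff_subsingleton] at h2
  exact h.1 (by ext a v; exact Subsingleton.elim _ _)

/-- There is a unital complex C⋆-algebra A that is infinite-dimensional, is simple (its only closed two-sided ideals are the zero ideal and A), carries a faithful tracial state, and whose irreducible representations on complex Hilbert spaces are pairwise unitarily equivalent. A representation is a ⋆-homomorphism into the bounded operators on a Hilbert space, not required to preserve the unit; irreducible ones are nonzero by definition; A and the Hilbert spaces are taken in the lowest universe. -/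
theorem result :
    ∃ (A : Type) (_ : CStarAlgebra A),
      ¬ FiniteDimensional ℂ A ∧
      (∀ I : TwoSidedIdeal A, IsClosed (I : Set A) → I = ⊥ ∨ I = ⊤) ∧
      (∃ τ : A →ₗ[ℂ] ℂ, Crest.OpAlg.IsFaithfulTracialState τ) ∧
      ∀ (H₁ : Type) [NormedAddCommGroup H₁] [InnerProductSpace ℂ H₁] [CompleteSpace H₁]
        (H₂ : Type) [NormedAddCommGroup H₂] [InnerProductSpace ℂ H₂] [CompleteSpace H₂]
        (π₁ : A →⋆ₙₐ[ℂ] (H₁ →L[ℂ] H₁)) (π₂ : A →⋆ₙₐ[ℂ] (H₂ →L[ℂ] H₂)),
        Crest.OpAlg.IsIrreducibleRep π₁ → Crest.OpAlg.IsIrreducibleRep π₂ →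
          Crest.OpAlg.AreUnitarilyEquivalent π₁ π₂ := by
  obtain ⟨A, _, T, I, _, _, ⟨W⟩⟩ := H3N.exists_full
  refine ⟨A, inferInstance, W.not_finiteDimensional, fun J _ => W.simple J,
    ⟨T.τ.toLinearMap, T.τ_one, fun a => ?_, fun a => T.eq_zero_of_τ, T.τ_comm⟩,
    fun H₁ _ _ _ H₂ _ _ _ π₁ π₂ h₁ h₂ => ?_⟩
  · have := Complex.nonneg_iff.mp (T.τ_nonneg a)
    exact ⟨this.2.symm, this.1⟩
  · obtain ⟨_, ρ₁, e₁, i₁⟩ := unital π₁ h₁
    obtain ⟨_, ρ₂, e₂, i₂⟩ := unital π₂ h₂
    obtain ⟨U, hU⟩ := W.equiv i₁ i₂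
    exact ⟨U, fun a v => by rw [← e₁, ← e₂, hU]⟩

end Crest.Agent.S0160
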