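import Crest.Statements.S0166
import Crest.Agent.H4.TreeSpace
import Crest.Agent.H4.L2Sum
import Crest.Agent.H4.Diamond

set_option autoImplicit false
open Crest Crest.AnalysisR

namespace Crest.Agent.S0166

open Crest.Agent.H4AUC Crest.AnalysisR.TreePotential Finset

/-- test family with potentials bounded up to depth `n` -/
def fam (n : ℕ) : TestFam where
  P f := (∀ s : List ℕ, s.length ≤ n → |pathPotential f s| ≤ 1) ∧
    ∀ A : Finset (List ℕ), ∑ s ∈ A, f s ^ 2 ≤ 1
  bdd := by
    intro f hf s
    have := hf.2 {s}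
    rw [sum_singleton] at this
    exact abs_le_of_sq_le_sq' (by linarith) (by norm_num) |> abs_le.mpr
  mix := by
    intro f g h a β hf hg hab hh hpot
    exact ⟨fun s hs => hpot s fun u hu => ⟨hf.1 u (hu.length_le.trans hs),
      hg.1 u (hu.length_le.trans hs)⟩, fun A => sum_sq_mix A f g h a β hab hh (hf.2 A) (hg.2 A)⟩
  sib := by
    intro f hf r A
    have hinj : Function.Injective fun n : ℕ => n :: r := fun a b h => by simpa using h
    simpa using hf.2 (A.map ⟨_, hinj⟩)
  dl1 := fun s _ => ⟨fun u _ => pot_dl s u, fun A => sum_dl_sq s A id Function.injective_id⟩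
  dl0 := Or.inl ⟨fun u _ => pot_dl _ u, fun A => sum_dl_sq _ A id Function.injective_id⟩

/-- the Hilbert space -/
abbrev H : Type := lp (fun _ : List ℕ => ℝ) 2

/-- a test as an element of the Hilbert space -/
noncomputable def toH (n : ℕ) (f : {f // (fam n).P f}) : H :=
  ⟨f.1, mem_l2 (X := fun _ => ℝ) f.1 1 fun A => by simpa using f.2.2 A⟩

lemma norm_toH (n : ℕ) (f : {f // (fam n).P f}) : ‖toH n f‖ ≤ 1 := by
  have := hasSum_le_of_sum_le (hasSum_sq (toH n f)) (c := 1) fun A => by
    simpa [toH] using f.2.2 A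
  nlinarith [norm_nonneg (toH n f)]

lemma inner_le (n : ℕ) (f : {f // (fam n).P f}) (x : H) : ‖inner ℝ (toH n f) x‖ ≤ ‖x‖ :=
  (norm_inner_le_norm _ _).trans (mul_le_of_le_one_left (norm_nonneg _) (norm_toH n f))

/-- the embedding -/
noncomputable def emb (n : ℕ) : H →L[ℝ] (fam n).Amb :=
  LinearMap.mkContinuous
    { toFun := fun x => ⟨fun f => inner ℝ (toH n f) x, memℓp_infty ⟨‖x‖, by
        rintro _ ⟨f, rfl⟩
        exact inner_le n f x⟩⟩
      map_add' := fun x y => by ext f; simp [inner_add_right]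
      map_smul' := fun c x => by ext f; simp [inner_smul_right] } 1 (fun x => by
      rw [one_mul]
      exact lp.norm_le_of_forall_le (norm_nonneg _) fun f => inner_le n f x)

lemma emb_apply (n : ℕ) (x : H) (f : {f // (fam n).P f}) :
    emb n x f = inner ℝ (toH n f) x := rfl

lemma emb_single (n : ℕ) (s : List ℕ) (a : ℝ) :
    emb n (lp.single 2 s a) = a • (fam n).coord s := by
  ext f
  rw [emb_apply, lp.inner_single_right]
  simp [toH]

lemma emb_mem (n : ℕ) (x : H) : emb n x ∈ (fam n).space := by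
  refine (Submodule.isClosed_topologicalClosure _).mem_of_tendsto
    (((emb n).continuous.tendsto x).comp (tendsto_trunc x)) (Filter.Eventually.of_forall fun A => ?_)
  simp only [Function.comp, trunc_eq, map_sum, emb_single]
  exact Submodule.sum_mem _ fun s _ => Submodule.smul_mem _ _ ((fam n).coord_mem s)

lemma pot_le (f : List ℕ → ℝ) (c : ℝ) (h : ∀ s, |f s| ≤ c) (s : List ℕ) :
    |pathPotential f s| ≤ (s.length + 1) * c := by
  induction s with
  | nil => simpa [pathPotential] using h []
  | cons a v ih =>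
    simp only [pathPotential, List.length_cons, Nat.cast_add, Nat.cast_one]
    linarith [abs_add_le (pathPotential f v) (f (a :: v)), h (a :: v)]

lemma emb_lower (n : ℕ) (x : H) : ‖x‖ ≤ (n + 1) * ‖emb n x‖ := by
  rcases (norm_nonneg x).eq_or_lt with h0 | h0
  · rw [← h0]; positivity
  set c : ℝ := (‖x‖ * (n + 1))⁻¹ with hc
  have hc0 : 0 < c := by positivity
  have hcx : ‖c • x‖ = 1 / (n + 1) := by
    rw [norm_smul, Real.norm_eq_abs, abs_of_pos hc0, hc]; field_simp
  have hn : (1 : ℝ) ≤ n + 1 := by linarith [Nat.cast_nonneg (α := ℝ) n]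
  have hP : (fam n).P (c • x : H) := by
    refine ⟨fun s hs => (pot_le _ (1 / (n + 1)) (fun u => ?_) s).trans ?_, fun A => ?_⟩
    · rw [← hcx]; exact lp.norm_apply_le_norm (by simp) (c • x) u
    · rw [mul_one_div, div_le_one (by positivity)]
      exact_mod_cast Nat.succ_le_succ hs
    · have h1 := sum_sq_le (c • x) A
      rw [hcx] at h1
      have h2 : (1 / ((n : ℝ) + 1)) ^ 2 ≤ 1 :=
        pow_le_one₀ (by positivity) (by rw [div_le_one (by positivity)]; exact hn)
      simpa only [Real.norm_eq_abs, sq_abs] using h1.trans h2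
  have h1 := (le_abs_self _).trans ((fam n).abs_le_norm (emb n x) ⟨_, hP⟩)
  rw [emb_apply] at h1
  change inner ℝ (c • x) x ≤ _ at h1
  rw [inner_smul_left, real_inner_self_eq_norm_sq] at h1
  simp only [conj_trivial] at h1
  calc ‖x‖ = (n + 1) * (c * ‖x‖ ^ 2) := by rw [hc]; field_simp
    _ ≤ _ := by gcongr

lemma refl_fam (n : ℕ) : Refl (fam n).space := by
  have hH : Refl H := refl_lp fun _ => refl_real
  have hanti : AntilipschitzWith ((n : NNReal) + 1) (emb n) :=
    (emb n).antilipschitz_of_bound fun x => by simpa using emb_lower n x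
  have hcl : IsClosed (Set.range (emb n)) := hanti.isClosed_range (emb n).uniformContinuous
  have hle : (fam n).space ≤ LinearMap.range (emb n : H →ₗ[ℝ] (fam n).Amb) := by
    refine Submodule.topologicalClosure_minimal _ (Submodule.span_le.mpr ?_) hcl
    rintro _ ⟨s, rfl⟩
    exact ⟨lp.single 2 s 1, by simp [emb_single]⟩
  refine hH.of_equiv (ContinuousLinearEquiv.ofBijective
    ((emb n).codRestrict (fam n).space (emb_mem n)) ?_ ?_)
  · rw [LinearMap.ker_eq_bot]
    intro x y hxy
    exact hanti.injective (congrArg Subtype.val hxy)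
  · rw [LinearMap.range_eq_top]
    intro v
    obtain ⟨x, hx⟩ := hle v.2
    exact ⟨x, Subtype.ext hx⟩

/-- the space -/
abbrev XX : Type := lp (fun n : ℕ => (fam n).space) 2

lemma noAUC : NoAUC XX := by
  refine noAUC_of_tree 1 1 1 one_pos one_pos fun D => ?_
  obtain ⟨p, h1, h2, h3, h4⟩ := (fam (D + 1)).tree_data D fun f hf s hs => hf.1 s hs
  let L := lp.singleContinuousLinearMap ℝ (fun n : ℕ => (fam n).space) 2 (D + 1)
  have hL : ∀ v, ‖L v‖ = ‖v‖ := fun v =>
    lp.norm_single (E := fun n : ℕ => (fam n).space) (by simp) (D + 1) v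
  refine ⟨fun s => L (p s), by rwa [hL], fun s hs => by rw [hL]; exact h2 s hs, fun s n => ?_,
    fun s => ⟨1, fun A a => ?_⟩⟩
  · rw [← map_sub, hL]; exact h3 s n
  · simp only [← map_sub, ← map_smul, ← map_sum, hL]
    exact h4 s A a

lemma midProp : MidProp XX := midProp_lp fun n => (fam n).midProp

/-- There is a real Banach space (RealBanach record) that is separable, infinite-dimensional and reflexive, whose given norm has at every t > 0 averaged midpoint asymptotic modulus at least √(1 + t²/12) - 1 and at least (√(1 + t²/4) - 1)/2 and maximum-based midpoint modulus at least √(1 + t²/4) - 1, on which no equivalent norm is asymptotically uniformly convex, and in which for every k every map of the depth-k countably branching diamond graph of distortion at most D has 1 + k/4 ≤ D². -/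
theorem result :
    ∃ E : Crest.AnalysisR.RealBanach, E.IsSeparableInfiniteDim ∧ E.IsReflexive ∧
      (∀ t : ℝ, 0 < t → E.MidpointModulusGE E.norm t (Real.sqrt (1 + t ^ 2 / 12) - 1) ∧
        E.MidpointModulusGE E.norm t ((Real.sqrt (1 + t ^ 2 / 4) - 1) / 2) ∧
        E.MaxMidpointModulusGE E.norm t (Real.sqrt (1 + t ^ 2 / 4) - 1)) ∧
      (∀ N : E.X → ℝ, E.IsEquivNorm N → ¬ E.IsAUC N) ∧
      ∀ (k : ℕ) (f : Crest.AnalysisR.DiamondVertex k → E.X) (D : ℝ),
        E.HasDistortionLE k f D → 1 + (k : ℝ) / 4 ≤ D ^ 2 := by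
  refine ⟨mk XX, ⟨separable_lp fun n => (fam n).separable, noAUC.not_finiteDimensional⟩,
    (refl_lp refl_fam).isReflexive, fun t ht => ⟨midProp.mid t ht _ ?_, midProp.mid t ht _ ?_,
    midProp.maxmid t ht⟩, noAUC, fun k f D hf => midProp.diamond k f D hf⟩
  · have : √(1 + t ^ 2 / 12) ≤ √(1 + t ^ 2 / 4) := Real.sqrt_le_sqrt (by nlinarith [sq_nonneg t])
    linarith
  · have : 1 ≤ √(1 + t ^ 2 / 4) := Real.one_le_sqrt.mpr (by nlinarith [sq_nonneg t])
    linarith

end Crest.Agent.S0166
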