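import Crest.Statements.S0167
import Crest.Agent.H4.Daugavet

set_option autoImplicit false
open Crest Crest.AnalysisR

namespace Crest.Agent.S0167

open Crest.Agent.H4AUC MeasureTheory Crest.AnalysisR.L1Subspace

section general

variable {X : Type} [NormedAddCommGroup X] [NormedSpace ℝ X]

/-- directions property -/
def DirProp (X : Type) [NormedAddCommGroup X] [NormedSpace ℝ X] : Prop :=
  ∀ x : X, ‖x‖ = 1 → ∀ S : Submodule ℝ X, IsCofS S → ∀ η : ℝ, 0 < η →
    ∃ y ∈ S, ‖y‖ = 1 ∧ ∃ z : X, ‖z‖ ≤ 1 ∧ ‖y - (1 / 2 : ℝ) • (z - x)‖ ≤ η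

lemma DirProp.bounds (h : DirProp X) (t : ℝ) (ht : 0 < t) (x : X) (hx : ‖x‖ = 1)
    (S : Submodule ℝ X) (hS : IsCofS S) (η : ℝ) (hη : 0 < η) :
    ∃ y ∈ S, ‖y‖ = 1 ∧ ‖x + t • y‖ ≤ |1 - t / 2| + t / 2 + η ∧ ‖x - t • y‖ ≤ 1 + t := by
  obtain ⟨y, hy, hy1, z, hz, hyz⟩ := h x hx S hS (η / t) (by positivity)
  refine ⟨y, hy, hy1, ?_, ?_⟩
  · have e : x + t • y = (1 - t / 2) • x + (t / 2) • z + t • (y - (1 / 2 : ℝ) • (z - x)) := by
      module
    rw [e]
    refine (norm_add_le _ _).trans (add_le_add ((norm_add_le _ _).trans (add_le_add ?_ ?_)) ?_)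
    · rw [norm_smul, hx, mul_one, Real.norm_eq_abs]
    · rw [norm_smul, Real.norm_eq_abs, abs_of_pos (by positivity)]
      nlinarith
    · rw [norm_smul, Real.norm_eq_abs, abs_of_pos ht]
      calc t * _ ≤ t * (η / t) := by gcongr
        _ = η := by field_simp
  · refine (norm_sub_le _ _).trans ?_
    rw [norm_smul, hx, hy1, Real.norm_eq_abs, abs_of_pos ht, mul_one]

lemma DirProp.noAUC [CompleteSpace X] (h : DirProp X) (hinf : ¬ FiniteDimensional ℝ X) :
    NoAUC X := by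
  haveI : Nontrivial X := by
    by_contra hn
    rw [not_nontrivial_iff_subsingleton] at hn
    exact hinf inferInstance
  refine noAUC_of_sets (fun _ => {x | ‖x‖ = 1}) 1 1 1 one_pos one_pos (fun _ x hx => le_of_eq hx)
    (fun _ => ?_) ?_
  · obtain ⟨x, hx⟩ := exists_norm_eq X (c := 1) zero_le_one
    exact ⟨x, hx, hx.ge⟩
  · intro n x hx S hS η hη
    change ‖x‖ = 1 at hx
    set e := min (η / 4) (1 / 4) with he
    have he0 : 0 < e := lt_min (by positivity) (by positivity)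
    have he1 : e ≤ η / 4 := min_le_left _ _
    have he2 : e ≤ 1 / 4 := min_le_right _ _
    obtain ⟨y, hy, hy1, z, hz, hyz⟩ := h x hx S hS e he0
    have h1 : ‖z - x - (2 : ℝ) • y‖ ≤ 2 * e := by
      have e1 : z - x - (2 : ℝ) • y = (-2 : ℝ) • (y - (1 / 2 : ℝ) • (z - x)) := by module
      rw [e1, norm_smul]
      simp only [norm_neg, Real.norm_ofNat]
      linarith
    have h2 : 2 - 2 * e ≤ ‖z - x‖ := by
      have := norm_sub_le (z - x) (z - x - (2 : ℝ) • y)
      rw [sub_sub_cancel, norm_smul, hy1] at this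
      simp only [Real.norm_ofNat] at this
      linarith
    have h3 : 1 - 2 * e ≤ ‖z‖ := by linarith [norm_sub_le z x]
    have hz0 : 0 < ‖z‖ := by linarith
    have h4 : ‖‖z‖⁻¹ • z - z‖ ≤ 2 * e := by
      have e1 : ‖z‖⁻¹ • z - z = (‖z‖⁻¹ - 1) • z := by module
      have e2 : 0 ≤ ‖z‖⁻¹ - 1 := by rw [sub_nonneg]; exact one_le_inv₀ hz0 |>.mpr hz
      rw [e1, norm_smul, Real.norm_eq_abs, abs_of_nonneg e2, sub_mul, inv_mul_cancel₀ hz0.ne']
      linarith
    refine ⟨‖z‖⁻¹ • z, norm_inv_norm_smul hz0, (2 : ℝ) • y, S.smul_mem _ hy, ?_, ?_⟩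
    · have e1 : ‖z‖⁻¹ • z - x - (2 : ℝ) • y = (‖z‖⁻¹ • z - z) + (z - x - (2 : ℝ) • y) := by abel
      rw [e1]
      linarith [norm_add_le (‖z‖⁻¹ • z - z) (z - x - (2 : ℝ) • y)]
    · have e1 : z - x = (‖z‖⁻¹ • z - x) - (‖z‖⁻¹ • z - z) := by abel
      have := norm_sub_le (‖z‖⁻¹ • z - x) (‖z‖⁻¹ • z - z)
      rw [← e1] at this
      linarith

lemma oneGE_triv [CompleteSpace X] (t : ℝ) (ht : 0 < t) :
    (mk X).OneSidedModulusGE (mk X).norm t (max 0 (t - 2)) := by
  refine oneGE_of t _ fun x hx η hη => ?_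
  obtain ⟨χ, hχ, hχx⟩ := exists_dual_vector'' ℝ x
  refine ⟨_, isCofS_ker χ, fun y hy hy1 => ?_⟩
  have hy0 : χ y = 0 := hy
  have h1 : χ (x + t • y) ≤ ‖x + t • y‖ := (le_abs_self _).trans ((χ.le_opNorm _).trans (by
    nlinarith [norm_nonneg (x + t • y)]))
  rw [map_add, map_smul, hy0, hχx, hx] at h1
  simp only [RCLike.ofReal_real_eq_id, id_eq, smul_zero, add_zero] at h1
  have h2 := norm_sub_le (x + t • y) x
  rw [add_sub_cancel_left, norm_smul, hy1, hx, Real.norm_eq_abs, abs_of_pos ht] at h2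
  have : max 0 (t - 2) ≤ ‖x + t • y‖ - 1 := max_le (by linarith) (by linarith)
  linarith

end general

lemma midGE_L1 {Ω : Type} [MeasurableSpace Ω] {P : Measure Ω} [IsProbabilityMeasure P]
    {E : Submodule ℝ (Lp ℝ 1 P)} (htb : UnitBallTotallyBoundedInMeasure P E) (t : ℝ) (ht : 0 < t)
    (x : E) (hx : ‖x‖ = 1) (η : ℝ) (hη : 0 < η) : ∃ S : Submodule ℝ E, IsCofS S ∧
      ∀ y ∈ S, ‖y‖ = 1 → max (t / 2) (t - 1) - η ≤ (‖x + t • y‖ + ‖x - t • y‖) / 2 - 1 := by
  obtain ⟨δ, hδ, hsmall⟩ := qn_small (x : Lp ℝ 1 P) (η / 2) (by positivity)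
  obtain ⟨S, hS, hhalf⟩ := exists_cof_half htb (min δ (η / (2 * t)))
    (lt_min hδ (by positivity))
  refine ⟨S, hS, fun y hy hy1 => ?_⟩
  obtain ⟨A, hA, hPA, hq⟩ := hhalf y hy hy1
  have hqx := hsmall A (hPA.trans (ENNReal.ofReal_le_ofReal (min_le_left _ _)))
  have h0 : 2 * t ≤ ‖x + t • y‖ + ‖x - t • y‖ := by
    have := norm_sub_le (x + t • y) (x - t • y)
    have e : x + t • y - (x - t • y) = (2 * t) • y := by module
    rw [e, norm_smul, hy1, Real.norm_eq_abs, abs_of_pos (by positivity)] at this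
    linarith
  have h1 : t + 2 - 2 * η ≤ ‖x + t • y‖ + ‖x - t • y‖ := by
    change _ ≤ ‖(x : Lp ℝ 1 P) + t • (y : Lp ℝ 1 P)‖ + ‖(x : Lp ℝ 1 P) - t • (y : Lp ℝ 1 P)‖
    change ‖(x : Lp ℝ 1 P)‖ = 1 at hx
    set u := (x : Lp ℝ 1 P)
    set v := (y : Lp ℝ 1 P)
    have a1 := qn_compl hA (u + t • v)
    have a2 := qn_compl hA (u - t • v)
    have a3 := qn_sub_le A (u + t • v) (u - t • v)
    have a4 := qn_add_le Aᶜ (u + t • v) (u - t • v)
    have a5 := qn_compl hA u
    have e1 : u + t • v - (u - t • v) = (2 * t) • v := by module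
    have e2 : u + t • v + (u - t • v) = (2 : ℝ) • u := by module
    rw [e1, qn_smul, abs_of_pos (by positivity)] at a3
    rw [e2, qn_smul, abs_of_pos (by positivity)] at a4
    have a6 : 1 / 2 - η / (2 * t) ≤ qn A v := by linarith [min_le_right δ (η / (2 * t))]
    have a7 : t - η ≤ 2 * t * qn A v := by
      calc t - η = 2 * t * (1 / 2 - η / (2 * t)) := by field_simp
        _ ≤ _ := by gcongr
    linarith
  have : max (t / 2) (t - 1) ≤ (‖x + t • y‖ + ‖x - t • y‖) / 2 - 1 + η :=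
    max_le (by linarith) (by linarith)
  linarith

/-- Let E be an infinite-dimensional closed subspace of the real L¹ of a probability space whose closed unit ball is totally bounded for convergence in measure and whose norm has the Daugavet property. Then at every unit x ∈ E and every t > 0 the averaged midpoint quantity sup_F inf_y ((‖x+ty‖+‖x-ty‖)/2 - 1) equals max(t/2, t-1) and the one-sided one sup_F inf_y (‖x+ty‖ - 1) equals max(0, t-2), as matching lower and upper bounds, and E admits no equivalent asymptotically uniformly convex norm. -/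
theorem result (Ω : Type) [MeasurableSpace Ω] (P : MeasureTheory.Measure Ω) [MeasureTheory.IsProbabilityMeasure P]
    (E : Submodule ℝ (MeasureTheory.Lp ℝ 1 P)) (hcl : IsClosed (E : Set (MeasureTheory.Lp ℝ 1 P)))
    (hinf : ¬ FiniteDimensional ℝ E)
    (htb : Crest.AnalysisR.L1Subspace.UnitBallTotallyBoundedInMeasure P E)
    (hD : Crest.AnalysisR.L1Subspace.HasDaugavetProperty E) :
    (∀ t : ℝ, 0 < t →
      (Crest.AnalysisR.L1Subspace.toRealBanach P E hcl).MidpointModulusGE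
          (Crest.AnalysisR.L1Subspace.toRealBanach P E hcl).norm t (max (t / 2) (t - 1)) ∧
        (Crest.AnalysisR.L1Subspace.toRealBanach P E hcl).MidpointModulusLE
          (Crest.AnalysisR.L1Subspace.toRealBanach P E hcl).norm t (max (t / 2) (t - 1)) ∧
        (Crest.AnalysisR.L1Subspace.toRealBanach P E hcl).OneSidedModulusGE
          (Crest.AnalysisR.L1Subspace.toRealBanach P E hcl).norm t (max 0 (t - 2)) ∧
        (Crest.AnalysisR.L1Subspace.toRealBanach P E hcl).OneSidedModulusLE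
          (Crest.AnalysisR.L1Subspace.toRealBanach P E hcl).norm t (max 0 (t - 2))) ∧
      ∀ N : E → ℝ, (Crest.AnalysisR.L1Subspace.toRealBanach P E hcl).IsEquivNorm N →
        ¬ (Crest.AnalysisR.L1Subspace.toRealBanach P E hcl).IsAUC N := by
  haveI : CompleteSpace E := hcl.completeSpace_coe
  have hdir : DirProp E := fun x hx S hS η hη => exists_dir htb hD x hx S hS η hη
  refine ⟨fun t ht => ⟨?_, ?_, ?_, ?_⟩, hdir.noAUC hinf⟩
  · exact midGE_of (X := E) t _ (midGE_L1 htb t ht)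
  · refine midLE_of (X := E) t _ fun x hx S hS η hη => ?_
    obtain ⟨y, hy, hy1, h1, h2⟩ := hdir.bounds t ht x hx S hS η hη
    refine ⟨y, hy, hy1, ?_⟩
    have h3 := le_max_left (t / 2) (t - 1)
    have h4 := le_max_right (t / 2) (t - 1)
    rcases abs_cases (1 - t / 2) with h5 | h5 <;> linarith [h5.1]
  · exact oneGE_triv (X := E) t ht
  · refine oneLE_of (X := E) t _ fun x hx S hS η hη => ?_
    obtain ⟨y, hy, hy1, h1, h2⟩ := hdir.bounds t ht x hx S hS η hη
    refine ⟨y, hy, hy1, ?_⟩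
    have h3 := le_max_left 0 (t - 2)
    have h4 := le_max_right 0 (t - 2)
    rcases abs_cases (1 - t / 2) with h5 | h5 <;> linarith [h5.1]

end Crest.Agent.S0167
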