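import Crest.Statements.S0168
import Crest.Agent.H4.TreeSpace

set_option autoImplicit false
open Crest Crest.AnalysisR

namespace Crest.Agent.S0168

open Crest.AnalysisR.TreePotential Crest.Agent.H4AUC in
/-- the test family of a model -/
def fam (m : PotentialModel) : TestFam where
  P := IsTest m
  bdd := by
    intro f hf s
    cases s with
    | nil => have := hf.1 []; simp only [pathPotential] at this; linarith
    | cons a v =>
      have h1 := hf.1 (a :: v)
      have h2 := hf.1 v
      simp only [pathPotential] at h1
      rw [abs_le] at h1 h2 ⊢
      constructor <;> linarith [h1.1, h1.2, h2.1, h2.2]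
  mix := by
    intro f g h a β hf hg hab hh hpot
    refine ⟨fun s => hpot s fun u _ => ⟨hf.1 u, hg.1 u⟩, ?_⟩
    have hf2 := hf.2
    have hg2 := hg.2
    cases m with
    | rootlessSibling =>
      refine ⟨?_, fun r A => sum_sq_mix A (fun n => f (n :: r)) (fun n => g (n :: r))
        (fun n => h (n :: r)) a β hab (fun n => hh _) (hf2.2 r A) (hg2.2 r A)⟩
      have := hh []
      rw [hf2.1, hg2.1] at this
      exact pow_eq_zero_iff (two_ne_zero) |>.mp (le_antisymm (by simpa using this) (sq_nonneg _))
    | rootedSibling =>
      exact fun r A => sum_sq_mix A (fun n => f (n :: r)) (fun n => g (n :: r))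
        (fun n => h (n :: r)) a β hab (fun n => hh _) (hf2 r A) (hg2 r A)
    | antichain =>
      refine ⟨(hf2.1.union hg2.1).subset fun s hs => ?_,
        fun A hA => sum_sq_mix A f g h a β hab hh (hf2.2 A hA) (hg2.2 A hA)⟩
      by_contra hcon
      simp only [Set.mem_union, Function.mem_support, ne_eq, not_or, not_not] at hcon
      have := hh s
      rw [hcon.1, hcon.2] at this
      exact hs (pow_eq_zero_iff (two_ne_zero) |>.mp
        (le_antisymm (by simpa using this) (sq_nonneg _)))
    | global => exact fun A => sum_sq_mix A f g h a β hab hh (hf2 A) (hg2 A)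
  sib := by
    intro f hf r A
    have hf2 := hf.2
    have hinj : Function.Injective fun n : ℕ => n :: r := fun a b h => by simpa using h
    cases m with
    | rootlessSibling => exact hf2.2 r A
    | rootedSibling => exact hf2 r A
    | antichain =>
      have := hf2.2 (A.map ⟨_, hinj⟩) (by
        intro u hu v hv huv hs
        obtain ⟨a, -, rfl⟩ := Finset.mem_map.mp hu
        obtain ⟨b, -, rfl⟩ := Finset.mem_map.mp hv
        exact huv (hs.eq_of_length (by simp)))
      simpa using this
    | global => simpa using hf2 (A.map ⟨_, hinj⟩)
  dl1 := by
    intro s hs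
    refine ⟨pot_dl s, ?_⟩
    cases m with
    | rootlessSibling =>
      exact ⟨by simp [dl, hs.symm], fun r A => sum_dl_sq s A _ fun a b h => by simpa using h⟩
    | rootedSibling => exact fun r A => sum_dl_sq s A _ fun a b h => by simpa using h
    | antichain =>
      exact ⟨(Set.finite_singleton s).subset fun u hu => by simpa [dl] using hu,
        fun A _ => sum_dl_sq s A id Function.injective_id⟩
    | global => exact fun A => sum_dl_sq s A id Function.injective_id
  dl0 := by
    cases m with
    | rootlessSibling => exact Or.inr fun f hf => hf.2.1
    | rootedSibling =>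
      exact Or.inl ⟨pot_dl _, fun r A => sum_dl_sq _ A _ fun a b h => by simpa using h⟩
    | antichain =>
      exact Or.inl ⟨pot_dl _, (Set.finite_singleton []).subset fun u hu => by simpa [dl] using hu,
        fun A _ => sum_dl_sq _ A id Function.injective_id⟩
    | global => exact Or.inl ⟨pot_dl _, fun A => sum_dl_sq _ A id Function.injective_id⟩

lemma noAUC (m : Crest.AnalysisR.TreePotential.PotentialModel) :
    Crest.Agent.H4AUC.NoAUC (fam m).space := by
  refine Crest.Agent.H4AUC.noAUC_of_tree 1 1 1 one_pos one_pos fun D => ?_
  obtain ⟨p, h1, h2, h3, h4⟩ := (fam m).tree_data D fun f hf s _ => hf.1 s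
  exact ⟨p, h1, h2, h3, fun s => ⟨1, h4 s⟩⟩

/-- For each of the four bounded-potential coordinate models on the countably branching tree (rootless sibling, rooted sibling, antichain, global), the generated space, namely the closure of the span of the coordinate vectors in the supremum norm over the model's tests, is separable and infinite-dimensional, its norm has at every unit centre and every 0 < t < 1 averaged midpoint asymptotic quantity at least √(1 + t²/4) - 1, and no equivalent norm on it is asymptotically uniformly convex. -/
theorem result
    (m : Crest.AnalysisR.TreePotential.PotentialModel) :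
    (Crest.AnalysisR.TreePotential.modelBanach m).IsSeparableInfiniteDim ∧
      (∀ t : ℝ, 0 < t → t < 1 →
        (Crest.AnalysisR.TreePotential.modelBanach m).MidpointModulusGE
          (Crest.AnalysisR.TreePotential.modelBanach m).norm t (Real.sqrt (1 + t ^ 2 / 4) - 1)) ∧
      ∀ N : (Crest.AnalysisR.TreePotential.modelBanach m).X → ℝ,
        (Crest.AnalysisR.TreePotential.modelBanach m).IsEquivNorm N →
          ¬ (Crest.AnalysisR.TreePotential.modelBanach m).IsAUC N := by
  have h : Crest.AnalysisR.TreePotential.modelBanach m = Crest.Agent.H4AUC.mk (fam m).space := rfl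
  rw [h]
  exact ⟨⟨(fam m).separable, (noAUC m).not_finiteDimensional⟩,
    fun t ht _ => (fam m).midProp.mid t ht _ le_rfl, noAUC m⟩

end Crest.Agent.S0168
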