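import Crest.Statements.S0169
import Crest.Agent.H4.AUC

set_option autoImplicit false
open MeasureTheory ProbabilityTheory
open Crest Crest.AnalysisR

namespace Crest.Agent.S0169

open Crest.AnalysisR.TreeProduct Crest.Agent.H4AUC

section
variable {Ω : Type} [mΩ : MeasurableSpace Ω] {μ : Measure Ω} [IsProbabilityMeasure μ]
  {W : List ℕ → Ω → ℝ}

lemma indep_path (hm : ∀ v, Measurable (W v)) (hind : iIndepFun W μ) (v : List ℕ)
    (A : Finset ℕ) (a : ℕ → ℝ) (c : ℝ) :
    IndepFun (pathProduct W v) (fun z => ∑ n ∈ A, a n * (W (n :: v) z - c)) μ := by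
  have h := indep_iSup_of_disjoint (fun i => (hm i).comap_le) hind.iIndep
    (S := {u | u.length ≤ v.length}) (T := {u | v.length < u.length})
    (Set.disjoint_left.mpr fun u h1 h2 => by simp only [Set.mem_setOf_eq] at h1 h2; omega)
  rw [IndepFun_iff_Indep]
  refine indep_of_indep_of_le h (Measurable.comap_le ?_) (Measurable.comap_le ?_)
  · have key : ∀ u : List ℕ, u.length ≤ v.length →
        Measurable[⨆ i ∈ {u : List ℕ | u.length ≤ v.length},
          MeasurableSpace.comap (W i) inferInstance] (pathProduct W u) := by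
      intro u
      induction u with
      | nil => intro _; exact measurable_const
      | cons b u ih =>
        intro hu
        refine Measurable.mul (ih (by simp at hu; omega)) ?_
        exact Measurable.of_comap_le (le_iSup₂ (f := fun i (_ : i ∈ {u : List ℕ | u.length ≤ v.length}) =>
          MeasurableSpace.comap (W i) inferInstance) (b :: u) hu)
    exact key v le_rfl
  · refine Finset.measurable_sum _ fun n _ => Measurable.const_mul (Measurable.sub_const ?_ _) _
    exact Measurable.of_comap_le (le_iSup₂ (f := fun i (_ : i ∈ {u : List ℕ | v.length < u.length}) =>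
      MeasurableSpace.comap (W i) inferInstance) (n :: v) (by simp))

lemma meas_path (hm : ∀ v, Measurable (W v)) (v : List ℕ) : Measurable (pathProduct W v) := by
  induction v with
  | nil => exact measurable_const
  | cons b u ih => exact ih.mul (hm _)

lemma integral_abs_mul {f g : Ω → ℝ} (h : IndepFun f g μ) (hf : Measurable f) (hg : Measurable g) :
    ∫ z, |f z * g z| ∂μ = (∫ z, |f z| ∂μ) * ∫ z, |g z| ∂μ := by
  simp only [abs_mul]
  exact (h.comp measurable_abs measurable_abs).integral_fun_mul_eq_mul_integral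
    hf.abs.aestronglyMeasurable hg.abs.aestronglyMeasurable

end

/-- Let ν be a Borel probability law on ℝ carried by (0,∞), not a point mass, with mean 1 and finite second moment, and W an independent family of real random variables on a probability space indexed by the vertices of the countably branching tree (finite lists of naturals; root [], parent of a :: v is v), each non-root one with law ν. Then the closed linear span in L¹ of the path products ∏_{root ≺ u ≼ v} W_u is infinite-dimensional and has no equivalent asymptotically uniformly convex norm. -/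
theorem result (ν : Measure ℝ) [IsProbabilityMeasure ν] (hpos : ν (Set.Ioi 0) = 1)
    (hnc : ∀ c : ℝ, ν ≠ Measure.dirac c) (hmean : ∫ x, x ∂ν = 1)
    (hm2 : Integrable (fun x : ℝ => x ^ 2) ν)
    (Ω : Type) [MeasurableSpace Ω] (μ : Measure Ω) [IsProbabilityMeasure μ]
    (W : List ℕ → Ω → ℝ) (hW : Crest.AnalysisR.TreeProduct.IsRealization ν μ W) :
    ¬ FiniteDimensional ℝ (Crest.AnalysisR.TreeProduct.productSpan μ W) ∧
      ∀ N : (Crest.AnalysisR.TreeProduct.spanBanach μ W).X → ℝ,
        (Crest.AnalysisR.TreeProduct.spanBanach μ W).IsEquivNorm N →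
          ¬ (Crest.AnalysisR.TreeProduct.spanBanach μ W).IsAUC N := by
  obtain ⟨hm, hind, hlaw⟩ := hW
  have hid2 : MemLp (fun x : ℝ => x) 2 ν :=
    (memLp_two_iff_integrable_sq measurable_id.aestronglyMeasurable).mpr hm2
  have hW2 : ∀ v, v ≠ [] → MemLp (W v) 2 μ := by
    intro v hv
    rw [← hlaw v hv] at hid2
    exact hid2.comp_of_map (hm v).aemeasurable
  have hint : ∀ v, v ≠ [] → ∀ g : ℝ → ℝ, Measurable g → ∫ z, g (W v z) ∂μ = ∫ x, g x ∂ν := by
    intro v hv g hg
    rw [← hlaw v hv, integral_map (hm v).aemeasurable hg.aestronglyMeasurable]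
  have hae : ∀ᵐ x ∂ν, 0 < x := by
    have := (prob_compl_eq_zero_iff (μ := ν) measurableSet_Ioi).mpr hpos
    exact this
  have habs : ∫ x, |x| ∂ν = 1 := by
    rw [← hmean]
    exact integral_congr_ae (hae.mono fun x hx => abs_of_pos hx)
  set δ := ∫ x, |x - 1| ∂ν with hδ
  have hδ0 : 0 < δ := by
    refine lt_of_le_of_ne (integral_nonneg fun x => abs_nonneg _) fun h => hnc 1 ?_
    have hi : Integrable (fun x : ℝ => |x - 1|) ν :=
      ((hid2.integrable one_le_two).sub (integrable_const 1)).abs
    have h1 := (integral_eq_zero_iff_of_nonneg (fun x => abs_nonneg _) hi).mp h.symm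
    have h2 : (fun x : ℝ => x) =ᵐ[ν] fun _ => 1 := h1.mono fun x hx => by
      simpa [sub_eq_zero] using hx
    have h3 : Measure.map (fun x : ℝ => x) ν = Measure.map (fun _ => (1 : ℝ)) ν :=
      Measure.map_congr h2
    rw [Measure.map_id', Measure.map_const] at h3
    simpa using h3
  have hP : ∀ v, Integrable (pathProduct W v) μ ∧ ∫ z, |pathProduct W v z| ∂μ = 1 := by
    intro v
    induction v with
    | nil => exact ⟨integrable_const _, by simp [pathProduct]⟩
    | cons b u ih =>
      have h := indep_path hm hind u {b} (fun _ => 1) 0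
      simp only [Finset.sum_singleton, one_mul, sub_zero] at h
      refine ⟨h.integrable_mul ih.1 ((hW2 _ (by simp)).integrable one_le_two), ?_⟩
      simp only [pathProduct]
      rw [integral_abs_mul h (meas_path hm u) (hm _), ih.2, one_mul,
        hint _ (by simp) _ measurable_abs, habs]
  haveI : CompleteSpace (productSpan μ W) :=
    (Submodule.isClosed_topologicalClosure _).completeSpace_coe
  let p : List ℕ → productSpan μ W := fun v => ⟨(hP v).1.toL1 _,
    Submodule.le_topologicalClosure _ (Submodule.subset_span ⟨v, (hP v).1.coeFn_toL1⟩)⟩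
  have hp : ∀ v, ((p v : Lp ℝ 1 μ) : Ω → ℝ) =ᵐ[μ] pathProduct W v := fun v => (hP v).1.coeFn_toL1
  have hnorm : ∀ v (A : Finset ℕ) (a : ℕ → ℝ), ‖∑ n ∈ A, a n • (p (n :: v) - p v)‖ =
      ∫ z, |∑ n ∈ A, a n * (W (n :: v) z - 1)| ∂μ := by
    intro v A a
    rw [← Submodule.norm_coe, L1.norm_eq_integral_norm, Submodule.coe_sum]
    have h1 := integral_abs_mul (indep_path hm hind v A a 1) (meas_path hm v)
      (Finset.measurable_sum _ fun n _ => ((hm _).sub_const _).const_mul _)
    rw [(hP v).2, one_mul] at h1
    rw [← h1]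
    refine integral_congr_ae ?_
    have h2 : ∀ n, (((a n • (p (n :: v) - p v) : productSpan μ W) : Lp ℝ 1 μ) : Ω → ℝ) =ᵐ[μ]
        fun z => pathProduct W v z * (a n * (W (n :: v) z - 1)) := by
      intro n
      rw [Submodule.coe_smul, Submodule.coe_sub]
      filter_upwards [Lp.coeFn_smul (a n) ((p (n :: v) : Lp ℝ 1 μ) - (p v : Lp ℝ 1 μ)),
        Lp.coeFn_sub (p (n :: v) : Lp ℝ 1 μ) (p v : Lp ℝ 1 μ), hp (n :: v), hp v] with z e1 e2 e3 e4
      rw [e1, Pi.smul_apply, e2, Pi.sub_apply, e3, e4]
      simp only [pathProduct, smul_eq_mul]; ring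
    filter_upwards [Lp.coeFn_finsetSum A
      (fun n => ((a n • (p (n :: v) - p v) : productSpan μ W) : Lp ℝ 1 μ)),
      ae_all_iff.mpr h2] with z e1 e2
    rw [e1, Finset.sum_apply, Finset.mul_sum, Real.norm_eq_abs]
    simp only [e2]
  have hno : NoAUC (productSpan μ W) := by
    refine noAUC_of_tree 1 1 δ one_pos hδ0 fun D => ⟨p, ?_, ?_, ?_, ?_⟩
    · rw [← Submodule.norm_coe, L1.norm_eq_integral_norm]
      refine le_of_eq ((hP []).2.symm.trans (integral_congr_ae ?_))
      filter_upwards [hp []] with z hz
      rw [hz, Real.norm_eq_abs]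
    · intro s _
      rw [← Submodule.norm_coe, L1.norm_eq_integral_norm]
      refine le_of_eq (Eq.trans (integral_congr_ae ?_) (hP s).2)
      filter_upwards [hp s] with z hz
      rw [hz, Real.norm_eq_abs]
    · intro s n
      have h := hnorm s {n} (fun _ => 1)
      simp only [Finset.sum_singleton, one_smul, one_mul] at h
      rw [h, hint _ (by simp) (fun x => |x - 1|) (by fun_prop)]
    · intro s
      refine ⟨√(∫ x, x ^ 2 ∂ν), fun A a => ?_⟩
      rw [hnorm, ← Real.sqrt_mul (integral_nonneg fun x => sq_nonneg _)]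
      apply Real.le_sqrt_of_sq_le
      let Y : ℕ → Ω → ℝ := fun n z => a n * (W (n :: s) z - 1)
      have hY : ∀ n, MemLp (Y n) 2 μ := fun n =>
        ((hW2 _ (by simp)).sub (memLp_const 1)).const_mul _
      have hZ : MemLp (∑ n ∈ A, Y n) 2 μ := memLp_finset_sum' _ fun n _ => hY n
      have hZ0 : ∫ z, (∑ n ∈ A, Y n) z ∂μ = 0 := by
        simp only [Finset.sum_apply]
        rw [integral_finset_sum _ fun n _ => (hY n).integrable one_le_two]
        refine Finset.sum_eq_zero fun n _ => ?_
        simp only [Y]
        rw [integral_const_mul, integral_sub ((hW2 _ (by simp)).integrable one_le_two)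
          (integrable_const _), hint _ (by simp) (fun x => x) measurable_id, hmean]
        simp
      have h1 := variance_eq_sub hZ
      rw [hZ0] at h1
      have h2 := variance_eq_sub hZ.abs
      have h3 := variance_nonneg (|∑ n ∈ A, Y n|) μ
      have h4 : Var[∑ n ∈ A, Y n; μ] = ∑ n ∈ A, Var[Y n; μ] := by
        refine IndepFun.variance_sum (fun n _ => hY n) fun i _ j _ hij => ?_
        exact (hind.indepFun (show i :: s ≠ j :: s by simpa using hij)).comp
          (φ := fun x => a i * (x - 1)) (ψ := fun x => a j * (x - 1)) (by fun_prop) (by fun_prop)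
      have h5 : ∀ n, Var[Y n; μ] ≤ (∫ x, x ^ 2 ∂ν) * a n ^ 2 := by
        intro n
        simp only [Y]
        rw [variance_const_mul, variance_sub_const (hm _).aestronglyMeasurable, mul_comm]
        refine mul_le_mul_of_nonneg_right ?_ (sq_nonneg _)
        rw [← hint (n :: s) (by simp) (fun x => x ^ 2) (by fun_prop)]
        exact variance_le_expectation_sq (hm _).aestronglyMeasurable
      have h6 : ∫ z, (|∑ n ∈ A, Y n| ^ 2) z ∂μ = ∫ z, ((∑ n ∈ A, Y n) ^ 2) z ∂μ := by
        congr 1; funext z; simp
      have h7 : ∫ z, |∑ n ∈ A, a n * (W (n :: s) z - 1)| ∂μ = ∫ z, (|∑ n ∈ A, Y n|) z ∂μ := by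
        congr 1; funext z; simp [Y]
      rw [h7, Finset.mul_sum]
      have h8 := Finset.sum_le_sum fun n (_ : n ∈ A) => h5 n
      nlinarith
  exact ⟨hno.not_finiteDimensional, hno⟩

end Crest.Agent.S0169
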