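import Crest.Statements.S0175
import Crest.Agent.H4.OTAbs
import Crest.Agent.H4.OTDens
import Crest.Agent.H4.OTLocal

set_option autoImplicit false
open MeasureTheory
open scoped ENNReal ContDiff
open Crest.AnalysisR.OT
open Crest Crest.AnalysisR Crest.AnalysisR.OT

namespace Crest.Agent.S0175

open Crest.Agent.H4OT Filter Topology Metric Set

section

variable {E : Type} [NormedAddCommGroup E] [InnerProductSpace ℝ E]

lemma pairCost_comm (s : ℝ) (x y : E) : pairCost s x y = pairCost s y x := by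
  simp only [pairCost, norm_sub_rev x y]

lemma pairCost_eq (s : ℝ) {x y : E} (h : x ≠ y) : pairCost s x y = ENNReal.ofReal (hh s (x - y)) := by
  have h0 : 0 < ‖x - y‖ := norm_pos_iff.mpr (sub_ne_zero.mpr h)
  rw [pairCost, ENNReal.ofReal_rpow_of_pos h0, hh, ← Real.rpow_natCast, ← Real.rpow_mul h0.le]
  congr 2
  push_cast
  ring

lemma pairCost_self {s : ℝ} (hs : 0 < s) (x : E) : pairCost s x x = ⊤ := by
  simp [pairCost, ENNReal.zero_rpow_of_neg (neg_lt_zero.mpr hs)]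

lemma hh_nonneg (s : ℝ) (v : E) : 0 ≤ hh s v := Real.rpow_nonneg (sq_nonneg _) _

lemma tripleCost_eq (s : ℝ) {x y z : E} (h1 : x ≠ y) (h2 : x ≠ z) (h3 : y ≠ z) :
    tripleCost s (x, y, z) = ENNReal.ofReal (cR s (x, y, z)) := by
  simp only [tripleCost, cR, pairCost_eq s h1, pairCost_eq s h2, pairCost_eq s h3]
  rw [ENNReal.ofReal_add (add_nonneg (hh_nonneg _ _) (hh_nonneg _ _)) (hh_nonneg _ _),
    ENNReal.ofReal_add (hh_nonneg _ _) (hh_nonneg _ _)]

lemma continuous_tripleCost (s : ℝ) : Continuous (tripleCost s : E × E × E → ℝ≥0∞) := by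
  have h : Continuous fun q : E × E => pairCost s q.1 q.2 :=
    ENNReal.continuous_rpow_const.comp (ENNReal.continuous_ofReal.comp (by fun_prop))
  exact ((h.comp (continuous_fst.prodMk continuous_snd.fst)).add
    (h.comp (continuous_fst.prodMk continuous_snd.snd))).add (h.comp continuous_snd)

lemma tc12 (s : ℝ) (x y z : E) : tripleCost s (y, x, z) = tripleCost s (x, y, z) := by
  simp only [tripleCost, pairCost_comm s y x]; ring

lemma tc23 (s : ℝ) (x y z : E) : tripleCost s (x, z, y) = tripleCost s (x, y, z) := by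
  simp only [tripleCost, pairCost_comm s z y]; ring

/-- squared distances -/
def nsq : Fin 5 → Fin 5 → ℝ :=
  ![![0, 1, 1, 1, 1], ![1, 0, 4, 2, 2], ![1, 4, 0, 2, 2], ![1, 2, 2, 0, 4], ![1, 2, 2, 4, 0]]

lemma nsq_eq (e1 e2 : E) (h1 : ‖e1‖ = 1) (h2 : ‖e2‖ = 1) (h12 : inner ℝ e1 e2 = 0) (i j : Fin 5) :
    ‖![0, e1, -e1, e2, -e2] i - ![0, e1, -e1, e2, -e2] j‖ ^ 2 = nsq i j := by
  have h21 : inner ℝ e2 e1 = 0 := by rw [real_inner_comm, h12]
  fin_cases i <;> fin_cases j <;>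
    simp [nsq, norm_sub_sq_real, h1, h2, h12, h21, -sub_neg_eq_add] <;> norm_num

lemma nsq_ne (i j : Fin 5) (h : i ≠ j) : nsq i j ≠ 0 := by
  fin_cases i <;> fin_cases j <;> first | exact absurd rfl h | simp [nsq]

lemma bad_real {s : ℝ} (hs : 0 < s) (i j k : Fin 5) (h : ¬ Good i j k) (hij : i ≠ j) (hik : i ≠ k)
    (hjk : j ≠ k) (t : ℝ) (ht : t = (4 : ℝ) ^ (-s / 2) / 2) :
    ![2, t, t, t, t] i + ![2, t, t, t, t] j + ![2, t, t, t, t] k <
      nsq i j ^ (-s / 2) + nsq i k ^ (-s / 2) + nsq j k ^ (-s / 2) := by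
  have a1 : (4 : ℝ) ^ (-s / 2) < 2 ^ (-s / 2) :=
    Real.rpow_lt_rpow_of_neg (by norm_num) (by norm_num) (by linarith)
  have a2 : (0 : ℝ) < 4 ^ (-s / 2) := by positivity
  fin_cases i <;> fin_cases j <;> fin_cases k <;>
    first
    | exact absurd rfl hij
    | exact absurd rfl hik
    | exact absurd rfl hjk
    | exact absurd (by decide) h
    | (simp [nsq]; linarith)

lemma good_cases : ∀ i j k : Fin 5, Good i j k →
    (i, j, k) = (0, 1, 2) ∨ (i, j, k) = (0, 2, 1) ∨ (i, j, k) = (1, 0, 2) ∨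
    (i, j, k) = (1, 2, 0) ∨ (i, j, k) = (2, 0, 1) ∨ (i, j, k) = (2, 1, 0) ∨
    (i, j, k) = (0, 3, 4) ∨ (i, j, k) = (0, 4, 3) ∨ (i, j, k) = (3, 0, 4) ∨
    (i, j, k) = (3, 4, 0) ∨ (i, j, k) = (4, 0, 3) ∨ (i, j, k) = (4, 3, 0) := by decide

end

/-- For every d ≥ 2 and s > 0 there is a smooth, compactly supported, nonnegative ρ on ℝᵈ with integral 1 and smooth square root such that, for μ = ρ dx and the cost summing ‖xᵢ - xⱼ‖^(-s) over the three pairs of a triple: some coupling with all three marginals μ has finite cost, minimal among all such couplings; every pair of Borel maps T₂, T₃ pushing μ to itself gives the plan x ↦ (x, T₂ x, T₃ x) strictly larger cost; and such pairs have costs arbitrarily close to that minimum. -/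
theorem result
    (d : ℕ) (hd : 2 ≤ d) (s : ℝ) (hs : 0 < s) :
    ∃ ρ : EuclideanSpace ℝ (Fin d) → ℝ, (∀ x, 0 ≤ ρ x) ∧ ContDiff ℝ ∞ ρ ∧ HasCompactSupport ρ ∧
      ContDiff ℝ ∞ (fun x => Real.sqrt (ρ x)) ∧ ∫ x, ρ x = 1 ∧
      ∃ π₀ : Measure (EuclideanSpace ℝ (Fin d) × EuclideanSpace ℝ (Fin d) × EuclideanSpace ℝ (Fin d)),
        IsCoupling₃ (measOfDensity ρ) π₀ ∧ ∫⁻ p, tripleCost s p ∂π₀ < ⊤ ∧
        (∀ π : Measure (EuclideanSpace ℝ (Fin d) × EuclideanSpace ℝ (Fin d) × EuclideanSpace ℝ (Fin d)), IsCoupling₃ (measOfDensity ρ) π →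
          ∫⁻ p, tripleCost s p ∂π₀ ≤ ∫⁻ p, tripleCost s p ∂π) ∧
        (∀ T₂ T₃ : EuclideanSpace ℝ (Fin d) → EuclideanSpace ℝ (Fin d), Measurable T₂ → Measurable T₃ →
          (measOfDensity ρ).map T₂ = measOfDensity ρ → (measOfDensity ρ).map T₃ = measOfDensity ρ →
          ∫⁻ p, tripleCost s p ∂π₀ < ∫⁻ x, tripleCost s (x, T₂ x, T₃ x) ∂(measOfDensity ρ)) ∧
        (∀ ε : ℝ≥0∞, 0 < ε → ∃ T₂ T₃ : EuclideanSpace ℝ (Fin d) → EuclideanSpace ℝ (Fin d), Measurable T₂ ∧ Measurable T₃ ∧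
          (measOfDensity ρ).map T₂ = measOfDensity ρ ∧ (measOfDensity ρ).map T₃ = measOfDensity ρ ∧
          ∫⁻ x, tripleCost s (x, T₂ x, T₃ x) ∂(measOfDensity ρ) < ∫⁻ p, tripleCost s p ∂π₀ + ε) := by
  let E := EuclideanSpace ℝ (Fin d)
  let e1 : E := EuclideanSpace.single ⟨0, by omega⟩ 1
  let e2 : E := EuclideanSpace.single ⟨1, by omega⟩ 1
  have he1 : ‖e1‖ = 1 := by simp [e1, E]
  have he2 : ‖e2‖ = 1 := by simp [e2, E]
  have he12 : inner ℝ e1 e2 = 0 := by simp [e1, e2, E, EuclideanSpace.inner_single_left]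
  haveI : Nontrivial E := ⟨⟨e1, 0, fun h => by simp [h] at he1⟩⟩
  obtain ⟨Λ1, hΛ1⟩ := local_main hs e1 he1
  obtain ⟨Λ2, hΛ2⟩ := local_main hs e2 he2
  set l := max Λ1 Λ2 with hl
  obtain ⟨F, G, uF, uG, C, hC, a1, a2, a3, a4, a5, a6, a7, a8, a9, a10, a11, a12, a13, a14, hloc⟩ :=
    hΛ1 l (le_max_left _ _)
  obtain ⟨F', G', uF', uG', C', hC', b1, b2, b3, b4, b5, b6, b7, b8, b9, b10, b11, b12, b13, b14,
    hloc'⟩ := hΛ2 l (le_max_right _ _)
  set t : ℝ := (4 : ℝ) ^ (-s / 2) / 2 with ht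
  have ht0 : 0 < t := by positivity
  have ht1 : t < 3 := by
    have : (4 : ℝ) ^ (-s / 2) ≤ 1 := Real.rpow_le_one_of_one_le_of_nonpos (by norm_num) (by linarith)
    linarith
  let Mf : Fin 5 → E → E := ![id, F, G, F', G']
  let u : Fin 5 → E → ℝ := ![fun x => 2 - l / 2 * ‖x‖ ^ 2, uF, uG, uF', uG']
  let p : Fin 5 → E := ![0, e1, -e1, e2, -e2]
  let v : Fin 5 → ℝ := ![2, t, t, t, t]
  have hMm : ∀ i, Measurable (Mf i) := fun i => by
    fin_cases i
    exacts [measurable_id, a1, a2, b1, b2]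
  have hum : ∀ i, Measurable (u i) := fun i => by
    fin_cases i
    exacts [(by fun_prop : Measurable fun x : E => 2 - l / 2 * ‖x‖ ^ 2), a3, a4, b3, b4]
  have hMd : ∀ i, ContDiffAt ℝ ω (Mf i) 0 := fun i => by
    fin_cases i
    exacts [contDiffAt_id, a5, a6, b5, b6]
  have hM0 : ∀ i, Mf i 0 = p i := fun i => by
    fin_cases i
    exacts [rfl, a7, a8, b7, b8]
  have hMi : ∀ i, Function.Injective (fderiv ℝ (Mf i) 0) := fun i => by
    fin_cases i
    exacts [by simpa [Mf] using Function.injective_id, a9, a10, b9, b10]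
  have huc : ∀ i, ContinuousAt (u i) 0 := fun i => by
    fin_cases i
    exacts [(by fun_prop : ContinuousAt (fun x : E => 2 - l / 2 * ‖x‖ ^ 2) 0), a11, a12, b11, b12]
  have hu0 : ∀ i, u i 0 = v i := fun i => by
    fin_cases i
    exacts [by simp [u, v], a13, a14, b13, b14]
  have hv : ∀ i, 0 < v i ∧ v i < 3 := fun i => by
    fin_cases i
    exacts [by simp [v]; norm_num, ⟨ht0, ht1⟩, ⟨ht0, ht1⟩, ⟨ht0, ht1⟩, ⟨ht0, ht1⟩]
  have hp : ∀ i j, ‖p i - p j‖ ^ 2 = nsq i j := nsq_eq e1 e2 he1 he2 he12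
  have hpne : ∀ i j, i ≠ j → p i ≠ p j := fun i j h h' =>
    nsq_ne i j h (by rw [← hp, h']; simp)
  have c1 : Tendsto (fun q : E × E × E => q.1) (𝓝 (0, 0, 0)) (𝓝 0) := continuous_fst.tendsto _
  have c2 : Tendsto (fun q : E × E × E => q.2.1) (𝓝 (0, 0, 0)) (𝓝 0) :=
    continuous_snd.fst.tendsto _
  have c3 : Tendsto (fun q : E × E × E => q.2.2) (𝓝 (0, 0, 0)) (𝓝 0) :=
    continuous_snd.snd.tendsto _
  have tM : ∀ i, Tendsto (Mf i) (𝓝 0) (𝓝 (p i)) := fun i => hM0 i ▸ (hMd i).continuousAt.tendsto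
  have tu : ∀ i, Tendsto (u i) (𝓝 0) (𝓝 (v i)) := fun i => hu0 i ▸ (huc i).tendsto
  have tU : ∀ i, Tendsto (fun x => ENNReal.ofReal (u i x)) (𝓝 0) (𝓝 (ENNReal.ofReal (v i))) :=
    fun i => (ENNReal.continuous_ofReal.tendsto _).comp (tu i)
  have ev1 : ∀ᶠ q : E × E × E in 𝓝 (0, 0, 0), ∀ i, 0 < u i q.1 ∧ u i q.1 < 3 :=
    eventually_all.mpr fun i => c1.eventually (((tu i).eventually (lt_mem_nhds (hv i).1)).and
      ((tu i).eventually (gt_mem_nhds (hv i).2)))
  have ev2 : ∀ᶠ q : E × E × E in 𝓝 (0, 0, 0), ∀ i j, i ≠ j → Mf i q.1 ≠ Mf j q.2.1 := by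
    refine eventually_all.mpr fun i => eventually_all.mpr fun j => eventually_all.mpr fun h => ?_
    filter_upwards [(((tM i).comp c1).sub ((tM j).comp c2)).eventually_ne
      (sub_ne_zero.mpr (hpne i j h))] with q hq using sub_ne_zero.mp hq
  have ev3 : ∀ᶠ q : E × E × E in 𝓝 (0, 0, 0), ∀ i j k, ¬ Good i j k →
      ENNReal.ofReal (u i q.1) + ENNReal.ofReal (u j q.2.1) + ENNReal.ofReal (u k q.2.2) <
        tripleCost s (Mf i q.1, Mf j q.2.1, Mf k q.2.2) := by
    refine eventually_all.mpr fun i => eventually_all.mpr fun j => eventually_all.mpr fun k =>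
      eventually_all.mpr fun h => ?_
    refine Tendsto.eventually_lt ((((tU i).comp c1).add ((tU j).comp c2)).add ((tU k).comp c3))
      (((continuous_tripleCost s).tendsto (p i, p j, p k)).comp (((tM i).comp c1).prodMk_nhds
        (((tM j).comp c2).prodMk_nhds ((tM k).comp c3)))) ?_
    rw [← ENNReal.ofReal_add (hv i).1.le (hv j).1.le,
      ← ENNReal.ofReal_add (add_pos (hv i).1 (hv j).1).le (hv k).1.le]
    by_cases hij : i = j
    · simp [tripleCost, hij, pairCost_self hs]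
    by_cases hik : i = k
    · simp [tripleCost, hik, pairCost_self hs]
    by_cases hjk : j = k
    · simp [tripleCost, hjk, pairCost_self hs]
    rw [tripleCost_eq s (hpne _ _ hij) (hpne _ _ hik) (hpne _ _ hjk),
      ENNReal.ofReal_lt_ofReal_iff_of_nonneg (add_pos (add_pos (hv i).1 (hv j).1) (hv k).1).le]
    simp only [cR, hh, hp]
    exact bad_real hs i j k h hij hik hjk t ht
  obtain ⟨R0, hR0, hball⟩ := Metric.eventually_nhds_iff_ball.mp
    (ev1.and (ev2.and (ev3.and (hloc.and hloc'))))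
  choose R hR hdens using fun i => exists_density (volume : Measure E) (Mf i) (hMm i) (hMd i) (hMi i)
  obtain ⟨r, hr0, hrR0, hrR⟩ : ∃ r : ℝ, 0 < r ∧ r < R0 ∧ ∀ i, r < R i := by
    have h1 : ∀ᶠ r : ℝ in 𝓝[>] 0, r < R0 := nhdsWithin_le_nhds (gt_mem_nhds hR0)
    have h2 : ∀ᶠ r : ℝ in 𝓝[>] 0, ∀ i, r < R i :=
      eventually_all.mpr fun i => nhdsWithin_le_nhds (gt_mem_nhds (hR i))
    obtain ⟨r, h, h'⟩ := ((h1.and h2).and self_mem_nhdsWithin).exists
    exact ⟨r, h', h.1, h.2⟩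
  set K : Set E := closedBall 0 r with hK
  have hKK : ∀ x ∈ K, ∀ y ∈ K, ∀ z ∈ K, (x, y, z) ∈ ball ((0, 0, 0) : E × E × E) R0 := by
    intro x hx y hy z hz
    rw [← ball_prod_same, ← ball_prod_same]
    exact ⟨closedBall_subset_ball hrR0 hx, closedBall_subset_ball hrR0 hy,
      closedBall_subset_ball hrR0 hz⟩
  have hupos : ∀ i, ∀ x ∈ K, 0 < u i x ∧ u i x < 3 := fun i x hx =>
    (hball _ (hKK x hx x hx x hx)).1 i
  have hMne : ∀ i j, i ≠ j → ∀ x ∈ K, ∀ y ∈ K, Mf i x ≠ Mf j y := fun i j h x hx y hy =>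
    (hball _ (hKK x hx y hy x hx)).2.1 i j h
  let b : ContDiffBump (0 : E) := ⟨r / 2, r, by positivity, by linarith⟩
  set I := ∫ x, b x ^ 2 with hI
  have hb2 : HasCompactSupport fun x => b x ^ 2 :=
    b.hasCompactSupport.comp_left (g := fun y : ℝ => y ^ 2) (by simp)
  have hI0 : 0 < I := (b.continuous.pow 2).integral_pos_of_hasCompactSupport_nonneg_nonzero hb2
    (fun x => sq_nonneg _) (x := 0) (by
      simp [b.one_of_mem_closedBall (mem_closedBall_self b.rIn_pos.le)])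
  let α : E → ℝ := fun x => √(1 / (6 * I)) * b x
  have hα0 : ∀ x ∉ K, α x = 0 := fun x hx => by
    simp only [α]
    rw [b.zero_of_le_dist (not_le.mp hx).le, mul_zero]
  choose β hβ1 hβ2 hβ3 hβ4 hβ5 using fun i => (hdens i r (hrR i)).2 α
    (contDiff_const.mul b.contDiff) (fun x => mul_nonneg (Real.sqrt_nonneg _) b.nonneg) hα0
  set a : Measure E := volume.withDensity fun x => ENNReal.ofReal (α x ^ 2) with ha
  have hauniv : a univ = ENNReal.ofReal (1 / 6) := by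
    have e : (fun x => α x ^ 2) = fun x => 1 / (6 * I) * b x ^ 2 := by
      funext x
      simp only [α]
      rw [mul_pow, Real.sq_sqrt (by positivity)]
    have hint : Integrable fun x => α x ^ 2 := by
      rw [e]
      exact ((b.continuous.pow 2).integrable_of_hasCompactSupport hb2).const_mul _
    rw [ha, withDensity_apply _ MeasurableSet.univ, Measure.restrict_univ,
      ← ofReal_integral_eq_lintegral_ofReal hint (Eventually.of_forall fun x => sq_nonneg _), e,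
      integral_const_mul, ← hI]
    congr 1
    field_simp
  haveI : IsFiniteMeasure a := ⟨by rw [hauniv]; exact ENNReal.ofReal_lt_top⟩
  have haK : ∀ᵐ x ∂a, x ∈ K := by
    rw [ae_iff]
    change a Kᶜ = 0
    rw [ha, withDensity_apply _ measurableSet_closedBall.compl]
    exact setLIntegral_eq_zero measurableSet_closedBall.compl fun x hx => by simp [hα0 x hx]
  let σ : E → ℝ := fun y => √2 * β 0 y + β 1 y + β 2 y + β 3 y + β 4 y
  have hσ0 : ∀ y, 0 ≤ σ y := fun y => by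
    have := hβ3 0 y; have := hβ3 1 y; have := hβ3 2 y; have := hβ3 3 y; have := hβ3 4 y
    positivity
  have hσd : ContDiff ℝ ∞ σ :=
    ((((contDiff_const.mul (hβ1 0)).add (hβ1 1)).add (hβ1 2)).add (hβ1 3)).add (hβ1 4)
  have hσc : HasCompactSupport σ :=
    (((((hβ2 0).mul_left (f := fun _ => √2)).add (hβ2 1)).add (hβ2 2)).add (hβ2 3)).add (hβ2 4)
  have hββ : ∀ i j, i ≠ j → ∀ y, β i y * β j y = 0 := by
    intro i j h y
    by_contra hne
    obtain ⟨x, hx, rfl⟩ : y ∈ Mf i '' K := by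
      by_contra hc; exact hne (by rw [hβ4 i y hc, zero_mul])
    obtain ⟨x', hx', h'⟩ : Mf i x ∈ Mf j '' K := by
      by_contra hc; exact hne (by rw [hβ4 j _ hc, mul_zero])
    exact hMne i j h x hx x' hx' h'.symm
  let M : Fin 5 × E → E := fun w => Mf w.1 w.2
  let U : Fin 5 × E → ℝ≥0∞ := fun w => ENNReal.ofReal (u w.1 w.2)
  have hM : Measurable M := measurable_from_prod_countable_right hMm
  have hU : Measurable U := measurable_from_prod_countable_right fun i => (hum i).ennreal_ofReal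
  have hμ : measOfDensity (fun y => σ y ^ 2) = (mm a).map M := by
    have hm : ∀ i, Measurable fun y => ENNReal.ofReal (β i y ^ 2) := fun i =>
      ((hβ1 i).continuous.measurable.pow_const 2).ennreal_ofReal
    simp only [mm, Measure.map_add _ _ hM, map_ee a _ hM]
    change _ = a.map (Mf 0) + a.map (Mf 0) + a.map (Mf 1) + a.map (Mf 2) + a.map (Mf 3) + a.map (Mf 4)
    simp only [← hβ5, ← withDensity_add_right _ (hm _)]
    unfold measOfDensity
    congr 1
    funext y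
    have e : σ y ^ 2 = β 0 y ^ 2 + β 0 y ^ 2 + β 1 y ^ 2 + β 2 y ^ 2 + β 3 y ^ 2 + β 4 y ^ 2 := by
      have hw : √2 ^ 2 = 2 := Real.sq_sqrt (by norm_num)
      simp only [σ]
      linear_combination (β 0 y ^ 2) * hw + 2 * √2 * (hββ 0 1 (by decide) y + hββ 0 2 (by decide) y +
        hββ 0 3 (by decide) y + hββ 0 4 (by decide) y) + 2 * (hββ 1 2 (by decide) y +
        hββ 1 3 (by decide) y + hββ 1 4 (by decide) y + hββ 2 3 (by decide) y +
        hββ 2 4 (by decide) y + hββ 3 4 (by decide) y)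
    simp only [Pi.add_apply]
    rw [e]
    repeat rw [ENNReal.ofReal_add (by positivity) (by positivity)]
  refine ⟨fun y => σ y ^ 2, fun y => sq_nonneg _, hσd.pow 2,
    hσc.comp_left (g := fun y : ℝ => y ^ 2) (by simp), ?_, ?_, ?_⟩
  · simpa only [Real.sqrt_sq (hσ0 _)] using hσd
  · rw [integral_eq_lintegral_of_nonneg_ae (Eventually.of_forall fun y => sq_nonneg _)
      (hσd.continuous.pow 2).aestronglyMeasurable]
    have := congrArg (fun m : Measure E => m univ) hμ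
    simp only [measOfDensity, withDensity_apply _ MeasurableSet.univ, Measure.restrict_univ,
      Measure.map_apply hM MeasurableSet.univ, preimage_univ, mm, Measure.add_apply,
      ee_apply _ _ MeasurableSet.univ, hauniv] at this
    rw [this]
    simp only [← ENNReal.ofReal_add (show (0 : ℝ) ≤ 1 / 6 by norm_num)
      (show (0 : ℝ) ≤ 1 / 6 by norm_num)]
    repeat rw [← ENNReal.ofReal_add (by norm_num) (by norm_num)]
    rw [ENNReal.toReal_ofReal (by norm_num)]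
    norm_num
  have hsum : ∀ i j k, ∀ x ∈ K, ∀ y ∈ K, ∀ z ∈ K, U (i, x) + U (j, y) + U (k, z) =
      ENNReal.ofReal (u i x + u j y + u k z) := by
    intro i j k x hx y hy z hz
    rw [ENNReal.ofReal_add (add_pos (hupos i x hx).1 (hupos j y hy).1).le (hupos k z hz).1.le,
      ENNReal.ofReal_add (hupos i x hx).1.le (hupos j y hy).1.le]
  let Q : Fin 5 × E → Fin 5 × E → Fin 5 × E → Prop := fun w1 w2 w3 =>
    U w1 + U w2 + U w3 ≤ tripleCost s (M w1, M w2, M w3) ∧
      (U w1 + U w2 + U w3 = tripleCost s (M w1, M w2, M w3) → w2.2 = w1.2 ∧ w3.2 = w1.2)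
  have Q12 : ∀ {w1 w2 w3}, Q w1 w2 w3 → Q w2 w1 w3 := by
    intro w1 w2 w3 h
    simp only [Q, tc12 s (M w1), add_comm (U w2) (U w1)]
    exact ⟨h.1, fun h' => ⟨(h.2 h').1.symm, (h.2 h').2.trans (h.2 h').1.symm⟩⟩
  have Q23 : ∀ {w1 w2 w3}, Q w1 w2 w3 → Q w1 w3 w2 := by
    intro w1 w2 w3 h
    simp only [Q, tc23 s (M w1) (M w2), add_right_comm (U w1) (U w3)]
    exact ⟨h.1, fun h' => (h.2 h').symm⟩
  have hQ : ∀ j k : Fin 5, 0 ≠ j → 0 ≠ k → j ≠ k → ∀ x ∈ K, ∀ y ∈ K, ∀ z ∈ K,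
      u 0 x + u j y + u k z + (‖x - y‖ ^ 2 + ‖Mf k z - Mf k y‖ ^ 2) ≤ cR s (x, Mf j y, Mf k z) →
      Q (0, x) (j, y) (k, z) := by
    intro j k h1 h2 h3 x hx y hy z hz h
    have e := tripleCost_eq s (hMne 0 j h1 x hx y hy) (hMne 0 k h2 x hx z hz)
      (hMne j k h3 y hy z hz)
    have n1 := sq_nonneg ‖x - y‖
    have n2 := sq_nonneg ‖Mf k z - Mf k y‖
    have hpos := add_pos (add_pos (hupos 0 x hx).1 (hupos j y hy).1) (hupos k z hz).1
    simp only [Q, hsum 0 j k x hx y hy z hz, M, e]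
    change cR s (Mf 0 x, Mf j y, Mf k z) ≥ _ at h
    refine ⟨ENNReal.ofReal_le_ofReal (by linarith), fun h' => ?_⟩
    rw [ENNReal.ofReal_eq_ofReal_iff hpos.le (by linarith)] at h'
    have k1 : x = y := sub_eq_zero.mp (norm_eq_zero.mp (pow_eq_zero_iff two_ne_zero |>.mp (by linarith)))
    have k2 : Mf k z = Mf k y :=
      sub_eq_zero.mp (norm_eq_zero.mp (pow_eq_zero_iff two_ne_zero |>.mp (by linarith)))
    exact ⟨k1.symm, ((hdens k r (hrR k)).1 hz hy k2).trans k1.symm⟩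
  have QA : ∀ x ∈ K, ∀ y ∈ K, ∀ z ∈ K, Q (0, x) (1, y) (2, z) := fun x hx y hy z hz =>
    hQ 1 2 (by decide) (by decide) (by decide) x hx y hy z hz
      (hball _ (hKK x hx y hy z hz)).2.2.2.1.1
  have QB : ∀ x ∈ K, ∀ y ∈ K, ∀ z ∈ K, Q (0, x) (3, y) (4, z) := fun x hx y hy z hz =>
    hQ 3 4 (by decide) (by decide) (by decide) x hx y hy z hz
      (hball _ (hKK x hx y hy z hz)).2.2.2.2.1
  have hup : ∀ j k : Fin 5, 0 ≠ j → 0 ≠ k → j ≠ k → ∀ C0 ≤ C + C', ∀ x ∈ K, ∀ y ∈ K,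
      cR s (x, Mf j y, Mf k y) ≤ u 0 x + u j y + u k y +
        C0 * (‖x - y‖ ^ 2 + ‖Mf k y - Mf k y‖ ^ 2) →
      tripleCost s (M (0, x), M (j, y), M (k, y)) ≤ U (0, x) + U (j, y) + U (k, y) +
        ENNReal.ofReal ((C + C') * dist y x ^ 2) := by
    intro j k h1 h2 h3 C0 hC0 x hx y hy h
    have e := tripleCost_eq s (hMne 0 j h1 x hx y hy) (hMne 0 k h2 x hx y hy)
      (hMne j k h3 y hy y hy)
    have hpos := add_pos (add_pos (hupos 0 x hx).1 (hupos j y hy).1) (hupos k y hy).1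
    simp only [hsum 0 j k x hx y hy y hy, M, e]
    rw [← ENNReal.ofReal_add hpos.le (by positivity), dist_comm, dist_eq_norm]
    refine ENNReal.ofReal_le_ofReal (h.trans ?_)
    simp only [sub_self, norm_zero]
    nlinarith [sq_nonneg ‖x - y‖]
  refine abstract_main (tripleCost s) (continuous_tripleCost s).measurable (tc12 s) (tc23 s) a
    (fun h => by
      rw [h, Measure.coe_zero, Pi.zero_apply, eq_comm, ENNReal.ofReal_eq_zero] at hauniv
      norm_num at hauniv) K measurableSet_closedBall haK M hM ?_ U hU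
    (ENNReal.ofReal 3) ENNReal.ofReal_ne_top
    (fun w hw => ENNReal.ofReal_le_ofReal (hupos _ _ hw).2.le) ?_ (C + C') (by positivity)
    (fun x hx y hy => hup 1 2 (by decide) (by decide) (by decide) C (by linarith) x hx y hy
      (hball _ (hKK x hx y hy y hy)).2.2.2.1.2)
    (fun x hx y hy => hup 3 4 (by decide) (by decide) (by decide) C' (by linarith) x hx y hy
      (hball _ (hKK x hx y hy y hy)).2.2.2.2.2) _ hμ
  · rintro ⟨i, x⟩ ⟨j, y⟩ hx hy h
    obtain rfl : i = j := by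
      by_contra hne
      exact hMne i j hne x hx y hy h
    exact Prod.ext rfl ((hdens i r (hrR i)).1 hx hy h)
  · rintro ⟨i, x⟩ ⟨j, y⟩ ⟨k, z⟩ hx hy hz
    by_cases hg : Good i j k
    · suffices H : Q (i, x) (j, y) (k, z) from ⟨H.1, fun h => ⟨(H.2 h).1, (H.2 h).2, hg⟩⟩
      rcases good_cases i j k hg with h | h | h | h | h | h | h | h | h | h | h | h <;>
        obtain ⟨rfl, rfl, rfl⟩ := h
      exacts [QA _ hx _ hy _ hz, Q23 (QA _ hx _ hz _ hy), Q12 (QA _ hy _ hx _ hz),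
        Q23 (Q12 (QA _ hz _ hx _ hy)), Q12 (Q23 (QA _ hy _ hz _ hx)),
        Q12 (Q23 (Q12 (QA _ hz _ hy _ hx))), QB _ hx _ hy _ hz, Q23 (QB _ hx _ hz _ hy),
        Q12 (QB _ hy _ hx _ hz), Q23 (Q12 (QB _ hz _ hx _ hy)), Q12 (Q23 (QB _ hy _ hz _ hx)),
        Q12 (Q23 (Q12 (QB _ hz _ hy _ hx)))]
    · have := (hball _ (hKK x hx y hy z hz)).2.2.1 i j k hg
      exact ⟨this.le, fun h => absurd h this.ne⟩

end Crest.Agent.S0175
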