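import Crest.Statements.S0217
import Crest.Agent.H4.Sat3

set_option autoImplicit false
open Crest Crest.ProbabilityR

namespace Crest.Agent.S0217

open Finset Crest.ProbabilityR.RandomSAT Crest.Agent.H4.Sat

lemma CU_univ (k n : ℕ) : CU k (univ : Finset (Fin n)) = univ := by
  ext c; simp [mem_CU]

lemma satProb_eq (k n m : ℕ) :
    satProb k n m = EM (univ : Finset (Clause k n)) m (surv con Set.univ) := by
  classical
  rw [EM_univ, satProb, Crest.FinProb.uniformProb]
  congr 1
  · rw [card_filter]; push_cast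
    refine sum_congr rfl fun f _ => ?_
    rw [surv_eq, Set.univ_inter]
    have : (f ∈ {F : Fin m → Clause k n | Satisfiable F})
        ↔ {x | ∀ c ∈ List.ofFn f, x ∈ con c}.Nonempty := by
      simp [Satisfiable, Set.Nonempty, con, List.mem_ofFn]
    unfold Crest.Agent.H4.Sat.ne
    by_cases h : f ∈ {F : Fin m → Clause k n | Satisfiable F}
    · rw [if_pos h, if_pos (this.1 h)]
    · rw [if_neg h, if_neg (fun h' => h (this.2 h'))]

lemma surv_single {k n : ℕ} (hk : k ≤ n) (σ : Fin n → Bool) : ∀ (m : ℕ) (A : Set (Fin n → Bool)),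
    A ⊆ {σ} → EM (univ : Finset (Clause k n)) m (surv con A) ≤ ne A * (1 - 1 / 2 ^ k) ^ m
  | 0, A, _ => by simp [EM, surv]
  | m + 1, A, hA => by
    have hS : (univ : Finset (Clause k n)).Nonempty := by
      rw [← CU_univ]; exact CU_nonempty (by simpa using hk)
    have hr : (0:ℝ) ≤ 1 - 1 / 2 ^ k := by
      rw [sub_nonneg]; exact div_le_one_of_le₀ (one_le_pow₀ (by norm_num)) (by positivity)
    simp only [EM, surv]
    refine le_trans (avg_mono (g := fun c => (1 - 1 / 2 ^ k) ^ m * ne (A ∩ con c)) fun c _ =>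
      (surv_single hk σ m _ (Set.inter_subset_left.trans hA)).trans (mul_comm _ _).le) ?_
    rw [avg_mul, pow_succ, mul_comm (ne A), mul_assoc]
    refine mul_le_mul_of_nonneg_left ?_ (by positivity)
    by_cases hne : A.Nonempty
    · have := hazard (k := k) (U := univ) (by simpa using hk) hne
      have hF : Fr A ∩ univ = univ := by
        ext v; simp only [mem_inter, mem_univ, and_true, iff_true]
        exact mem_Fr.2 ⟨σ v, fun τ hτ => by rw [hA hτ]⟩
      rw [hF, CU_univ] at this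
      have hD : (0:ℝ) < (univ : Finset (Fin n)).card.descFactorial k := by
        exact_mod_cast Nat.descFactorial_pos.2 (by simpa using hk)
      rw [ne_pos hne, mul_one]
      refine this.trans (le_of_eq ?_)
      field_simp
    · rw [ne_neg hne, mul_zero]
      exact avg_le hS fun c _ => (ne_neg fun h => hne (h.mono Set.inter_subset_left)).le

lemma satProb_le {k n : ℕ} (hk : k ≤ n) (m : ℕ) :
    satProb k n m ≤ 2 ^ n * (1 - 1 / 2 ^ k) ^ m := by
  rw [satProb_eq]
  have hr : (0:ℝ) ≤ 1 - 1 / 2 ^ k := by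
    rw [sub_nonneg]; exact div_le_one_of_le₀ (one_le_pow₀ (by norm_num)) (by positivity)
  calc _ ≤ EM (univ : Finset (Clause k n)) m
        (fun ω => ∑ σ : Fin n → Bool, surv con {σ} ω) := by
        refine EM_mono fun ω _ => ?_
        simp only [surv_eq]
        by_cases h : (Set.univ ∩ {x | ∀ c ∈ ω, x ∈ con c} : Set (Fin n → Bool)).Nonempty
        · obtain ⟨σ, hσ⟩ := h
          refine le_trans ?_ (single_le_sum (f := fun σ : Fin n → Bool =>
            ne ({σ} ∩ {x | ∀ c ∈ ω, x ∈ con c})) (fun _ _ => ne_nonneg _) (mem_univ σ))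
          rw [ne_pos (A := {σ} ∩ _) ⟨σ, rfl, hσ.2⟩]; exact ne_le_one _
        · rw [ne_neg h]; exact sum_nonneg fun _ _ => ne_nonneg _
    _ ≤ ∑ σ : Fin n → Bool, (1 - 1 / 2 ^ k : ℝ) ^ m := by
        rw [EM_sum]
        refine sum_le_sum fun σ _ => (surv_single hk σ m {σ} le_rfl).trans ?_
        exact mul_le_of_le_one_left (by positivity) (ne_le_one _)
    _ = _ := by simp

lemma satProb_nonneg (k n m : ℕ) : 0 ≤ satProb k n m := by
  unfold satProb Crest.FinProb.uniformProb; positivity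

lemma sq_le_pow (d : ℕ) : ((d:ℝ) + 1) ^ 2 ≤ 4 * 2 ^ d := by
  induction d with
  | zero => norm_num
  | succ d ih =>
    have h1 : (d:ℝ) + 1 ≤ 2 ^ d := by exact_mod_cast Nat.lt_two_pow_self
    have h2 : (1:ℝ) ≤ 2 ^ d := one_le_pow₀ (by norm_num)
    rw [pow_succ 2 d]; push_cast; nlinarith

lemma del_le (j K : ℕ) : ∃ C : ℝ, 0 ≤ C ∧ ∀ n, j + 3 ≤ n →
    Del con (univ : Finset (Clause (j + 3) n)) (K * n) Set.univ ≤ C := by
  set x : ℝ := 6 + 4 * ((j + 3 : ℕ) : ℝ) ^ 2 with hx
  have hx0 : 0 ≤ x := by positivity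
  set Λ : ℝ := Real.exp (2 * ((j + 3 : ℕ) : ℝ) * K * x) with hΛ
  have hΛ1 : 1 ≤ Λ := Real.one_le_exp (by positivity)
  set η : ℝ := 1 / (16 * Λ) with hη
  have hη0 : 0 < η := by positivity
  have hη1 : η ≤ 1 := div_le_one_of_le₀ (by linarith) (by positivity)
  obtain ⟨n1, hn1⟩ := exists_nat_ge (64 * ((j + 3 : ℕ) : ℝ) * Λ)
  set Bc : ℝ := 4 * (2 * (K:ℝ) + 1) ^ 2 + 1 + 4 * (2 / ((η / 4) ^ (j + 3)) ^ 2) with hBc
  have hB : 0 ≤ Bc := by positivity
  refine ⟨Bc + 16 * ((K:ℝ) + 1) ^ 2 + ((K:ℝ) * n1 + 1) ^ 2, by positivity, fun n hn => ?_⟩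
  have hS : (univ : Finset (Clause (j + 3) n)).Nonempty := by
    rw [← CU_univ]; exact CU_nonempty (by simpa using hn)
  by_cases hn2 : n ≤ n1
  · have : Del con (univ : Finset (Clause (j + 3) n)) (K * n) Set.univ ≤ ((K:ℝ) * n1 + 1) ^ 2 := by
      refine avg_le hS fun c _ => EM_le hS fun ω hω => ?_
      have h1 := tau_le con ω (Set.univ : Set (Fin n → Bool))
      have h2 := tau_nonneg con ω (Set.univ ∩ con c)
      have h3 := tau_mono con ω (Set.inter_subset_left : Set.univ ∩ con c ⊆ Set.univ)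
      have h4 : (n:ℝ) ≤ n1 := by exact_mod_cast hn2
      have h5 : (K:ℝ) * n ≤ K * n1 := by gcongr
      rw [hω] at h1; push_cast at h1
      apply pow_le_pow_left₀ <;> linarith
    have : 0 ≤ 16 * ((K:ℝ) + 1) ^ 2 := by positivity
    linarith
  · push Not at hn2
    have h1 : Del con (univ : Finset (Clause (j + 3) n)) (K * n) Set.univ
        ≤ Psi (j + 3) (univ : Finset (Fin n)) (K * n) Set.univ := by
      unfold Del Psi
      rw [← EM_avg, ← CU_univ]
      refine EM_mono fun xs _ => ?_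
      simp only [← R_kill]
      rw [← R_avg]
      exact R_mono con (fun B _ => kill_con (j := j + 1) (by simpa using hn) B) xs _
    have hn0 : (n:ℝ) ≤ 2 * ((n - n / 2 : ℕ) : ℝ) := by exact_mod_cast (by omega : n ≤ 2 * (n - n / 2))
    have hn1' : (n1:ℝ) ≤ n := by exact_mod_cast hn2.le
    have hn0' : (1:ℝ) ≤ ((n - n / 2 : ℕ) : ℝ) := by exact_mod_cast (by omega : 1 ≤ n - n / 2)
    have h2k : 2 * ((j + 3 : ℕ) : ℝ) ≤ η * ((n - n / 2 : ℕ) : ℝ) := by
      rw [hη, div_mul_eq_mul_div, le_div_iff₀ (by positivity)]; linarith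
    have hk0 : j + 3 ≤ n - n / 2 := by
      have : ((j + 3 : ℕ) : ℝ) ≤ ((n - n / 2 : ℕ) : ℝ) := by
        have := mul_le_of_le_one_left (by positivity : (0:ℝ) ≤ ((n - n / 2 : ℕ) : ℝ)) hη1
        have : (0:ℝ) ≤ ((j + 3 : ℕ) : ℝ) := Nat.cast_nonneg _
        linarith
      exact_mod_cast this
    have h2 := main_rec (n := n) (j := j) (n0 := n - n / 2) (M := K * n) (Λ := Λ) (L := 2 * K + 1)
      hη0 hη1 hk0 h2k (by rw [hη]; field_simp; exact le_rfl)
      (Real.exp_le_exp.2 (by
        rw [← hx, div_mul_eq_mul_div, div_mul_eq_mul_div, div_le_iff₀ (by linarith)]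
        push_cast
        have := mul_le_mul_of_nonneg_left hn0 (by positivity : 0 ≤ ((j:ℝ) + 3) * K * x)
        linarith))
      (by
        push_cast
        have := mul_le_mul_of_nonneg_left hn0 (by positivity : 0 ≤ (K:ℝ))
        linarith)
      (n / 2) univ (by simp; omega) (K * n) le_rfl Set.univ ∅ (fun _ _ _ _ => trivial)
    rw [← hBc] at h2
    have h3 : (1 / 2 : ℝ) ^ (n / 2) * (((K * n : ℕ) : ℝ) + 1) ^ 2 ≤ 16 * ((K:ℝ) + 1) ^ 2 := by
      have h4 := sq_le_pow (n / 2)
      have h5 : (n:ℝ) + 1 ≤ 2 * (((n / 2 : ℕ) : ℝ) + 1) := by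
        exact_mod_cast (by omega : n + 1 ≤ 2 * (n / 2 + 1))
      have h6 : ((K * n : ℕ) : ℝ) + 1 ≤ ((K:ℝ) + 1) * (2 * (((n / 2 : ℕ) : ℝ) + 1)) := by
        refine le_trans ?_ (mul_le_mul_of_nonneg_left h5 (by positivity))
        push_cast
        have : (0:ℝ) ≤ K := Nat.cast_nonneg _
        have : (0:ℝ) ≤ n := Nat.cast_nonneg _
        nlinarith
      rw [one_div, inv_pow, inv_mul_le_iff₀ (by positivity)]
      calc _ ≤ (((K:ℝ) + 1) * (2 * (((n / 2 : ℕ) : ℝ) + 1))) ^ 2 := by gcongr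
        _ = 4 * ((K:ℝ) + 1) ^ 2 * (((n / 2 : ℕ) : ℝ) + 1) ^ 2 := by ring
        _ ≤ 4 * ((K:ℝ) + 1) ^ 2 * (4 * 2 ^ (n / 2)) := by gcongr
        _ = _ := by ring
    have : 0 ≤ ((K:ℝ) * n1 + 1) ^ 2 := by positivity
    simp only [card_empty, Nat.cast_zero] at h2
    linarith


/-- Fix a clause length `k ≥ 3`. Add independent uniformly random clauses, each with `k` literals of independent fair sign on `k` distinct variables among `n` (repetitions allowed); let `H` be the number of clauses present when the formula first becomes unsatisfiable. Then the variance of `H` is at most a constant multiple of `n`, for all `n ≥ k`, the constant depending only on `k`. Mean and second moment of `H` enter as tail sums of the probabilities that `m` random clauses are satisfiable. -/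
theorem result (k : ℕ) (hk : 3 ≤ k) :
    ∃ C : ℝ, ∀ n : ℕ, k ≤ n →
      Summable (fun m : ℕ => Crest.ProbabilityR.RandomSAT.satProb k n m) ∧
      Summable (fun m : ℕ => (2 * (m : ℝ) + 1) * Crest.ProbabilityR.RandomSAT.satProb k n m) ∧
      (∑' m : ℕ, (2 * (m : ℝ) + 1) * Crest.ProbabilityR.RandomSAT.satProb k n m)
          - (∑' m : ℕ, Crest.ProbabilityR.RandomSAT.satProb k n m) ^ 2 ≤ C * n := by
  obtain ⟨j, rfl⟩ : ∃ j, k = j + 3 := ⟨k - 3, by omega⟩
  set r : ℝ := 1 - 1 / 2 ^ (j + 3) with hr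
  have hr0 : 0 ≤ r := by
    rw [hr, sub_nonneg]; exact div_le_one_of_le₀ (one_le_pow₀ (by norm_num)) (by positivity)
  have hr1 : r < 1 := by rw [hr]; exact sub_lt_self _ (by positivity)
  obtain ⟨K, hK⟩ := exists_pow_lt_of_lt_one (by norm_num : (0:ℝ) < 1 / 2) hr1
  obtain ⟨C, hC0, hC⟩ := del_le j K
  have hg : Summable (fun i : ℕ => r ^ i) := summable_geometric_of_lt_one hr0 hr1
  have hg1 : Summable (fun i : ℕ => (i:ℝ) * r ^ i) := by
    simpa using summable_pow_mul_geometric_of_norm_lt_one 1 (r := r)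
      (by rwa [Real.norm_of_nonneg hr0])
  have hT : Summable (fun i : ℕ => ((i:ℝ) + 1) * r ^ i) := by
    simpa [add_mul] using hg1.add hg
  set T := ∑' i : ℕ, ((i:ℝ) + 1) * r ^ i with hTdef
  have hT0 : 0 ≤ T := tsum_nonneg fun i => by positivity
  refine ⟨(K + 1) * C + (2 * K + 5) * T, fun n hn => ?_⟩
  have hs1 : Summable (fun m : ℕ => satProb (j + 3) n m) :=
    Summable.of_nonneg_of_le (satProb_nonneg _ _) (satProb_le hn) (hg.mul_left _)
  have hs2 : Summable (fun m : ℕ => (2 * (m : ℝ) + 1) * satProb (j + 3) n m) := by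
    refine Summable.of_nonneg_of_le (fun m => mul_nonneg (by positivity) (satProb_nonneg _ _ _))
      (fun m => ?_) (hT.mul_left (2 * 2 ^ n))
    calc _ ≤ (2 * ((m : ℝ) + 1)) * (2 ^ n * r ^ m) :=
          mul_le_mul (by linarith) (satProb_le hn m) (satProb_nonneg _ _ _) (by positivity)
      _ = _ := by ring
  refine ⟨hs1, hs2, ?_⟩
  have hS : (univ : Finset (Clause (j + 3) n)).Nonempty := by
    rw [← CU_univ]; exact CU_nonempty (by simpa using hn)
  have hv := var_le con hS (K * n) Set.univ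
  rw [EM_tau con hS, EM_tau_sq con hS] at hv
  simp only [← satProb_eq] at hv
  have hn1 : (1:ℝ) ≤ n := by exact_mod_cast (by omega : 1 ≤ n)
  have h1 : (∑ m ∈ range (K * n + 1 + 1), satProb (j + 3) n m) ^ 2
      ≤ (∑' m : ℕ, satProb (j + 3) n m) ^ 2 :=
    pow_le_pow_left₀ (sum_nonneg fun m _ => satProb_nonneg _ _ _)
      (hs1.sum_le_tsum _ fun m _ => satProb_nonneg _ _ _) 2
  rw [← hs2.sum_add_tsum_nat_add (K * n + 1 + 1)]
  have h2 : ∑' i : ℕ, (2 * ((i + (K * n + 1 + 1) : ℕ) : ℝ) + 1)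
      * satProb (j + 3) n (i + (K * n + 1 + 1)) ≤ (2 * K + 5) * T * n := by
    have hKn : (2:ℝ) ^ n * r ^ (K * n) ≤ 1 := by
      rw [pow_mul, ← mul_pow]; exact pow_le_one₀ (by positivity) (by linarith)
    calc _ ≤ ∑' i : ℕ, ((2 * K + 5) * n) * (((i:ℝ) + 1) * r ^ i) := by
          refine Summable.tsum_le_tsum (fun i => ?_)
            ((summable_nat_add_iff (K * n + 1 + 1)).2 hs2) (hT.mul_left _)
          have h3 : satProb (j + 3) n (i + (K * n + 1 + 1)) ≤ r ^ i := by
            refine (satProb_le hn _).trans ?_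
            rw [← hr]
            calc (2:ℝ) ^ n * r ^ (i + (K * n + 1 + 1)) = r ^ i * ((2 ^ n * r ^ (K * n)) * r ^ 2) := by
                  ring
              _ ≤ r ^ i * (1 * 1) := by
                  gcongr
                  exact pow_le_one₀ hr0 hr1.le
              _ = _ := by ring
          have h4 : 2 * ((i + (K * n + 1 + 1) : ℕ) : ℝ) + 1 ≤ ((2 * K + 5) * n) * ((i:ℝ) + 1) := by
            push_cast
            have hi : (0:ℝ) ≤ i := Nat.cast_nonneg _
            have hK0 : (0:ℝ) ≤ K := Nat.cast_nonneg _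
            nlinarith [mul_nonneg hi (sub_nonneg.2 hn1), mul_nonneg (mul_nonneg hK0 hi) (by linarith : (0:ℝ) ≤ n)]
          rw [← mul_assoc]
          exact mul_le_mul h4 h3 (satProb_nonneg _ _ _) (by positivity)
      _ = _ := by rw [tsum_mul_left]; ring
  have h5 : (((K * n : ℕ) : ℝ) + 1) * Del con (univ : Finset (Clause (j + 3) n)) (K * n) Set.univ
      ≤ (K + 1) * C * n := by
    calc _ ≤ (((K * n : ℕ) : ℝ) + 1) * C := mul_le_mul_of_nonneg_left (hC n hn) (by positivity)
      _ ≤ ((K + 1) * n) * C := by gcongr; push_cast; linarith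
      _ = _ := by ring
  linarith

end Crest.Agent.S0217
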