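import Crest.Statements.S0218
import Crest.Agent.H5.SAT.U
import Crest.Agent.H9.MP.T6
import Crest.Agent.H9.MP.T7

set_option autoImplicit false
open Crest Crest.ProbabilityR

namespace Crest.Agent.S0218

open Crest.Agent.H5.SAT Crest.Agent.H9.MP Crest.ProbabilityR.Diluted Filter

lemma LC_iff (N m b : ℕ) (c : ℚ) : LC N m b c ↔
    0 < N ∧ (c : ℝ) * N ≤ m ∧ 4 * (b * gE N m + (c : ℝ) * b ^ 2) < 3 * N := by
  unfold LC
  rw [gE_eq, ← Rat.cast_le (K := ℝ), ← Rat.cast_lt (K := ℝ)]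
  push_cast; rfl

lemma clash {b N m : ℕ} (hb : 1 ≤ b) {c : ℚ} (hc : 0 ≤ c) (h : LC N m b c) {R : ℕ} {S I : Type}
    [Fintype S] [Fintype I] [Nonempty I] {K : Ker S} (σ : I → List S → Bool) (hR : 0 < R)
    (hK : IsKer K) : -1 < Bfin 3 c (mu b) nu (eU R) R K σ := by
  obtain ⟨h1, h2, h3⟩ := (LC_iff _ _ _ _).1 h
  have hc' : (0 : ℝ) ≤ c := by exact_mod_cast hc
  exact (L_sound h1 hb hc' h2 h3).trans_le (pressure_le_Bfin (by norm_num) hc' (int_mu b) int_nu
    (fac_mu b) (exps_eU hR) hK σ h1)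

lemma trial {b : ℕ} {c : ℝ} (hc : 0 ≤ c) (h : ∀ᶠ N in atTop, pressure 3 c (mu b) nu N ≤ -2) :
    ∃ (R : ℕ) (S I : Type) (_ : Fintype S) (_ : Fintype I) (_ : Nonempty I) (K : Ker S)
      (σ : I → List S → Bool), 0 < R ∧ IsKer K ∧ Bfin 3 c (mu b) nu (eU R) R K σ < -(3 / 2) := by
  by_contra h0
  have := lower_bound (by norm_num) hc (int_mu b) int_nu (fac_mu b) (F := -(3 / 2))
    (fun R S I _ _ _ K σ hR hK _ => not_lt.1 fun h1 =>
      h0 ⟨R, S, I, inferInstance, inferInstance, inferInstance, K, σ, hR, hK, h1⟩)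
    (ε := 1 / 4) (by norm_num)
  obtain ⟨N, h1, h2⟩ := (h.and this).exists
  linarith

/-- Suppose formulas of independent uniformly random clauses, each with three literals of fair sign on three distinct variables among `n`, have a sharp satisfiability threshold at clause density `α`: at every fixed density below `α` the probability of satisfiability tends to `1` as `n → ∞`, and at every fixed density above `α` it tends to `0`. Then `α` is a computable real number: some computable function `f` on the natural numbers has `f r / 2 ^ r` within `2⁻ʳ` of `α` for every `r`. -/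
theorem result (α : ℝ)
    (hα : Crest.ProbabilityR.RandomSAT.IsSharpThreshold (Crest.ProbabilityR.RandomSAT.satProb 3) α) :
    ∃ f : ℕ → ℕ, Computable f ∧ ∀ r : ℕ, |(f r : ℝ) / 2 ^ r - α| ≤ 1 / 2 ^ r := by
  rcases lt_trichotomy α 0 with h | rfl | h
  · have h1 := (hα 0 le_rfl).2 h
    have h2 : ∀ n, RandomSAT.satProb 3 n 0 = 1 := fun n => by
      have : {F : Fin 0 → RandomSAT.Clause 3 n | RandomSAT.Satisfiable F} = Set.univ :=
        Set.eq_univ_of_forall fun F => ⟨fun _ => true, fun i => i.elim0⟩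
      simp [RandomSAT.satProb, this, FinProb.uniformProb]
    simp [h2] at h1
  · exact ⟨fun _ => 0, Computable.const 0, fun r => by simp⟩
  obtain ⟨C, hC⟩ := upper hα h.le
  have hb : ∀ r, 1 ≤ bb C r := fun r => Nat.succ_le_of_lt (by unfold bb; positivity)
  have hT := fun (r : ℕ) (c : ℝ) (hc : α + 1 / ((2 ^ (r + 2) : ℕ) : ℝ) ≤ c) =>
    trial (b := bb C r) (le_trans (by positivity) hc) (hC _ Nat.one_le_two_pow c hc)
  have hex : ∀ r, ∃ w, FC C r w := fun r => by
    have p0 : (0 : ℝ) < (2 ^ (r + 2) : ℕ) := by positivity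
    obtain ⟨a, ha⟩ := Nat.exists_eq_succ_of_ne_zero (Nat.ceil_pos.2 (mul_pos h p0)).ne'
    have a1 := Nat.le_ceil (α * (2 ^ (r + 2) : ℕ))
    have a2 := Nat.ceil_lt_add_one (mul_pos h p0).le
    rw [ha, Nat.cast_succ] at a1 a2
    obtain ⟨N, m, h1⟩ := L_complete hα (c := ((a : ℚ) / ((2 ^ (r + 2) : ℕ) : ℚ) : ℚ))
      (by positivity) (by rw [Rat.cast_div, Rat.cast_natCast, Rat.cast_natCast, div_lt_iff₀ p0]
                          linarith) (bb C r)
    obtain ⟨R, S, I, _, _, _, K, σ, hR, hK, h2⟩ :=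
      hT r ((((a + 3 : ℕ) : ℚ) / ((2 ^ (r + 2) : ℕ) : ℚ) : ℚ)) (by
        rw [Rat.cast_div, Rat.cast_natCast, Rat.cast_natCast, le_div_iff₀ p0, add_mul,
          one_div_mul_cancel p0.ne', Nat.cast_add a 3]
        norm_num at a1 ⊢
        linarith)
    obtain ⟨z, k0, h3⟩ := U_complete hR hK (by positivity) h2
    exact ⟨(a, N, m, k0, z), (LC_iff _ _ _ _).2 h1, h3⟩
  obtain ⟨g, hg, hP⟩ := search (pr_FC C) hex
  refine ⟨fun r => ((g r).1 + 3) / 4, ?_, fun r => ?_⟩
  · have : Primrec fun w : ℕ × ℕ × ℕ × ℕ × Tr => (w.1 + 3) / 4 := by prim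
    exact this.to_comp.comp hg
  obtain ⟨h1, h2⟩ := hP r
  dsimp only
  generalize (g r).1 = a at h1 h2 ⊢
  have p0 : (0 : ℝ) < (2 ^ (r + 2) : ℕ) := by positivity
  have b1 : (a : ℝ) < α * (2 ^ (r + 2) : ℕ) + 1 := by
    by_contra h3
    obtain ⟨R, S, I, _, _, _, K, σ, hR, hK, h4⟩ :=
      hT r (((a : ℚ) / ((2 ^ (r + 2) : ℕ) : ℚ) : ℚ)) (by
        rw [Rat.cast_div, Rat.cast_natCast, Rat.cast_natCast, le_div_iff₀ p0, add_mul,
          one_div_mul_cancel p0.ne']
        linarith)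
    have := clash (hb r) (by positivity) h1 σ hR hK
    linarith
  have b2 : α * (2 ^ (r + 2) : ℕ) ≤ a + 3 := by
    by_contra h3
    obtain ⟨N, m, h4⟩ := L_complete hα (c := (((a + 3 : ℕ) : ℚ) / ((2 ^ (r + 2) : ℕ) : ℚ) : ℚ))
      (by positivity) (by
        rw [Rat.cast_div, Rat.cast_natCast, Rat.cast_natCast, div_lt_iff₀ p0, Nat.cast_add a 3]
        norm_num at h3 ⊢
        linarith) (bb C r)
    obtain ⟨R, S, I, _, _, _, K, σ, hR, hK, h5⟩ := U_sound (by positivity) h2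
    have := clash (hb r) (by positivity) ((LC_iff _ _ _ _).2 h4) σ hR hK
    linarith
  have c1 : (4 : ℝ) * ((a + 3) / 4 : ℕ) ≤ a + 3 := by exact_mod_cast (by omega)
  have c2 : (a : ℝ) ≤ 4 * ((a + 3) / 4 : ℕ) := by exact_mod_cast (by omega)
  have p1 : (0 : ℝ) < 2 ^ r := by positivity
  have e : ((2 ^ (r + 2) : ℕ) : ℝ) = 4 * 2 ^ r := by push_cast; ring
  rw [e] at b1 b2
  rw [div_sub' p1.ne', abs_div, abs_of_pos p1, div_le_div_iff_of_pos_right p1, abs_le]
  constructor <;> linarith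

end Crest.Agent.S0218
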