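import Crest.Statements.S0241
import Crest.Agent.H5.KS.Law
import Crest.Agent.H5.Split

set_option autoImplicit false
universe u
open Crest Crest.ProbabilityR

namespace Crest.Agent.S0241

/-- Let `d ≥ 3`, `β ≥ 0`, `tanh β ≤ (d-1)^(-1/2)`. On every connected acyclic graph with all degrees `d` (the infinite `d`-regular tree) some measurable map from `[0,1]^V` to spin configurations commutes with every automorphism on every input and, fed independent uniform labels, outputs the free zero-field Ising state: each spin pattern on a finite connected vertex set `S` has probability `1/2` times the product over edges inside `S` of `(1 ± tanh β)/2`, with `+` for agreeing endpoints. -/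
theorem result (d : ℕ) (hd : 3 ≤ d) (β : ℝ)
    (hβ : 0 ≤ β) (hθ : Real.tanh β ≤ ((d : ℝ) - 1) ^ (-(1 / 2 : ℝ))) (V : Type u)
    (G : SimpleGraph V) [G.LocallyFinite] (hT : G.IsTree) (hreg : G.IsRegularOfDegree d) :
    ∃ Φ : (V → unitInterval) → (V → Bool),
      Measurable Φ ∧
      (∀ (g : G ≃g G) (x : V → unitInterval), Φ (x ∘ ⇑g) = Φ x ∘ ⇑g) ∧
      ∀ (S : Finset V) (η : V → Bool), (G.induce (S : Set V)).Connected →
        (Crest.ProbabilityR.Labels.labelMeasure V).map Φ {σ | ∀ v ∈ S, σ v = η v} =
          ENNReal.ofReal (Crest.ProbabilityR.TreeIsing.isingWeight G (Real.tanh β) S η) := by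
  have hD := H5.KS.two_le_D hd
  have h0 : 0 ≤ Real.tanh β := by simpa using H5.KS.monotone_tanh hβ
  have h1 : ((d : ℝ) - 1) * Real.tanh β ^ 2 ≤ 1 := by
    have a1 := pow_le_pow_left₀ h0 hθ 2
    rw [← Real.rpow_natCast _ 2, ← Real.rpow_natCast _ 2, ← Real.rpow_mul (by linarith),
      show -(1 / 2 : ℝ) * (2 : ℕ) = -1 by norm_num, Real.rpow_neg_one, Real.rpow_natCast] at a1
    exact (mul_le_mul_of_nonneg_left a1 (by linarith)).trans_eq (mul_inv_cancel₀ (by linarith))
  obtain ⟨Φ, m, eq, law⟩ := H5.KS.exists_fac ⟨hT, hreg, hd⟩ h0 h1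
  have mr := H5.KS.measurable_reindex
    (fun p : V × ℤ × Fin 3 => ((p.1, Encodable.encode p.2) : V × ℕ))
  have mΦ := m.comp (mr.comp H5.measurable_YY)
  refine ⟨_, mΦ, fun g x => funext fun v =>
    eq g (fun p => H5.YY x (p.1, Encodable.encode p.2)) v, fun S η hS => ?_⟩
  have ms : MeasurableSet {σ : V → Bool | ∀ v ∈ S, σ v = η v} := by
    have : {σ : V → Bool | ∀ v ∈ S, σ v = η v} = ⋂ v ∈ S, (fun σ => σ v) ⁻¹' {η v} := by
      ext σ; simp
    rw [this]
    exact S.measurableSet_biInter fun v _ => measurable_pi_apply v (measurableSet_singleton _)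
  have hm := MeasureTheory.Measure.map_infinitePi_infinitePi_of_inj
    (P := fun _ : V × ℕ => (MeasureTheory.volume : MeasureTheory.Measure unitInterval))
    (f := fun p : V × ℤ × Fin 3 => ((p.1, Encodable.encode p.2) : V × ℕ)) (fun p q h => by
      simp only [Prod.mk.injEq] at h
      exact Prod.ext h.1 (Encodable.encode_injective h.2))
  have mI : Measurable fun σ => H5.KS.Ind S (H5.KS.sb η) (H5.KS.sb σ) := by
    simp only [H5.KS.Ind_sb]
    exact measurable_one.indicator ms
  rw [← law S η hS, ← MeasureTheory.Measure.map_map m (mr.comp H5.measurable_YY),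
    ← MeasureTheory.Measure.map_map mr H5.measurable_YY, H5.map_YY, hm,
    ← MeasureTheory.integral_map m.aemeasurable mI.aestronglyMeasurable]
  simp only [H5.KS.Ind_sb]
  rw [MeasureTheory.integral_indicator_one ms, MeasureTheory.ofReal_measureReal]
  rfl

end Crest.Agent.S0241
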