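import Crest.Statements.S0254
import Crest.Agent.H5.Fusf

set_option autoImplicit false
open Crest Crest.ProbabilityR

namespace Crest.Agent.S0254

/-- One rule from (graph on `ℕ`, labels in `[0,1]^ℕ`) to edge sets, jointly measurable in (adjacency table, labels) and commuting on every input with every permutation of `ℕ` acting on graph, labels and pairs, gives i.i.d. uniform labels the free uniform spanning forest's law on every connected locally finite graph: along every exhaustion by finite connected induced pieces, for finite edge sets `F` the chance that the piece's uniform spanning tree contains `F` tends to that for the output. -/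
theorem result :
    ∃ Φ : SimpleGraph ℕ → (ℕ → unitInterval) → (Sym2 ℕ → Bool),
      Measurable (fun p : (ℕ → ℕ → Bool) × (ℕ → unitInterval) =>
          Φ (Crest.ProbabilityR.GraphTables.graphOfTable p.1) p.2) ∧
      (∀ (σ : Equiv.Perm ℕ) (G : SimpleGraph ℕ) (x : ℕ → unitInterval),
          Φ (G.comap ⇑σ) (x ∘ ⇑σ) = Φ G x ∘ Sym2.map ⇑σ) ∧
      ∀ G : SimpleGraph ℕ, G.Connected → (∀ v : ℕ, (G.neighborSet v).Finite) →
        ∀ S : ℕ → Finset ℕ, Monotone S → (∀ v : ℕ, ∃ n, v ∈ S n) →
          (∀ n, (G.induce (S n : Set ℕ)).Connected) →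
          ∀ F : Finset (Sym2 ℕ), (↑F : Set (Sym2 ℕ)) ⊆ G.edgeSet →
            Filter.Tendsto (fun n => Crest.ProbabilityR.SpanningTrees.ustContains G (S n) F) Filter.atTop
              (nhds (((Crest.ProbabilityR.Labels.labelMeasure ℕ).map (Φ G) {ω | ∀ e ∈ F, ω e = true}).toReal)) := by
  classical
  refine ⟨fun G x => H5.FG G (H5.YY x), ?_, fun σ G x => ?_, ?_⟩
  · refine H5.measurable_FG (G := fun p : (ℕ → ℕ → Bool) × (ℕ → unitInterval) =>
      GraphTables.graphOfTable p.1) (fun u v => ?_) (H5.measurable_YY.comp measurable_snd)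
    have h : ∀ u v : ℕ, Measurable fun p : (ℕ → ℕ → Bool) × (ℕ → unitInterval) =>
        p.1 u v = true := fun u v =>
      measurableSet_setOfPred.1 (measurableSet_eq_fun (by fun_prop) measurable_const)
    simp only [GraphTables.graphOfTable, SimpleGraph.fromRel_adj]
    exact measurable_const.and ((h u v).or (h v u))
  · exact H5.FG_comap σ G (H5.YY x)
  · intro G hG hfin S hmono hexh hconn F hF
    have hprob : ∀ n, MeasureTheory.IsProbabilityMeasure (H5.ustE G (S n)) := fun n =>
      H5.isProb_ustE (hconn n)
    obtain ⟨ν, hν1, hν2⟩ := H5.exists_limit_measure (fun n => H5.ustE G (S n)) _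
      (H5.tendsto_cyl_ustE S hmono hexh hconn)
    have hlaw := H5.law_FG hG hfin ν hν2
    have hm : Measurable fun x : ℕ → unitInterval => H5.FG G (H5.YY x) :=
      H5.measurable_FG (G := fun _ => G) (fun _ _ => measurable_const) H5.measurable_YY
    have hm2 : Measurable ((fun y => H5.FG G y ∘
        Function.Embedding.subtype (· ∈ G.edgeSet)) ∘ H5.YY) := (H5.measurable_res _).comp hm
    have h1 := hν2 (F.subtype (· ∈ G.edgeSet))
    rw [Finset.subtype_map_of_mem fun x hx => hF hx, H5.integral_cyl, ← hlaw,
      MeasureTheory.Measure.map_apply hm2 (H5.measurableSet_cylset _)] at h1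
    rw [MeasureTheory.Measure.map_apply hm (H5.measurableSet_cylset F)]
    convert H5.tendsto_ust S hmono hexh hconn F hF using 2
    rw [← h1]
    congr 2
    ext x
    simp only [Set.mem_preimage, Set.mem_ofPred_eq, Finset.mem_subtype, Function.comp]
    exact ⟨fun h e he => h e he, fun h e he => h ⟨e, hF he⟩ he⟩

end Crest.Agent.S0254
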