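import Crest.Statements.S0255
import Crest.Agent.H5.Split

set_option autoImplicit false
open Crest Crest.ProbabilityR

namespace Crest.Agent.S0255

/-- For a countable group `Γ` and a strongly Rayleigh probability law `ν` on binary configurations `Γ → Bool` that is invariant under every left shift `a ↦ (h ↦ a (g⁻¹ h))`, there is a measurable map from independent uniform labels indexed by `Γ` to configurations that commutes with every left shift and pushes the label law forward to `ν`. -/
theorem result (Γ : Type*) [Group Γ]
    [Countable Γ] (ν : MeasureTheory.Measure (Γ → Bool)) [MeasureTheory.IsProbabilityMeasure ν]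
    (hsr : Crest.ProbabilityR.StronglyRayleigh.IsStronglyRayleigh ν)
    (hinv : Crest.ProbabilityR.StronglyRayleigh.IsShiftInvariant ν) :
    ∃ Φ : (Γ → unitInterval) → (Γ → Bool), Measurable Φ ∧
      (∀ (g : Γ) (u : Γ → unitInterval),
        Φ (Crest.ProbabilityR.StronglyRayleigh.leftShift g u) =
          Crest.ProbabilityR.StronglyRayleigh.leftShift g (Φ u)) ∧
      (Crest.ProbabilityR.Labels.labelMeasure Γ).map Φ = ν := by
  classical
  obtain ⟨en, hen⟩ := exists_surjective_nat Γ
  let W : ℕ → Γ → Finset Γ := fun n v =>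
    ((Finset.range n).image en).map ⟨fun h => v * h, mul_right_injective v⟩
  let Q : Γ → (Γ → ℝ) → ℝ := fun v lam =>
    Filter.limsup (fun n => H5.qW ν (W n v) v lam) Filter.atTop
  have hS : H5.Scheme ν Q W :=
    { good := H5.GoodQ.limsup (Q := fun n v lam => H5.qW ν (W n v) v lam)
        fun n => H5.goodQ_qW (fun _ => ν) (fun _ => hsr) (W n)
      meas := fun v => Measurable.limsup fun n => H5.measurable_qW ν _ v
      mono := fun v n m hnm => Finset.map_subset_map.2
        (Finset.image_subset_image (Finset.range_mono hnm))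
      exh := fun v w => by
        obtain ⟨n, hn⟩ := hen (v⁻¹ * w)
        refine ⟨n + 1, Finset.mem_map.2 ⟨v⁻¹ * w, Finset.mem_image.2 ⟨n, by simp, hn⟩, by simp⟩⟩
      lim := fun _ _ _ => rfl }
  let F : (Γ × ℕ → unitInterval) → (Γ → Bool) := fun y =>
    H5.core Q (fun a b => y (a, 0) < y (b, 0)) (fun i => (y (i.2, i.1 + 1) : ℝ))
  have hF : Measurable F :=
    H5.measurable_core (Q := fun _ => Q) (R := fun y a b => y (a, 0) < y (b, 0))
      (U := fun (y : Γ × ℕ → unitInterval) i => (y (i.2, i.1 + 1) : ℝ))
      (fun v => (hS.meas v).comp measurable_snd)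
      (fun a b => measurableSet_lt (measurable_pi_apply _) (measurable_pi_apply _))
      (measurable_pi_lambda _ fun i => measurable_subtype_coe.comp (measurable_pi_apply _))
  refine ⟨F ∘ H5.YY, hF.comp H5.measurable_YY, fun g u => ?_, ?_⟩
  · let j : Γ ↪ Γ := ⟨fun h => g⁻¹ * h, mul_right_injective _⟩
    have hm : Measurable (fun x : Γ → Bool => x ∘ j) :=
      measurable_pi_lambda _ fun k => measurable_pi_apply (j k)
    have hν : ν.map (fun x => x ∘ j) = ν := by
      ext A hA
      rw [MeasureTheory.Measure.map_apply hm hA]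
      exact hinv g A hA
    refine H5.core_comp j (Q := Q) (Q' := Q)
      (R := fun a b => H5.YY u (a, 0) < H5.YY u (b, 0))
      (R' := fun a b => H5.YY (StronglyRayleigh.leftShift g u) (a, 0) <
        H5.YY (StronglyRayleigh.leftShift g u) (b, 0))
      (fun v lam => ?_) (fun a b => Iff.rfl) (fun i => (H5.YY u (i.2, i.1 + 1) : ℝ))
      (fun i => (H5.YY (StronglyRayleigh.leftShift g u) (i.2, i.1 + 1) : ℝ))
      (fun k v => rfl)
    simp only [Q]
    congr 1
    funext n
    have h1 := H5.qW_map j ν (W n v) v lam
    rw [hν] at h1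
    rw [h1]
    congr 1
    simp only [W, Finset.map_map]
    congr 1
    ext h
    simp [j, mul_assoc]
  · refine H5.map_freeze F hF ν fun a ha => ?_
    have h1 := H5.map_core hS (fun v => a (v, 0)) ha
    have hinj : Function.Injective fun i : ℕ × Γ => ((i.2, i.1 + 1) : Γ × ℕ) := by
      rintro ⟨k, v⟩ ⟨k', v'⟩ h
      simp only [Prod.mk.injEq, add_left_inj] at h
      exact Prod.ext h.2 h.1
    have h2 := MeasureTheory.Measure.map_infinitePi_infinitePi_of_inj
      (P := fun _ : Γ × ℕ => (MeasureTheory.volume : MeasureTheory.Measure unitInterval)) hinj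
    have hc : Measurable fun u : ℕ × Γ → unitInterval =>
        H5.core Q (fun b c => a (b, 0) < a (c, 0)) (fun i => (u i : ℝ)) :=
      H5.measurable_core (Q := fun _ => Q) (R := fun _ b c => a (b, 0) < a (c, 0))
        (fun v => (hS.meas v).comp measurable_snd) (fun _ _ => MeasurableSet.const _)
        (measurable_pi_lambda _ fun i => measurable_subtype_coe.comp (measurable_pi_apply i))
    have hm3 : Measurable fun (ω : Γ × ℕ → unitInterval) (i : ℕ × Γ) => ω (i.2, i.1 + 1) :=
      measurable_pi_lambda _ fun i => measurable_pi_apply _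
    rw [← h1, ← h2, MeasureTheory.Measure.map_map hc hm3]
    congr 1

end Crest.Agent.S0255
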