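import Crest.Statements.S0303
import Crest.Agent.H6.SC9

set_option autoImplicit false
open Crest Crest.AlgebraR

namespace Crest.Agent.S0303

open Crest.Agent.H6.SC

theorem main {k I V Λ : Type} [Field k] [CharP k 2] [Fintype I] [Fintype V]
    (Z : Submodule k (I × Bool → k)) (hZ : 3 * (Fintype.card I * 2) < 4 * Module.finrank k Z)
    (lay : V → I) (link : Λ → Finset (I × Bool)) (ty : V → Λ) (Γ₀ : LG I V)
    (hsum : ∀ z ∈ Z, ∀ l, ∑ d ∈ link l, z d = 0)
    (hlay : ∀ v d u, Γ₀.E v d u → lay v = lay u)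
    (hlink : ∀ v d, (∃ u, Γ₀.E v d u) ↔ d ∈ link (ty v))
    (hcov : ∀ d, ∃ l, d ∈ link l)
    (htwo : ∀ y l, ∃ v v', v ≠ v' ∧ lay v = y ∧ lay v' = y ∧ ty v = l ∧ ty v' = l)
    (hG : Γ₀.Girth 6100) (hP : Γ₀.Pieces 304) :
    ∃ (G : Type) (_ : Group G),
      (∀ g : G, IsOfFinOrder g → g = 1) ∧ Crest.GroupTheory.IsHyperbolicGroup G ∧
        ¬ Group.ResiduallyFinite G := by
  classical
  have hsp : ∀ i : I, ∃ u u₂ : V, u ≠ u₂ ∧ lay u = i ∧ (∃ w, Γ₀.E u (i, true) w) ∧
      ∃ w, Γ₀.E u₂ (i, true) w := by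
    intro i
    obtain ⟨l, hl⟩ := hcov (i, true)
    obtain ⟨v, v', h1, h2, -, h4, h5⟩ := htwo i l
    exact ⟨v, v', h1, h2, (hlink _ _).2 (h4 ▸ hl), (hlink _ _).2 (h5 ▸ hl)⟩
  choose u u₂ hu12 hul hu hu₂ using hsp
  let fg : I ⊕ I → I := Sum.elim id id
  let Γ : LG (I ⊕ I) V :=
    { E := fun v d w => Γ₀.E v (fg d.1, d.2) w ∧
        (d.1.isRight = true ↔ (if d.2 then v else w) = u (fg d.1))
      symm := by
        rintro v ⟨j, b⟩ w ⟨h1, h2⟩
        exact ⟨Γ₀.symm h1, by cases b <;> simpa using h2⟩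
      det := fun h h' => Γ₀.det h.1 h'.1 }
  have h1 : ∀ v d w, Γ.E v d w → Γ₀.E v (fg d.1, d.2) w := fun v d w h => h.1
  have h2 : ∀ v d d' w, Γ.E v d w → Γ.E v d' w → (fg d.1, d.2) = (fg d'.1, d'.2) → d = d' := by
    rintro v ⟨j, b⟩ ⟨j', b'⟩ w ⟨-, k⟩ ⟨-, k'⟩ e
    simp only [Prod.mk.injEq] at e
    obtain ⟨e1, rfl⟩ := e
    simp only [e1] at k k'
    have := k.trans k'.symm
    rcases j with j | j <;> rcases j' with j' | j' <;> simp_all [fg]
  have hS : SCH Γ 6100 304 := by
    refine ⟨girth_forget h1 h2 hG, pieces_forget h1 h2 hP, by norm_num, ?_⟩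
    have ht : ∀ j, ∃ v w, Γ.E v (j, true) w := by
      rintro (j | j)
      · obtain ⟨w, hw⟩ := hu₂ j
        exact ⟨u₂ j, w, hw, by simpa [fg] using (hu12 j).symm⟩
      · obtain ⟨w, hw⟩ := hu j
        exact ⟨u j, w, hw, by simp [fg]⟩
    rintro ⟨j, b⟩
    obtain ⟨v, w, h⟩ := ht j
    cases b
    · exact ⟨w, v, Γ.symm h⟩
    · exact ⟨v, w, h⟩
  refine ⟨Grp Γ, inferInstance, hS.torsionFree, hS.hyperbolic, fun hRF => ?_⟩
  have hne : ∀ i : I, gen Γ (Sum.inr i) * (gen Γ (Sum.inl i))⁻¹ ≠ 1 := by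
    intro i
    have := hS.ne_one [(Sum.inr i, true), (Sum.inl i, false)] (by simp) (by simp) (by simp)
    rwa [ev_cons, ev_true, ev_false] at this
  choose N hN using fun i => Group.exists_finiteIndexNormalSubgroup_notMem _ (hne i)
  let M : Subgroup (Grp Γ) := ⨅ i, (N i).toSubgroup
  have hMn : M.Normal := Subgroup.normal_iInf_normal fun i => inferInstance
  have hMf : M.FiniteIndex := Subgroup.finiteIndex_iInf fun i => inferInstance
  let _ : Fintype (Grp Γ ⧸ M) := Fintype.ofFinite _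
  let ρ : Grp Γ →* Grp Γ ⧸ M := QuotientGroup.mk' M
  refine dim_count (Q := Grp Γ ⧸ M) (fun i => ρ (gen Γ (Sum.inl i)))
    (fun i => ρ (gen Γ (Sum.inr i) * (gen Γ (Sum.inl i))⁻¹)) (fun i h => ?_) Z hZ ?_
  · rw [QuotientGroup.mk'_apply, QuotientGroup.eq_one_iff] at h
    exact hN i (Subgroup.mem_iInf.1 h i)
  intro f hf i q
  obtain ⟨π₀, hπ₀⟩ := exists_potential (Γ := Γ)
  let π : V → Grp Γ ⧸ M := fun v => q * (ρ (π₀ (u i)))⁻¹ * ρ (π₀ v)
  have hπ : ∀ v j w, Γ.E v (j, true) w → π w = π v * ρ (gen Γ j) := by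
    intro v j w h
    simp only [π, hπ₀ v _ w h, ev_true, map_mul, mul_assoc]
  have hπu : π (u i) = q := by simp [π]
  let F : V × (I × Bool) → k := fun z =>
    if z.2.2 then f z.2.1 (π z.1) else f z.2.1 (π z.1 * (ρ (gen Γ (Sum.inl z.2.1)))⁻¹)
  let s : Finset (V × (I × Bool)) := Finset.univ.filter fun z => lay z.1 = i ∧ z.2 ∈ link (ty z.1)
  have hs0 : ∑ z ∈ s, F z = 0 := by
    rw [Finset.sum_finset_product s (Finset.univ.filter fun v => lay v = i) (fun v => link (ty v))
      (by simp [s])]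
    exact Finset.sum_eq_zero fun v _ => hsum _ (hf (π v)) _
  let c : k := f i q + f i (q * ρ (gen Γ (Sum.inr i) * (gen Γ (Sum.inl i))⁻¹))
  let nx : V × (I × Bool) → V := fun z => if h : ∃ w, Γ₀.E z.1 z.2 w then h.choose else z.1
  have hnx : ∀ z ∈ s, Γ₀.E z.1 z.2 (nx z) := by
    intro z hz
    have h : ∃ w, Γ₀.E z.1 z.2 w := (hlink _ _).2 (Finset.mem_filter.1 hz).2.2
    simp only [nx, dif_pos h]
    exact h.choose_spec
  have h22 : ∀ x : k, x + x = 0 := fun x => CharTwo.add_self_eq_zero x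
  have pair : ∀ v j w, lay v = i → Γ₀.E v (j, true) w →
      (F (v, (j, true)) + if (v, (j, true)) = (u i, (i, true)) then c else 0) +
        F (w, (j, false)) = 0 := by
    intro v j w hv h
    by_cases hvu : v = u j
    · have hij : j = i := by rw [← hul j, ← hvu, hv]
      subst hij
      have := hπ v (Sum.inr j) w ⟨h, by simp [fg, hvu]⟩
      simp only [F, c, hvu, if_true, this, hπu, map_mul, map_inv, mul_assoc]
      simp only [Bool.false_eq_true, if_false]
      linear_combination h22 (f j q) + h22 (f j (q * (ρ (gen Γ (Sum.inr j)) * (ρ (gen Γ (Sum.inl j)))⁻¹)))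
    · have := hπ v (Sum.inl j) w ⟨h, by simp [fg, hvu]⟩
      have hne : (v, (j, true)) ≠ (u i, (i, true)) := by
        intro e
        simp only [Prod.mk.injEq, and_true] at e
        exact hvu (e.2 ▸ e.1)
      simp only [F, if_neg hne, this, if_true, mul_inv_cancel_right, add_zero]
      simp only [Bool.false_eq_true, if_false]
      exact h22 _
  have hs1 : ∑ z ∈ s, (F z + if z = (u i, (i, true)) then c else 0) = 0 := by
    refine Finset.sum_involution (fun z _ => (nx z, (z.2.1, !z.2.2))) ?_ ?_ ?_ ?_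
    · rintro ⟨v, j, b⟩ hz
      have h := hnx _ hz
      have hv := (Finset.mem_filter.1 hz).2.1
      cases b
      · have := pair _ j v ((hlay _ _ _ h).symm.trans hv) (Γ₀.symm h)
        simp only [Bool.not_false, Prod.mk.injEq, Bool.false_eq_true, and_false, if_false,
          add_zero] at this ⊢
        rw [add_comm]; exact this
      · have := pair v j _ hv h
        simpa using this
    · rintro ⟨v, j, b⟩ _ _ e
      simp at e
    · intro z hz
      have h := hnx _ hz
      simp only [s, Finset.mem_filter, Finset.mem_univ, true_and]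
      exact ⟨(hlay _ _ _ h).symm.trans (Finset.mem_filter.1 hz).2.1, (hlink _ _).1 ⟨_, Γ₀.symm h⟩⟩
    · rintro ⟨v, j, b⟩ hz
      have h := hnx _ hz
      have hz' : (nx (v, j, b), (j, !b)) ∈ s := by
        simp only [s, Finset.mem_filter, Finset.mem_univ, true_and]
        exact ⟨(hlay _ _ _ h).symm.trans (Finset.mem_filter.1 hz).2.1,
          (hlink _ _).1 ⟨_, Γ₀.symm h⟩⟩
      have := Γ₀.det (hnx _ hz') (Γ₀.symm h)
      simp only at this
      simp [this]
  rw [Finset.sum_add_distrib, hs0, zero_add, Finset.sum_ite_eq' s, if_pos (by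
    simp only [s, Finset.mem_filter, Finset.mem_univ, true_and]
    exact ⟨hul i, (hlink _ _).1 (hu i)⟩)] at hs1
  simp only [c] at hs1
  linear_combination hs1 - h22 (f i q)

/-- There is a group in which only the identity has finite order, which is word-hyperbolic (it has a finite generating set whose word metric satisfies the four-point condition for some constant), and which is not residually finite (some non-identity element lies in every normal subgroup of finite index). -/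
theorem result :
    ∃ (G : Type) (_ : Group G),
      (∀ g : G, IsOfFinOrder g → g = 1) ∧ Crest.GroupTheory.IsHyperbolicGroup G ∧
        ¬ Group.ResiduallyFinite G := by
  classical
  obtain ⟨k, _, _, _, Z, hZ1, hZ2⟩ := exists_geom 2 300 4
  obtain ⟨n, -, hn⟩ := FiniteField.card k 2
  obtain ⟨m, hm⟩ : ∃ m, Fintype.card k ^ (300 + 1) = m * 2 := by
    refine ⟨Fintype.card k ^ 300 * 2 ^ ((n : ℕ) - 1), ?_⟩
    have := n.pos
    rw [mul_assoc, ← pow_succ 2, Nat.sub_add_cancel this, ← hn, pow_succ _ 300]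
  have hm0 : 0 < m := by
    have : 0 < Fintype.card k ^ (300 + 1) := pow_pos Fintype.card_pos _
    omega
  let _ : Inhabited (Fin m) := ⟨⟨0, hm0⟩⟩
  have e : k × (Fin 300 → k) ≃ Fin m × Bool := Fintype.equivOfCardEq (by
    simp only [Fintype.card_prod, Fintype.card_bool, Fintype.card_fun, Fintype.card_fin]
    rw [← hm, pow_succ' _ 300])
  obtain ⟨V, _, lay, ty, Γ, g1, g2, g3, g4, g5⟩ := exists_line_graph (Y := Fin m) 300 6100
    (by norm_num) (by norm_num) e le_rfl
  let Φ : (k × (Fin 300 → k) → k) ≃ₗ[k] (Fin m × Bool → k) := LinearEquiv.funCongrLeft k k e.symm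
  refine main (Z.map Φ.toLinearMap) ?_ lay
    (fun l => Finset.univ.image fun t : k => e (t, l.2 + t • l.1)) ty Γ ?_ g1 ?_ ?_ g3 g4 g5
  · rw [LinearEquiv.finrank_map_eq, Fintype.card_fin]
    rw [hm] at hZ2
    omega
  · rintro _ ⟨z, hz, rfl⟩ l
    rw [Finset.sum_image (fun t _ t' _ h => by simpa using congrArg Prod.fst (e.injective h)),
      ← hZ1 z hz l.1 l.2]
    simp [Φ]
  · intro v d
    rw [g2]
    simp [eq_comm]
  · intro d
    exact ⟨(0, (e.symm d).2), Finset.mem_image.2 ⟨(e.symm d).1, Finset.mem_univ _, by simp⟩⟩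

end Crest.Agent.S0303
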