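import Crest.Statements.S0324
import Crest.Agent.H7Cyl.MinProj

set_option autoImplicit false
open MeasureTheory
open scoped ENNReal
open Crest Crest.GeometryTopology Crest.GeometryTopology.Convex

namespace Crest.Agent.S0324

/-- The regular tetrahedron `K` with vertices `(±1, 0, 0)`, `(0, ±1, √2)` is covered by finitely many cylinders `Bᵢ + ℝ uᵢ`, each with unit direction `uᵢ` and base `Bᵢ` a triangle (convex hull of three points) in the plane `uᵢ^⊥`, whose total base area `∑ᵢ area(Bᵢ)` is smaller, by a positive margin, than half the area of the orthogonal projection of `K` onto `v^⊥` for every unit vector `v`; areas are 2-dimensional Hausdorff measure. -/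
theorem result :
    ∃ (m : ℕ) (u p q r : Fin m → EuclideanSpace ℝ (Fin 3)),
      (∀ i, ‖u i‖ = 1) ∧
      (∀ i, inner ℝ (p i) (u i) = 0 ∧ inner ℝ (q i) (u i) = 0 ∧ inner ℝ (r i) (u i) = 0) ∧
      convexHull ℝ {!₂[1, 0, 0], !₂[-1, 0, 0], !₂[0, 1, Real.sqrt 2], !₂[0, -1, Real.sqrt 2]} ⊆
        ⋃ i, {x : EuclideanSpace ℝ (Fin 3) | ∃ b ∈ convexHull ℝ {p i, q i, r i}, ∃ t : ℝ, x = b + t • u i} ∧
      ∃ δ : ℝ, 0 < δ ∧ ∀ v : EuclideanSpace ℝ (Fin 3), ‖v‖ = 1 →
        ∑ i, (μH[(2 : ℝ)] (convexHull ℝ {p i, q i, r i})).toReal + δ ≤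
          (μH[(2 : ℝ)] ((fun y => y - inner ℝ y v • v) '' convexHull ℝ {!₂[1, 0, 0], !₂[-1, 0, 0], !₂[0, 1, Real.sqrt 2], !₂[0, -1, Real.sqrt 2]})).toReal / 2 := by
  obtain ⟨A, hcov, hA⟩ := H7Cyl.tet_cover
  generalize 1000000 + 1000000 = m at hcov
  obtain ⟨u, p, q, r, h1, h2, h3, h4⟩ := hcov
  set c : NNReal := Measure.addHaarScalarFactor (volume : Measure (EuclideanSpace ℝ (Fin 2)))
    μH[((2 : ℕ) : ℝ)] with hc
  have hc0 : (0 : ℝ) < c := by
    have := Measure.addHaarScalarFactor_volume_hausdorffMeasure_ne_zero 2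
    exact NNReal.coe_pos.mpr (pos_iff_ne_zero.mpr this)
  have key : ∀ S : Set (EuclideanSpace ℝ (Fin 3)),
      (μH[(2 : ℝ)] S).toReal = (μHE[2] S).toReal / c := by
    intro S
    rw [Measure.euclideanHausdorffMeasure_def, Measure.smul_apply, ENNReal.smul_def, smul_eq_mul,
      ENNReal.toReal_mul, ENNReal.coe_toReal, ← hc]
    field_simp
    simp
  have hs := H7Cyl.sqrt2_pos
  refine ⟨m, u, p, q, r, h1, h2, h3, Real.sqrt 2 / 1000000 / c, by positivity, ?_⟩
  intro v hv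
  have h5 := H7Cyl.minProj_real v hv
  rw [H7Cyl.proj_fun_unit hv]
  simp only [key, H7Cyl.area_tri_toReal]
  rw [← Finset.sum_div, h4, ← add_div, div_right_comm]
  apply div_le_div_of_nonneg_right _ hc0.le
  unfold H7Cyl.tet at h5
  linarith

end Crest.Agent.S0324
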