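import Crest.Statements.S0327
import Crest.Agent.H7Cyl.Reg

set_option autoImplicit false
open MeasureTheory
open scoped ENNReal
open Crest Crest.GeometryTopology Crest.GeometryTopology.Convex

namespace Crest.Agent.S0327

/-- Let K ⊂ ℝ³ be a regular tetrahedron (convex hull of four points with equal pairwise distances ℓ > 0); areas are Lebesgue-normalised 2-dimensional Hausdorff measure, π_v y = y − ⟪y, v⟫ v. (1) Finitely many cylinders Bᵢ + ℝ uᵢ, ‖uᵢ‖ = 1, with parallelogram bases Bᵢ = cᵢ + [0,1]aᵢ + [0,1]bᵢ in uᵢ^⊥ cover K, ∑ᵢ area(Bᵢ) being below half of area(π_v K) by a positive margin for all unit v, and ∑ᵢ area(Bᵢ)/area(π_{uᵢ} K) < 1/2. (2) The same with bounded relatively open subsets of the uᵢ^⊥ as bases. -/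
theorem result
    (w : Fin 4 → EuclideanSpace ℝ (Fin 3)) (ℓ : ℝ) (hℓ : 0 < ℓ)
    (hw : ∀ i j, i ≠ j → dist (w i) (w j) = ℓ) :
    (∃ (k : ℕ) (u c a b : Fin k → EuclideanSpace ℝ (Fin 3)),
      (∀ i, ‖u i‖ = 1) ∧
      (∀ i, inner ℝ (c i) (u i) = 0 ∧ inner ℝ (a i) (u i) = 0 ∧ inner ℝ (b i) (u i) = 0) ∧
      convexHull ℝ (Set.range w) ⊆ ⋃ i, {x : EuclideanSpace ℝ (Fin 3) |
        ∃ s ∈ Set.Icc (0 : ℝ) 1, ∃ t ∈ Set.Icc (0 : ℝ) 1, ∃ τ : ℝ, x = c i + s • a i + t • b i + τ • u i} ∧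
      (∃ δ : ℝ, 0 < δ ∧ ∀ v : EuclideanSpace ℝ (Fin 3), ‖v‖ = 1 →
        (∑ i, (μHE[2] {x : EuclideanSpace ℝ (Fin 3) |
            ∃ s ∈ Set.Icc (0 : ℝ) 1, ∃ t ∈ Set.Icc (0 : ℝ) 1, x = c i + s • a i + t • b i}).toReal) + δ ≤
          (μHE[2] ((fun y => y - inner ℝ y v • v) '' convexHull ℝ (Set.range w))).toReal / 2) ∧
      ∑ i, (μHE[2] {x : EuclideanSpace ℝ (Fin 3) |
            ∃ s ∈ Set.Icc (0 : ℝ) 1, ∃ t ∈ Set.Icc (0 : ℝ) 1, x = c i + s • a i + t • b i}).toReal /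
          (μHE[2] ((fun y => y - inner ℝ y (u i) • u i) '' convexHull ℝ (Set.range w))).toReal < 1 / 2) ∧
    (∃ (k : ℕ) (u : Fin k → EuclideanSpace ℝ (Fin 3)) (B : Fin k → Set (EuclideanSpace ℝ (Fin 3))),
      (∀ i, ‖u i‖ = 1) ∧
      (∀ i, Bornology.IsBounded (B i) ∧ ∃ O : Set (EuclideanSpace ℝ (Fin 3)), IsOpen O ∧
        B i = O ∩ {x | inner ℝ x (u i) = 0}) ∧
      convexHull ℝ (Set.range w) ⊆
        ⋃ i, {x : EuclideanSpace ℝ (Fin 3) | ∃ y ∈ B i, ∃ τ : ℝ, x = y + τ • u i} ∧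
      (∃ δ : ℝ, 0 < δ ∧ ∀ v : EuclideanSpace ℝ (Fin 3), ‖v‖ = 1 →
        (∑ i, (μHE[2] (B i)).toReal) + δ ≤
          (μHE[2] ((fun y => y - inner ℝ y v • v) '' convexHull ℝ (Set.range w))).toReal / 2) ∧
      ∑ i, (μHE[2] (B i)).toReal /
          (μHE[2] ((fun y => y - inner ℝ y (u i) • u i) '' convexHull ℝ (Set.range w))).toReal < 1 / 2) := by
  obtain ⟨c, O, hK⟩ := H7Cyl.exists_similarity w ℓ hℓ hw
  obtain ⟨A, hcov, hA⟩ := H7Cyl.tet_cover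
  generalize 1000000 + 1000000 = m at hcov
  have hcov' := hcov.similarity c (ℓ / 2) O
  rw [← hK] at hcov'
  have hs := H7Cyl.sqrt2_pos
  have hmin : ∀ v : EuclideanSpace ℝ (Fin 3), ‖v‖ = 1 → (ℓ / 2) ^ 2 * Real.sqrt 2 ≤
      (μHE[2] ((fun y => y - inner ℝ y v • v) '' convexHull ℝ (Set.range w))).toReal := by
    intro v hv
    rw [H7Cyl.proj_fun_unit hv, hK]
    exact H7Cyl.minProj_sim c (ℓ / 2) (by positivity) O v hv
  set M := (ℓ / 2) ^ 2 * Real.sqrt 2 with hM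
  have hM0 : 0 < M := by positivity
  have hA' : (ℓ / 2) ^ 2 * A ≤ M * (1 / 2 - 1 / 1000000) := by
    rw [hM, mul_assoc]; exact mul_le_mul_of_nonneg_left hA (by positivity)
  constructor
  · obtain ⟨n, hn⟩ : ∃ n : ℕ, (n : ℝ) = 10000000 := ⟨10000000, by norm_num⟩
    have hn0 : 0 < n := by
      have : (0 : ℝ) < n := by rw [hn]; norm_num
      exact_mod_cast this
    obtain ⟨k, u, c, a, b, h1, h2, h3, h4⟩ := hcov'.par n hn0
    rw [hn] at h4
    have h5 : ∑ i, H7Cyl.gram (a i) (b i) ≤ M * (1 / 2 - 1 / 2000000) := by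
      rw [h4]; linarith
    refine ⟨k, u, c, a, b, h1, h2, h3, ⟨M / 2000000, by positivity, ?_⟩, ?_⟩
    · intro v hv
      have := hmin v hv
      simp only [H7Cyl.area_par, ENNReal.toReal_ofReal (H7Cyl.gram_nonneg _ _)]
      linarith
    · simp only [H7Cyl.area_par, ENNReal.toReal_ofReal (H7Cyl.gram_nonneg _ _)]
      exact H7Cyl.sum_div_lt _ _ M hM0 (fun i => H7Cyl.gram_nonneg _ _) (fun i => hmin _ (h1 i))
        (by linarith)
  · obtain ⟨u, B, h1, h2, h3, h4⟩ := hcov'.opens (M / 2000000) (by positivity)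
    refine ⟨m, u, B, h1, h2, h3, ⟨M / 2000000, by positivity, ?_⟩, ?_⟩
    · intro v hv
      have := hmin v hv
      linarith
    · exact H7Cyl.sum_div_lt _ _ M hM0 (fun i => ENNReal.toReal_nonneg) (fun i => hmin _ (h1 i))
        (by linarith)

end Crest.Agent.S0327
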