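import Crest.Statements.S0328
import Crest.Agent.H7Cyl.Sweep

set_option autoImplicit false
open MeasureTheory
open scoped ENNReal
open Crest Crest.GeometryTopology Crest.GeometryTopology.Convex

namespace Crest.Agent.S0328

/-- Unit e; a, b, p₀ ∈ e^⊥, a, b independent; α < β; L > 0; R ≥ 0, λ both continuous on [α, β]; w(t) ∈ e^⊥, w′ = λ(t)(a + tb). S = {p₀ + ρ(a + t b) + s(e + w t) : α ≤ t ≤ β, 0 ≤ ρ ≤ R t, ‖s‖ ≤ L}; A = κ ∫_α^β R²/(2√(1 + ‖w‖²)), κ = area spanned by a, b. For η > 0 a δ > 0 makes each partition t₀ < … < t_N of [α, β] of mesh ≤ δ, tags cᵢ, admit N cylinders (axes e + w(cᵢ), nondegenerate triangle bases) covering S, total area within η of A; same for S's pieces tᵢ ≤ t ≤ tᵢ₊₁ projected along these axes. -/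
theorem result
    (e a b p₀ : EuclideanSpace ℝ (Fin 3)) (he : ‖e‖ = 1)
    (ha : inner ℝ a e = 0) (hb : inner ℝ b e = 0) (hp₀ : inner ℝ p₀ e = 0)
    (hab : LinearIndependent ℝ ![a, b]) (L : ℝ) (hL : 0 < L) (α β : ℝ) (hαβ : α < β)
    (R : ℝ → ℝ) (hR : ContinuousOn R (Set.Icc α β)) (hR0 : ∀ t ∈ Set.Icc α β, 0 ≤ R t)
    (w : ℝ → EuclideanSpace ℝ (Fin 3)) (hw : ∀ t ∈ Set.Icc α β, inner ℝ (w t) e = 0)
    (lam : ℝ → ℝ) (hlam : ContinuousOn lam (Set.Icc α β))
    (hw' : ∀ t ∈ Set.Icc α β, HasDerivWithinAt w (lam t • (a + t • b)) (Set.Icc α β) t)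
    (η : ℝ) (hη : 0 < η) :
    ∃ δ : ℝ, 0 < δ ∧ ∀ (N : ℕ) (t : Fin (N + 1) → ℝ) (c : Fin N → ℝ),
      StrictMono t → t 0 = α → t (Fin.last N) = β →
      (∀ i : Fin N, t i.succ - t i.castSucc ≤ δ) →
      (∀ i : Fin N, t i.castSucc ≤ c i ∧ c i ≤ t i.succ) →
      (∃ (p q r : Fin N → EuclideanSpace ℝ (Fin 3)),
        (∀ i, inner ℝ (p i) (e + w (c i)) = 0 ∧ inner ℝ (q i) (e + w (c i)) = 0 ∧
          inner ℝ (r i) (e + w (c i)) = 0) ∧
        (∀ i, AffineIndependent ℝ ![p i, q i, r i]) ∧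
        {x : EuclideanSpace ℝ (Fin 3) | ∃ τ ∈ Set.Icc α β, ∃ ρ ∈ Set.Icc 0 (R τ), ∃ s : ℝ, abs s ≤ L ∧
            x = p₀ + ρ • (a + τ • b) + s • (e + w τ)} ⊆
          ⋃ i, {x : EuclideanSpace ℝ (Fin 3) | ∃ y ∈ convexHull ℝ {p i, q i, r i}, ∃ σ : ℝ,
            x = y + σ • (e + w (c i))} ∧
        abs ((∑ i, (μHE[2] (convexHull ℝ ({p i, q i, r i} : Set (EuclideanSpace ℝ (Fin 3))))).toReal) -
            Real.sqrt (‖a‖ ^ 2 * ‖b‖ ^ 2 - inner ℝ a b ^ 2) *
              ∫ τ in α..β, R τ ^ 2 / (2 * Real.sqrt (1 + ‖w τ‖ ^ 2))) ≤ η) ∧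
      abs ((∑ i : Fin N, (μHE[2] ((fun y => y - (inner ℝ y (e + w (c i)) / ‖e + w (c i)‖ ^ 2) • (e + w (c i))) ''
            {x : EuclideanSpace ℝ (Fin 3) | ∃ τ ∈ Set.Icc (t i.castSucc) (t i.succ), ∃ ρ ∈ Set.Icc 0 (R τ),
              ∃ s : ℝ, abs s ≤ L ∧ x = p₀ + ρ • (a + τ • b) + s • (e + w τ)})).toReal) -
          Real.sqrt (‖a‖ ^ 2 * ‖b‖ ^ 2 - inner ℝ a b ^ 2) *
            ∫ τ in α..β, R τ ^ 2 / (2 * Real.sqrt (1 + ‖w τ‖ ^ 2))) ≤ η := by
  have hcI : IsCompact (Set.Icc α β) := isCompact_Icc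
  have hwc : ContinuousOn w (Set.Icc α β) := fun t ht => (hw' t ht).continuousWithinAt
  obtain ⟨Λ, hΛ0, hΛ⟩ : ∃ Λ : ℝ, 0 ≤ Λ ∧ ∀ t ∈ Set.Icc α β, |lam t| ≤ Λ := by
    obtain ⟨C, hC⟩ := hcI.exists_bound_of_continuousOn hlam
    exact ⟨max C 0, le_max_right _ _, fun t ht => (hC t ht).trans (le_max_left _ _)⟩
  obtain ⟨M, hM0, hM⟩ : ∃ M : ℝ, 0 ≤ M ∧ ∀ t ∈ Set.Icc α β, R t ≤ M := by
    obtain ⟨C, hC⟩ := hcI.exists_bound_of_continuousOn hR
    exact ⟨max C 0, le_max_right _ _,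
      fun t ht => ((le_abs_self _).trans (hC t ht)).trans (le_max_left _ _)⟩
  set f : ℝ → ℝ := fun τ => R τ ^ 2 / (2 * Real.sqrt (1 + ‖w τ‖ ^ 2)) with hf
  have hfc : ContinuousOn f (Set.Icc α β) := by
    apply ContinuousOn.div (hR.pow 2)
    · exact continuousOn_const.mul ((continuousOn_const.add (hwc.norm.pow 2)).sqrt)
    · intro x _; positivity
  have hκ : Real.sqrt (‖a‖ ^ 2 * ‖b‖ ^ 2 - inner ℝ a b ^ 2) = H7Cyl.gram a b := rfl
  rw [hκ]
  set κ := H7Cyl.gram a b with hκ'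
  have hκ0 : 0 < κ := H7Cyl.gram_pos hab
  have hβα : 0 < β - α := by linarith
  set ω := min 1 (η / (κ * (β - α) * (6 * M + 19))) with hω
  have hω0 : 0 < ω := lt_min one_pos (by positivity)
  have hω1 : ω ≤ 1 := min_le_left _ _
  have hω2 : κ * (β - α) * (6 * M + 19) * ω ≤ η := by
    have : ω ≤ η / (κ * (β - α) * (6 * M + 19)) := min_le_right _ _
    rwa [le_div_iff₀ (by positivity), mul_comm] at this
  obtain ⟨δ1, hδ1, hR1⟩ := Metric.uniformContinuousOn_iff_le.mp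
    (hcI.uniformContinuousOn_of_continuous hR) ω hω0
  obtain ⟨δ2, hδ2, hf1⟩ := Metric.uniformContinuousOn_iff_le.mp
    (hcI.uniformContinuousOn_of_continuous hfc) ω hω0
  refine ⟨min (min δ1 δ2) (ω / (L * Λ + 1)), by positivity, ?_⟩
  intro N t c ht h0 hN hmesh hc
  have hmem : ∀ j, t j ∈ Set.Icc α β := fun j =>
    ⟨h0 ▸ ht.monotone (Fin.zero_le j), hN ▸ ht.monotone (Fin.le_last j)⟩
  have hsub : ∀ i : Fin N, Set.Icc (t i.castSucc) (t i.succ) ⊆ Set.Icc α β := fun i =>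
    Set.Icc_subset_Icc (hmem _).1 (hmem _).2
  have hlt : ∀ i : Fin N, t i.castSucc < t i.succ := fun i => ht Fin.castSucc_lt_succ
  have hci : ∀ i : Fin N, c i ∈ Set.Icc (t i.castSucc) (t i.succ) := hc
  have hdist : ∀ i : Fin N, ∀ τ ∈ Set.Icc (t i.castSucc) (t i.succ),
      dist τ (c i) ≤ min δ1 δ2 := by
    intro i τ hτ
    have h1 := (hmesh i).trans (min_le_left _ _)
    rw [Real.dist_eq, abs_le]
    constructor <;> linarith [hτ.1, hτ.2, (hc i).1, (hc i).2]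
  have hloc := fun i : Fin N => H7Cyl.sweep_local (p₀ := p₀) (R := R) (w := w) he ha hb hab hL (hlt i)
    (hci i) hω0 hΛ0 (hw _ (hsub i (hci i))) (fun τ hτ => hR0 τ (hsub i hτ))
    (fun τ hτ => hR1 τ (hsub i hτ) _ (hsub i (hci i)) ((hdist i τ hτ).trans (min_le_left _ _)))
    (by
      have h1 := (hmesh i).trans (min_le_right _ _)
      rw [le_div_iff₀ (by positivity)] at h1
      have := hlt i
      nlinarith)
    (fun τ hτ => H7Cyl.incr_decomp hlam hw' hΛ (hsub i (hci i)) (hsub i hτ))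
  choose p q r h1 h2 h3 h4 h5 using hloc
  -- the general estimate
  have hest : ∀ x : Fin N → ℝ,
      (∀ i, (max (R (c i) - ω) 0) ^ 2 * (t i.succ - t i.castSucc) *
        (κ / (2 * Real.sqrt (1 + ‖w (c i)‖ ^ 2))) ≤ x i) →
      (∀ i, x i ≤ (R (c i) + 6 * ω) ^ 2 * (t i.succ - t i.castSucc) *
        (κ / (2 * Real.sqrt (1 + ‖w (c i)‖ ^ 2)))) →
      |∑ i, x i - κ * ∫ τ in α..β, f τ| ≤ η := by
    intro x hx1 hx2
    have hint : ∀ j, IntervalIntegrable f volume α (t j) := fun j =>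
      (hfc.mono (Set.uIcc_subset_Icc ⟨le_rfl, hαβ.le⟩ (hmem j))).intervalIntegrable
    have e1 : ∫ τ in α..β, f τ = ∑ i : Fin N, ∫ τ in (t i.castSucc)..(t i.succ), f τ := by
      have := H7Cyl.sum_tele (fun j => ∫ τ in α..(t j), f τ)
      rw [hN, h0, intervalIntegral.integral_same, sub_zero] at this
      rw [← this]
      exact Finset.sum_congr rfl fun i _ =>
        intervalIntegral.integral_interval_sub_left (hint _) (hint _)
    have e2 : ∑ i : Fin N, (t i.succ - t i.castSucc) = β - α := by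
      rw [H7Cyl.sum_tele t, hN, h0]
    rw [e1, Finset.mul_sum, ← Finset.sum_sub_distrib]
    refine (Finset.abs_sum_le_sum_abs _ _).trans ?_
    refine le_trans (Finset.sum_le_sum (g := fun i =>
      (t i.succ - t i.castSucc) * (κ * (6 * M + 19) * ω)) fun i _ => ?_) ?_
    · set Δ := t i.succ - t i.castSucc with hΔ
      have hΔ0 : 0 < Δ := sub_pos.mpr (hlt i)
      have e3 : |(∫ τ in (t i.castSucc)..(t i.succ), f τ) - Δ * f (c i)| ≤ ω * Δ := by
        have hi : IntervalIntegrable f volume (t i.castSucc) (t i.succ) :=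
          (hfc.mono (Set.uIcc_subset_Icc (hmem _) (hmem _))).intervalIntegrable
        have : (∫ τ in (t i.castSucc)..(t i.succ), f τ) - Δ * f (c i) =
            ∫ τ in (t i.castSucc)..(t i.succ), (f τ - f (c i)) := by
          rw [intervalIntegral.integral_sub hi (by simp)]; simp [hΔ]
        rw [this, ← Real.norm_eq_abs, ← abs_of_pos hΔ0]
        apply intervalIntegral.norm_integral_le_of_norm_le_const
        intro τ hτ
        rw [Set.uIoc_of_le (hlt i).le] at hτ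
        have hτ' := Set.Ioc_subset_Icc_self hτ
        exact hf1 τ (hsub i hτ') _ (hsub i (hci i)) ((hdist i τ hτ').trans (min_le_right _ _))
      set s := Real.sqrt (1 + ‖w (c i)‖ ^ 2) with hs
      have hs1 : 1 ≤ s := Real.one_le_sqrt.mpr (by nlinarith [sq_nonneg ‖w (c i)‖])
      have hRc0 := hR0 _ (hsub i (hci i))
      have hRcM := hM _ (hsub i (hci i))
      have hfci : f (c i) = R (c i) ^ 2 / (2 * s) := rfl
      set k := κ / (2 * s) with hk
      have hk0 : 0 < k := by positivity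
      have hk1 : k ≤ κ / 2 := by
        rw [hk]; apply div_le_div_of_nonneg_left hκ0.le (by norm_num) (by linarith)
      have e4 : κ * (Δ * f (c i)) = R (c i) ^ 2 * Δ * k := by rw [hfci, hk]; field_simp
      have e5 : |x i - κ * (Δ * f (c i))| ≤ Δ * (κ * (6 * M + 18) * ω) := by
        have b1 := hx1 i
        have b2 := hx2 i
        rw [← hΔ, ← hs, ← hk] at b1 b2
        have b3 : (R (c i) + 6 * ω) ^ 2 - R (c i) ^ 2 ≤ (12 * M + 36) * ω := by nlinarith
        have b4 : R (c i) ^ 2 - (max (R (c i) - ω) 0) ^ 2 ≤ (12 * M + 36) * ω := by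
          rcases le_total (R (c i) - ω) 0 with h | h
          · rw [max_eq_right h]; nlinarith
          · rw [max_eq_left h]; nlinarith
        have b5 : (12 * M + 36) * ω * (Δ * k) ≤ Δ * (κ * (6 * M + 18) * ω) := by
          have : (12 * M + 36) * ω * (Δ * k) ≤ (12 * M + 36) * ω * (Δ * (κ / 2)) := by gcongr
          linarith
        have b6 := mul_le_mul_of_nonneg_right b3 (mul_pos hΔ0 hk0).le
        have b7 := mul_le_mul_of_nonneg_right b4 (mul_pos hΔ0 hk0).le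
        rw [e4, abs_le]
        constructor <;> linarith
      have e6 : |κ * (Δ * f (c i)) - κ * ∫ τ in (t i.castSucc)..(t i.succ), f τ| ≤ κ * (ω * Δ) := by
        rw [← mul_sub, abs_mul, abs_of_pos hκ0, abs_sub_comm]
        gcongr
      calc _ ≤ _ := abs_sub_le _ (κ * (Δ * f (c i))) _
        _ ≤ Δ * (κ * (6 * M + 18) * ω) + κ * (ω * Δ) := add_le_add e5 e6
        _ = _ := by ring
    · rw [← Finset.sum_mul, e2]; linarith
  have hnn : ∀ i : Fin N, 0 ≤ (R (c i) + 6 * ω) ^ 2 * (t i.succ - t i.castSucc) *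
        (κ / (2 * Real.sqrt (1 + ‖w (c i)‖ ^ 2))) := by
    intro i; have := sub_pos.mpr (hlt i); positivity
  have hup : ∀ i : Fin N, (μHE[2] (H7Cyl.proj (e + w (c i)) ''
      H7Cyl.piece e a b p₀ L R w (t i.castSucc) (t i.succ))) ≤
      ENNReal.ofReal ((R (c i) + 6 * ω) ^ 2 * (t i.succ - t i.castSucc) *
        (κ / (2 * Real.sqrt (1 + ‖w (c i)‖ ^ 2)))) := by
    intro i; rw [← h4 i]; exact measure_mono (h3 i)
  constructor
  · refine ⟨p, q, r, h1, h2, ?_, ?_⟩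
    · rintro x ⟨τ, hτ, ρ, hρ, s, hs, rfl⟩
      obtain ⟨i, hi⟩ : ∃ i : Fin N, t i.castSucc ≤ τ ∧ τ ≤ t i.succ := by
        cases N with
        | zero => exact absurd (h0.symm.trans hN) hαβ.ne
        | succ N => exact H7Cyl.exists_interval N t (h0 ▸ hτ.1) (hN ▸ hτ.2)
      exact Set.mem_iUnion.mpr ⟨i, _, h3 i ⟨_, ⟨τ, hi, ρ, hρ, s, hs, rfl⟩, rfl⟩, _,
        H7Cyl.eq_proj_add _ _⟩
    · apply hest
      · intro i
        apply (ENNReal.ofReal_le_iff_le_toReal (by rw [h4 i]; simp)).mp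
        exact (h5 i).trans (measure_mono (h3 i))
      · intro i
        rw [h4 i, ENNReal.toReal_ofReal (hnn i)]
  · apply hest
    · intro i
      exact (ENNReal.ofReal_le_iff_le_toReal (ne_top_of_le_ne_top (by simp) (hup i))).mp (h5 i)
    · intro i
      exact ENNReal.toReal_le_of_le_ofReal (hnn i) (hup i)

end Crest.Agent.S0328
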