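import Crest.Statements.S0329
import Crest.Agent.H7Cyl.Piece
import Crest.Agent.H7Cyl.Plane

set_option autoImplicit false
open MeasureTheory
open scoped ENNReal
open Crest Crest.GeometryTopology Crest.GeometryTopology.Convex

namespace Crest.Agent.S0329

/-- Let h, M > 0, D ⊂ ℝ² be compact with Lebesgue-null boundary, and V : ℝ² → ℝ² be C¹ on an open set containing D with tr DV(p) = 0 and −1/M² < det DV(p) < 0 for p ∈ D. For every ε > 0 the set of points (x, p₁ + x V₁(p), h (p₂ + x V₂(p))) ∈ ℝ³ with p ∈ D, −M ≤ x ≤ M is covered by finitely many cylinders Bᵢ + ℝ uᵢ, ‖uᵢ‖ = 1, with bases Bᵢ bounded relatively open subsets of the planes uᵢ^⊥ and ∑ᵢ area(Bᵢ) ≤ h ∫_D (1 + V₁² + h² V₂²)^(−1/2) + ε (areas: normalised 2-dimensional Hausdorff measure). -/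
theorem result
    (h M : ℝ) (hh : 0 < h) (hM : 0 < M) (D : Set (EuclideanSpace ℝ (Fin 2))) (hD : IsCompact D)
    (hbd : volume (frontier D) = 0)
    (V : EuclideanSpace ℝ (Fin 2) → EuclideanSpace ℝ (Fin 2)) (U : Set (EuclideanSpace ℝ (Fin 2)))
    (hU : IsOpen U) (hDU : D ⊆ U) (hV : ContDiffOn ℝ 1 V U)
    (htr : ∀ p ∈ D, LinearMap.trace ℝ _ (fderiv ℝ V p).toLinearMap = 0)
    (hdet : ∀ p ∈ D, -(M ^ 2)⁻¹ < LinearMap.det (fderiv ℝ V p).toLinearMap ∧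
      LinearMap.det (fderiv ℝ V p).toLinearMap < 0)
    (ε : ℝ) (hε : 0 < ε) :
    ∃ (k : ℕ) (u : Fin k → EuclideanSpace ℝ (Fin 3)) (B : Fin k → Set (EuclideanSpace ℝ (Fin 3))),
      (∀ i, ‖u i‖ = 1) ∧
      (∀ i, Bornology.IsBounded (B i) ∧ ∃ O : Set (EuclideanSpace ℝ (Fin 3)), IsOpen O ∧
        B i = O ∩ {x | inner ℝ x (u i) = 0}) ∧
      {z : EuclideanSpace ℝ (Fin 3) | ∃ p ∈ D, ∃ x : ℝ, abs x ≤ M ∧
          z = !₂[x, p 0 + x * V p 0, h * (p 1 + x * V p 1)]} ⊆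
        ⋃ i, {z : EuclideanSpace ℝ (Fin 3) | ∃ y ∈ B i, ∃ τ : ℝ, z = y + τ • u i} ∧
      ∑ i, (μHE[2] (B i)).toReal ≤
        h * (∫ p in D, 1 / Real.sqrt (1 + (V p 0) ^ 2 + h ^ 2 * (V p 1) ^ 2)) + ε := by
  obtain ⟨l, h1, h2, h3⟩ := H7Cyl.global h hD hU hDU hV hM htr
    (fun p hp => ⟨(hdet p hp).1, (hdet p hp).2.le⟩) (ε / (2 * h)) (by positivity)
  have H : ∀ i : Fin l.length, ∃ (u : H7Cyl.E3) (B : Set H7Cyl.E3), ‖u‖ = 1 ∧
      (Bornology.IsBounded B ∧ ∃ O : Set H7Cyl.E3, IsOpen O ∧ B = O ∩ {x | inner ℝ x u = 0}) ∧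
      (∀ x ∈ Set.Icc (0 : ℝ) 1, ∀ y ∈ Set.Icc (0 : ℝ) 1, ∀ s : ℝ, ∀ w : H7Cyl.E2,
        w = (l.get i).1 + (l.get i).2.1 • !₂[x, y] + s • (l.get i).2.2 →
        ∃ y ∈ B, ∃ τ : ℝ, (!₂[s, w 0, h * w 1] : H7Cyl.E3) = y + τ • u) ∧
      (μHE[2] B).toReal ≤ h * ((l.get i).2.1 ^ 2 * H7Cyl.J h (l.get i).2.2) +
        ε / 2 / (l.length + 1) := by
    intro i
    have hp := h1 _ (l.get_mem i)
    generalize l.get i = t at hp ⊢
    obtain ⟨c, ρ, g⟩ := t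
    simp only at hp ⊢
    set v : H7Cyl.E3 := !₂[1, g 0, h * g 1] with hv
    have hv0 : v ≠ 0 := by
      intro h0
      have := congrArg (fun v : H7Cyl.E3 => v 0) h0
      simp [hv] at this
    have hn : 0 < ‖v‖ := norm_pos_iff.mpr hv0
    set c3 : H7Cyl.E3 := !₂[0, c 0, h * c 1] with hc3
    set a3 : H7Cyl.E3 := !₂[0, ρ, 0] with ha3
    set b3 : H7Cyl.E3 := !₂[0, 0, h * ρ] with hb3
    set u : H7Cyl.E3 := ‖v‖⁻¹ • v with hu
    have hu1 : ‖u‖ = 1 := by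
      rw [hu, norm_smul, norm_inv, norm_norm, inv_mul_cancel₀ hn.ne']
    have hu0 : u ≠ 0 := by intro h0; simp [h0] at hu1
    have hperp : ∀ y, inner ℝ (H7Cyl.proj v y) u = 0 := by
      intro y; rw [hu, inner_smul_right, H7Cyl.inner_proj hv0, mul_zero]
    set B0 : Set H7Cyl.E3 := {x | ∃ s ∈ Set.Icc (0 : ℝ) 1, ∃ t ∈ Set.Icc (0 : ℝ) 1,
      x = H7Cyl.proj v c3 + s • H7Cyl.proj v a3 + t • H7Cyl.proj v b3} with hB0
    have hbd0 : Bornology.IsBounded B0 := by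
      apply (Metric.isBounded_closedBall (x := (0 : H7Cyl.E3))
        (r := ‖H7Cyl.proj v c3‖ + ‖H7Cyl.proj v a3‖ + ‖H7Cyl.proj v b3‖)).subset
      rintro _ ⟨s, hs, t, ht, rfl⟩
      rw [mem_closedBall_zero_iff]
      refine (norm_add_le _ _).trans (add_le_add ((norm_add_le _ _).trans (add_le_add le_rfl ?_)) ?_)
      · rw [norm_smul, Real.norm_of_nonneg hs.1]
        exact mul_le_of_le_one_left (norm_nonneg _) hs.2
      · rw [norm_smul, Real.norm_of_nonneg ht.1]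
        exact mul_le_of_le_one_left (norm_nonneg _) ht.2
    obtain ⟨B, hB1, hB2, hB3, hB4⟩ := H7Cyl.exists_open_base hu0 hbd0 (by
      rintro _ ⟨s, hs, t, ht, rfl⟩
      simp only [inner_add_left, inner_smul_left, hperp]; simp)
      (η := ε / 2 / (l.length + 1)) (by positivity)
    refine ⟨u, B, hu1, ⟨hB2, hB3⟩, ?_, hB4.trans (le_of_eq ?_)⟩
    · intro x hx y hy s w hw
      have e : (!₂[s, w 0, h * w 1] : H7Cyl.E3) = c3 + x • a3 + y • b3 + s • v := by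
        rw [hw]
        ext j; fin_cases j <;> simp [hc3, ha3, hb3, hv] <;> ring
      refine ⟨H7Cyl.proj v !₂[s, w 0, h * w 1], hB1 ⟨x, hx, y, hy, ?_⟩,
        inner ℝ (!₂[s, w 0, h * w 1] : H7Cyl.E3) v / ‖v‖ ^ 2 * ‖v‖, ?_⟩
      · rw [e]
        simp only [H7Cyl.proj_add, H7Cyl.proj_smul, H7Cyl.proj_self hv0]; simp
      · rw [hu, smul_smul, mul_assoc, mul_inv_cancel₀ hn.ne', mul_one]
        exact H7Cyl.eq_proj_add v _
    · rw [hB0, H7Cyl.area_par, ENNReal.toReal_ofReal (H7Cyl.gram_nonneg _ _), H7Cyl.gram_proj hv0]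
      congr 1
      have e1 : H7Cyl.det3 a3 b3 v = h * ρ ^ 2 := by
        simp [H7Cyl.det3, ha3, hb3, hv]; ring
      have e2 : ‖v‖ = Real.sqrt (1 + g 0 ^ 2 + h ^ 2 * g 1 ^ 2) := by
        rw [← Real.sqrt_sq (norm_nonneg v), H7Cyl.normsq3]
        congr 1
        simp [hv]; ring
      rw [e1, e2, abs_of_pos (by positivity), H7Cyl.J]; ring
  choose u B H1 H2 H3 H4 using H
  refine ⟨l.length, u, B, H1, H2, ?_, ?_⟩
  · rintro _ ⟨p, hp, s, hs, rfl⟩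
    obtain ⟨t, ht, x, hx, y, hy, e⟩ := h2 (s, p + s • V p) ⟨p, hp, hs, rfl⟩
    obtain ⟨i, rfl⟩ := List.get_of_mem ht
    refine Set.mem_iUnion.mpr ⟨i, ?_⟩
    simpa using H3 i x hx y hy s _ e
  · refine (Finset.sum_le_sum fun i _ => H4 i).trans ?_
    rw [Finset.sum_add_distrib, ← Finset.mul_sum]
    have e : ∑ i : Fin l.length, (l.get i).2.1 ^ 2 * H7Cyl.J h (l.get i).2.2 =
        (l.map (fun t => t.2.1 ^ 2 * H7Cyl.J h t.2.2)).sum := by
      conv_rhs => rw [← List.ofFn_get l, List.map_ofFn, List.sum_ofFn]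
      rfl
    rw [e]
    have e3 : ∑ _i : Fin l.length, ε / 2 / (l.length + 1) ≤ ε / 2 := by
      rw [Finset.sum_const, Finset.card_univ, Fintype.card_fin, nsmul_eq_mul, ← mul_div_assoc,
        div_le_iff₀ (by positivity)]
      nlinarith
    have e4 := mul_le_mul_of_nonneg_left h3 hh.le
    have e5 : h * (ε / (2 * h)) = ε / 2 := by field_simp
    unfold H7Cyl.J at e4 ⊢
    linarith

end Crest.Agent.S0329
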