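import Crest.Statements.S0392
import Crest.Agent.H8.LP5

set_option autoImplicit false
open Crest.GeometryTopology
universe u v
open Crest Crest.GeometryTopology

namespace Crest.Agent.S0392

/-- There is a universal constant `Λ` such that every infinite-dimensional real Banach space contains a compact subset that is doubling with constant at most `Λ` and admits no map into any finite-dimensional real normed space that is Lipschitz with a Lipschitz inverse on its image, whatever the two Lipschitz constants. Doubling is measured with closed balls centred at points of the subset. -/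
theorem result :
    ∃ Λ : ℕ, ∀ (B : Type u) [NormedAddCommGroup B] [NormedSpace ℝ B] [CompleteSpace B],
      ¬ FiniteDimensional ℝ B →
      ∃ K : Set B, IsCompact K ∧ DoublingConstLE K Λ ∧
        ∀ (Y : Type v) [NormedAddCommGroup Y] [NormedSpace ℝ Y] [FiniteDimensional ℝ Y]
          (f : K → Y) (c C : NNReal), ¬ (LipschitzWith C f ∧ AntilipschitzWith c f) := by
  refine ⟨4481 * (4481 * 8971), fun B _ _ _ hB => ?_⟩
  obtain ⟨ξ, ζ, e, hv⟩ := H8LP.exists_vecs hB
  exact ⟨H8LP.KK ξ ζ e, H8LP.isCompact_KK hv, H8LP.doubling_KK hv,
    fun Y _ _ _ f c C => H8LP.not_embed_KK hv f c C⟩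

end Crest.Agent.S0392
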