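import Crest.Statements.S0409
import Crest.Agent.H4.AF.A10

set_option autoImplicit false
open Crest Crest.AlgGeometry

namespace Crest.Agent.S0409

/-- There is a polynomial F in four variables over the complex numbers with all of the following properties: the quotient of ℂ[x₀,x₁,x₂,x₃] by the ideal generated by F is isomorphic as a ℂ-algebra to a polynomial ring in three variables; all four partial derivatives of F vanish at some point of ℂ⁴; and no ℂ-algebra automorphism of ℂ[x₀,x₁,x₂,x₃] sends F to x₀. -/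
theorem result :
    ∃ F : MvPolynomial (Fin 4) ℂ,
      Nonempty ((MvPolynomial (Fin 4) ℂ ⧸ Ideal.span {F}) ≃ₐ[ℂ] MvPolynomial (Fin 3) ℂ) ∧
      (∃ p : Fin 4 → ℂ, ∀ i : Fin 4, MvPolynomial.eval p (MvPolynomial.pderiv i F) = 0) ∧
      ¬ ∃ τ : MvPolynomial (Fin 4) ℂ ≃ₐ[ℂ] MvPolynomial (Fin 4) ℂ, τ F = MvPolynomial.X 0 := by
  exact Crest.Agent.H4.AF.abhyankar

end Crest.Agent.S0409
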