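import Crest.Statements.S0423
import Crest.Agent.H8.TruncExpB
import Crest.Agent.H8.TruncExpD

set_option autoImplicit false
open Crest Crest.AlgGeometry

namespace Crest.Agent.S0423

section Helpers
open MeasureTheory Set Filter Topology Crest.Agent.H8TE
open scoped ENNReal

lemma weight_eq (z : ℝ) : Crest.AlgGeometry.truncExpWeight z = 1 - ∫ y in Iio z, phi y := by
  rw [phi_Iio]; unfold Crest.AlgGeometry.truncExpWeight; ring

lemma E_weight {N : ℕ} (a : Fin N → ℝ) :
    ∫ x in Set.pi Set.univ (fun _ : Fin N => Set.Ioi (0 : ℝ)),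
      Crest.AlgGeometry.truncExpWeight (4 / 3 + ∑ i, a i * x i) * Real.exp (-∑ i, x i) =
      1 - ∫ y, phi y * (surv a (y - 4 / 3)).toReal := by
  rw [integral_orthant N (fun x => Crest.AlgGeometry.truncExpWeight (4 / 3 + ∑ i, a i * x i))]
  have hZ : Measurable (fun x : Fin N → ℝ => 4 / 3 + ∑ i, a i * x i) := by fun_prop
  have hmono : Monotone (fun z : ℝ => ∫ y in Iio z, phi y) := fun z w h =>
    setIntegral_mono_set phi_integrable.integrableOn (Eventually.of_forall phi_nonneg)
      (Iio_subset_Iio h).eventuallyLE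
  have hI : Integrable (fun x : Fin N → ℝ => ∫ y in Iio (4 / 3 + ∑ i, a i * x i), phi y)
      (piNu N) := by
    refine Integrable.of_bound (hmono.measurable.comp hZ).aestronglyMeasurable (∫ y, phi y)
      (Eventually.of_forall fun x => ?_)
    rw [Real.norm_of_nonneg (integral_nonneg phi_nonneg)]
    exact setIntegral_le_integral phi_integrable (Eventually.of_forall phi_nonneg)
  simp only [weight_eq]
  rw [integral_sub (integrable_const _) hI, fub_phi _ hZ]
  simp only [integral_const, probReal_univ, smul_eq_mul, mul_one]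
  congr 1
  refine integral_congr_ae (Eventually.of_forall fun y => ?_)
  simp only [surv, Measure.real]
  congr 3
  ext x
  simp only [mem_ofPred_eq]
  constructor <;> intro h <;> linarith

lemma upper {N : ℕ} (a : Fin N → ℝ) (ha : ∑ i, a i = 0) :
    4 / 9 * Real.exp (-(1/3)) ≤ ∫ y, phi y * (surv a (y - 4 / 3)).toReal := by
  by_cases h0 : ∀ i, a i = 0
  · have e : (fun y => phi y * (surv a (y - 4 / 3)).toReal) = (Iio (4/3 : ℝ)).indicator phi := by
      funext y
      by_cases hy : y < 4 / 3
      · have : y - 4 / 3 < 0 := by linarith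
        simp [surv, h0, this, hy]
      · have : ¬ (y - 4 / 3 < 0) := by linarith
        simp [surv, h0, this, hy]
    rw [e, integral_indicator measurableSet_Iio, phi_Iio, if_neg (by norm_num)]
    have h1 := exp_third_le
    have h2 : Real.exp (-(4/3)) ≤ 0.29 := by
      rw [Real.exp_neg, inv_le_comm₀ (Real.exp_pos _) (by norm_num)]
      have := Real.sum_le_exp_of_nonneg (show (0:ℝ) ≤ 4 / 3 by norm_num) 4
      simp [Finset.sum_range_succ, Nat.factorial] at this
      norm_num at this ⊢
      linarith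
    linarith
  · have hp : ∃ i, 0 < a i := by
      by_contra hc
      push Not at hc
      exact h0 fun i => (Finset.sum_eq_zero_iff_of_nonpos fun j _ => hc j).mp ha i (Finset.mem_univ i)
    have hn : ∃ i, a i < 0 := by
      by_contra hc
      push Not at hc
      exact h0 fun i => (Finset.sum_eq_zero_iff_of_nonneg fun j _ => hc j).mp ha i (Finset.mem_univ i)
    obtain ⟨i, hi⟩ := hp
    obtain ⟨j, hj⟩ := hn
    have hfin : ∀ t, surv a t ≠ ⊤ := fun t => measure_ne_top _ _
    have hZ : Measurable (fun x : Fin N → ℝ => 4 / 3 + ∑ i, a i * x i) := by fun_prop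
    have hZi : Integrable (fun x : Fin N → ℝ => 4 / 3 + ∑ i, a i * x i) (piNu N) :=
      (integrable_const _).add (integrable_lin a)
    have hZm : ∫ x, (4 / 3 + ∑ i, a i * x i) ∂(piNu N) = 4 / 3 := by
      rw [integral_add (integrable_const _) (integrable_lin a), integral_lin, ha]; simp
    have hG : ∀ y, (surv a (y - 4 / 3)).toReal =
        (piNu N).real {x | y < 4 / 3 + ∑ i, a i * x i} := by
      intro y
      simp only [surv, Measure.real]
      congr 2
      ext x
      simp only [mem_ofPred_eq]
      constructor <;> intro h <;> linarith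
    refine main_real (G := fun y => (surv a (y - 4 / 3)).toReal)
      (fun y => ENNReal.toReal_pos (surv_pos a hi _).ne' (hfin _))
      (fun y => ?_) (fun x y h => ENNReal.toReal_mono (hfin _) (surv_anti a (by linarith)))
      (fun x y z w h1 h2 h3 => ?_) ?_ (fun c => ?_) (fun c => ?_)
    · exact ENNReal.toReal_le_of_le_ofReal zero_le_one (by simpa using (surv_lt_one a hj _).le)
    · rw [← ENNReal.toReal_mul, ← ENNReal.toReal_mul]
      exact ENNReal.toReal_mono (ENNReal.mul_ne_top (hfin _) (hfin _))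
        (surv_PF2 a _ _ _ _ (by linarith) (by linarith) (by linarith))
    · have hlim := tendsto_measure_Ici_atBot
        ((piNu N).map (fun x : Fin N → ℝ => ∑ i, a i * x i))
      have hm : Measurable (fun x : Fin N → ℝ => ∑ i, a i * x i) := by fun_prop
      rw [Measure.map_apply hm MeasurableSet.univ, preimage_univ, measure_univ] at hlim
      have h1 := (hlim.eventually (lt_mem_nhds (surv_lt_one a hj (0 - 4 / 3)))).and
        (eventually_lt_atBot (-4 / 3 : ℝ))
      obtain ⟨t, ht1, ht2⟩ := h1.exists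
      rw [Measure.map_apply hm measurableSet_Ici] at ht1
      refine ⟨t - 1 + 4 / 3, by linarith, ?_⟩
      simp only [add_sub_cancel_right]
      refine (ENNReal.toReal_lt_toReal (hfin _) (hfin _)).mpr (lt_of_lt_of_le ht1 ?_)
      refine measure_mono fun x hx => ?_
      simp only [mem_preimage, mem_Ici, mem_ofPred_eq] at hx ⊢
      linarith
    · simp only [hG]
      exact (fub_mean _ hZ hZi c).1
    · simp only [hG]
      rw [(fub_mean _ hZ hZi c).2, hZm]

lemma lower (n : ℕ) (hn : 0 < n) :
    ∫ y, phi y * (surv (Fin.cons 2 (fun _ : Fin n => -2 / (n:ℝ)) : Fin (n + 1) → ℝ)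
      (y - 4 / 3)).toReal ≤ 4 / 9 * Real.exp (2 / 3) * (1 / (1 + 1 / (n:ℝ))) ^ n := by
  set a : Fin (n + 1) → ℝ := Fin.cons 2 (fun _ : Fin n => -2 / (n:ℝ)) with ha
  set q : ℝ := (1 / (1 + 1 / (n:ℝ))) ^ n with hq
  have hn' : (0:ℝ) < n := by exact_mod_cast hn
  have hq0 : 0 ≤ q := by positivity
  have hs : ∀ t, surv a t ≤ ENNReal.ofReal (Real.exp (-(t / 2)) * q) := by
    intro t
    have hms : MeasurableSet
        {p : ℝ × (Fin n → ℝ) | t < a 0 * p.1 + ∑ i, a (Fin.succ i) * p.2 i} :=
      measurableSet_lt measurable_const (by fun_prop)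
    rw [surv_prod, Measure.prod_apply_symm hms]
    have hint := Integrable.fintype_prod (ι := Fin n) (μ := fun _ => nu)
      (f := fun _ x => Real.exp (-(1 / (n:ℝ) * x))) (fun _ => (exp_nu (by positivity)).1)
    have hval := integral_fintype_prod_eq_pow (ι := Fin n) (μ := nu)
      (fun x => Real.exp (-(1 / (n:ℝ) * x)))
    rw [(exp_nu (by positivity)).2, Fintype.card_fin] at hval
    rw [hq, ← hval, ← integral_const_mul, ofReal_integral_eq_lintegral_ofReal (hint.const_mul _)
      (Eventually.of_forall fun x => by positivity)]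
    refine lintegral_mono fun x => ?_
    have e : (fun u : ℝ => (u, x)) ⁻¹'
        {p : ℝ × (Fin n → ℝ) | t < a 0 * p.1 + ∑ i, a (Fin.succ i) * p.2 i} =
        Ioi (t / 2 + ∑ i, 1 / (n:ℝ) * x i) := by
      ext u
      simp only [ha, Fin.cons_zero, Fin.cons_succ, mem_preimage, mem_ofPred_eq, mem_Ioi]
      have : ∑ i, -2 / (n:ℝ) * x i = -2 * ∑ i, 1 / (n:ℝ) * x i := by
        rw [Finset.mul_sum]
        refine Finset.sum_congr rfl fun i _ => by ring
      rw [this]
      constructor <;> intro h <;> linarith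
    rw [e]
    refine (nu_Ioi_le _).trans (le_of_eq ?_)
    congr 1
    rw [← Real.exp_sum, ← Real.exp_add, Finset.sum_neg_distrib]
    congr 1; ring
  have hc : (0:ℝ) < 3 / 2 := by norm_num
  have h1 := mul_exp_Ioi hc 0
  rw [integral_phi_mul]
  have hI : IntegrableOn (fun y => phi y * (surv a (y - 4 / 3)).toReal) (Ioi 0) :=
    (phi_mul_integrable (((surv_meas a).comp (by fun_prop)).ennreal_toReal)
      (fun _ => ENNReal.toReal_nonneg)
      (fun y => ENNReal.toReal_le_of_le_ofReal zero_le_one (by simpa [surv] using prob_le_one))).integrableOn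
  calc ∫ y in Ioi 0, phi y * (surv a (y - 4 / 3)).toReal
      ≤ ∫ y in Ioi 0, (Real.exp (2 / 3) * q) * (y * Real.exp (-(3 / 2 * y))) := by
        refine setIntegral_mono_on hI (h1.1.const_mul _) measurableSet_Ioi fun y hy => ?_
        have hy' : 0 < y := hy
        have h2 := ENNReal.toReal_le_of_le_ofReal (by positivity) (hs (y - 4 / 3))
        rw [phi_of_pos hy'.le]
        refine (mul_le_mul_of_nonneg_left h2 (by positivity)).trans (le_of_eq ?_)
        have : Real.exp (-y) * Real.exp (-((y - 4 / 3) / 2)) =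
            Real.exp (2 / 3) * Real.exp (-(3 / 2 * y)) := by
          rw [← Real.exp_add, ← Real.exp_add]; congr 1; ring
        calc _ = y * q * (Real.exp (-y) * Real.exp (-((y - 4 / 3) / 2))) := by ring
          _ = _ := by rw [this]; ring
    _ = _ := by
        rw [integral_const_mul, h1.2]
        simp only [mul_zero, neg_zero, Real.exp_zero, zero_div, zero_add, one_mul]
        ring

lemma exp_ident : Real.exp (4 / 3) * Real.exp (-(1/3)) = Real.exp 1 := by
  rw [← Real.exp_add]; norm_num

end Helpers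

/-- For independent mean-one exponential random variables `X_1, …, X_N` (written as an integral over the positive orthant against the density `exp (-(x_1 + ⋯ + x_N))`), real coefficients `a_1, …, a_N` summing to zero, and the weight `g = truncExpWeight`, the quantity `(e^{4/3} / (4/3)) · E[g(4/3 + a_1 X_1 + ⋯ + a_N X_N)]` has supremum over all `N ≥ 1` and all such `a` exactly `(3/4) e^{4/3} − e/3`: it never exceeds this value, and comes within any `ε > 0` of it for some `N` and `a`. -/
theorem result :
    (∀ (N : ℕ) (a : Fin N → ℝ), 1 ≤ N → ∑ i, a i = 0 →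
      Real.exp (4 / 3) / (4 / 3) *
          ∫ x in Set.pi Set.univ (fun _ : Fin N => Set.Ioi (0 : ℝ)),
            Crest.AlgGeometry.truncExpWeight (4 / 3 + ∑ i, a i * x i) * Real.exp (-∑ i, x i)
        ≤ 3 / 4 * Real.exp (4 / 3) - Real.exp 1 / 3) ∧
    (∀ ε : ℝ, 0 < ε → ∃ (N : ℕ) (a : Fin N → ℝ), 1 ≤ N ∧ ∑ i, a i = 0 ∧
      3 / 4 * Real.exp (4 / 3) - Real.exp 1 / 3 - ε <
        Real.exp (4 / 3) / (4 / 3) *
          ∫ x in Set.pi Set.univ (fun _ : Fin N => Set.Ioi (0 : ℝ)),
            Crest.AlgGeometry.truncExpWeight (4 / 3 + ∑ i, a i * x i) * Real.exp (-∑ i, x i)) := by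
  constructor
  · intro N a _ ha
    rw [E_weight]
    have h1 := mul_le_mul_of_nonneg_left (upper a ha) (Real.exp_pos (4 / 3)).le
    have h2 := exp_ident
    nlinarith
  · intro ε hε
    have hlim : Filter.Tendsto (fun n : ℕ => Real.exp (4 / 3) / (4 / 3) *
        (1 - 4 / 9 * Real.exp (2 / 3) * (1 / (1 + 1 / (n:ℝ))) ^ n)) Filter.atTop
        (nhds (Real.exp (4 / 3) / (4 / 3) * (1 - 4 / 9 * Real.exp (2 / 3) * (Real.exp 1)⁻¹))) := by
      refine Filter.Tendsto.const_mul _ (Filter.Tendsto.const_sub _ (Filter.Tendsto.const_mul _ ?_))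
      have := (Real.tendsto_one_add_div_pow_exp 1).inv₀ (Real.exp_pos 1).ne'
      simpa [one_div, inv_pow] using this
    have hval : Real.exp (4 / 3) / (4 / 3) * (1 - 4 / 9 * Real.exp (2 / 3) * (Real.exp 1)⁻¹) =
        3 / 4 * Real.exp (4 / 3) - Real.exp 1 / 3 := by
      have h1 : Real.exp (2 / 3) * (Real.exp 1)⁻¹ = Real.exp (-(1/3)) := by
        rw [← Real.exp_neg, ← Real.exp_add]; norm_num
      rw [mul_assoc (4 / 9 : ℝ), h1, ← exp_ident]; ring
    rw [hval] at hlim
    obtain ⟨n, hn1, hn2⟩ := ((hlim.eventually (lt_mem_nhds (sub_lt_self _ hε))).and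
      (Filter.eventually_gt_atTop 0)).exists
    have hn' : (0:ℝ) < n := by exact_mod_cast hn2
    refine ⟨n + 1, Fin.cons 2 (fun _ : Fin n => -2 / (n:ℝ)), by omega, ?_, ?_⟩
    · rw [Fin.sum_univ_succ]
      simp only [Fin.cons_zero, Fin.cons_succ, Finset.sum_const, Finset.card_univ,
        Fintype.card_fin, nsmul_eq_mul]
      field_simp
      ring
    · rw [E_weight]
      refine lt_of_lt_of_le hn1 (mul_le_mul_of_nonneg_left ?_ (by positivity))
      linarith [lower n hn2]

end Crest.Agent.S0423
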