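import Crest.Statements.S0499
import Crest.Agent.H2.SL14

set_option autoImplicit false
open Crest Crest.LogicCS

namespace Crest.Agent.S0499

/-- For each A > 0 there are c > 0 and d₀ such that for all d ≥ d₀, naturals M ≤ A·d² and T, and 0 < ε ≤ 1/10: if a randomized one-pass learner with at most 2^M states (own seed independent of the data; transitions read one pair (x_t, ⟪x_t, s⟫) at a time; optional early stopping; unit-vector output from stopping index, seed and final state), fed T independent standard Gaussian samples in ℝ^d with s uniform on the sphere, is within angle ε of s with probability ≥ 2/3, then T ≥ c·d·log(1/ε). -/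
theorem result :
    ∀ A : ℝ, 0 < A → ∃ c : ℝ, 0 < c ∧ ∃ d₀ : ℕ, ∀ d ≥ d₀, ∀ (M T : ℕ),
      (M : ℝ) ≤ A * (d : ℝ) ^ 2 → ∀ ε : ℝ, 0 < ε → ε ≤ 1 / 10 →
        ∀ L : Crest.StreamLearn.RLearner d T M,
          2 / 3 ≤ L.successProb ε → c * d * Real.log (1 / ε) ≤ T := by
  classical
  intro A hA
  refine ⟨1 / (8000 * A + 39600), by positivity, 20, fun d hd M T hM ε hε hε1 L hL => ?_⟩
  by_contra hT
  rw [not_le, one_div (8000 * A + 39600), mul_assoc, ← div_eq_inv_mul,
    lt_div_iff₀ (by positivity)] at hT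
  haveI := L.fin
  letI := L.fin
  have hε' : 1 < 1 / ε := by rw [lt_div_iff₀ hε]; linarith
  have hl := Real.log_pos hε'
  have hd' : (20 : ℝ) ≤ d := by exact_mod_cast hd
  have hT0 : (0 : ℝ) ≤ T := Nat.cast_nonneg _
  have hlT : 0 ≤ Real.log (T + 2) := Real.log_nonneg (by linarith)
  have hN : Real.log (Fintype.card (L.St × Option (Fin (T + 1)))) ≤ A * d ^ 2 + Real.log (T + 2) := by
    rcases Nat.eq_zero_or_pos (Fintype.card (L.St × Option (Fin (T + 1)))) with h | h
    · rw [h]; simp; positivity
    have h1 : (Fintype.card (L.St × Option (Fin (T + 1))) : ℝ) ≤ 2 ^ M * (T + 2) := by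
      have : (Fintype.card L.St : ℝ) ≤ 2 ^ M := by exact_mod_cast L.card_le
      simp only [Fintype.card_prod, Fintype.card_option, Fintype.card_fin]
      push_cast
      rw [add_assoc, one_add_one_eq_two]
      gcongr
    refine (Real.log_le_log (by exact_mod_cast h) h1).trans ?_
    rw [Real.log_mul (by positivity) (by positivity), Real.log_pow]
    have := Real.log_le_sub_one_of_pos (show (0 : ℝ) < 2 by norm_num)
    have h0 : (0 : ℝ) ≤ M := Nat.cast_nonneg _
    nlinarith
  set N := Fintype.card (L.St × Option (Fin (T + 1))) with hNdef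
  set l := Real.log (1 / ε) with hldef
  rcases le_total ((d : ℝ) ^ 2) (Real.log (T + 2)) with h1 | h1
  · have h2 := hL.trans (H2SL.per_seed L (by omega) hε (by linarith)
      (p := N * (4 ^ d * ε ^ (d - 1))) (by positivity) fun ω => by
        refine (Finset.sum_le_sum (g := fun _ => ENNReal.ofReal (4 ^ d * ε ^ (d - 1)))
          fun b _ => ?_).trans ?_
        · refine le_trans ?_ (H2SL.cap_bound (by omega) (H2SL.outL L ω b) (L.out_unit _ _ _) hε)
          rw [← MeasureTheory.setLIntegral_one]
          exact MeasureTheory.lintegral_mono fun x => MeasureTheory.prob_le_one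
        · rw [Finset.sum_const, Finset.card_univ, nsmul_eq_mul,
            ENNReal.ofReal_mul (p := N) (by positivity), ENNReal.ofReal_natCast])
    have hN0 : (0 : ℝ) < N := by
      rcases Nat.eq_zero_or_pos N with h | h
      · rw [h] at h2; norm_num at h2
      · exact_mod_cast h
    have h3 := Real.log_le_log (by norm_num) h2
    rw [Real.log_mul (by positivity) (by positivity), Real.log_mul (by positivity) (by positivity),
      Real.log_pow, Real.log_pow, Nat.cast_sub (by omega)] at h3
    have h4 : Real.log ε = -l := by rw [hldef, one_div, Real.log_inv, neg_neg]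
    have h5 := Real.one_sub_inv_le_log_of_pos (show (0 : ℝ) < 2 / 3 by norm_num)
    have h6 := Real.log_le_sub_one_of_pos (show (0 : ℝ) < 4 by norm_num)
    have h7 := Real.log_le_sub_one_of_pos (show (0 : ℝ) < T + 2 by positivity)
    rw [h4] at h3
    norm_num at h5
    push_cast at h3
    have h8 : (d - 1) * l ≤ (A + 3) * Real.log (T + 2) := by nlinarith
    have h9 : Real.log (T + 2) ≤ 2 * T := by nlinarith
    have h10 : (A + 3) * Real.log (T + 2) ≤ (A + 3) * (2 * T) := by gcongr
    nlinarith
  rcases le_total l (400 * A + 2150) with h2 | h2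
  · by_cases h3 : 4 * T ≤ d
    · have := hL.trans (H2SL.small_T L (by omega) h3 hε hε1)
      norm_num at this
    · have h4 : (d : ℝ) ≤ 4 * T := by exact_mod_cast (not_le.1 h3).le
      have h5 : d * l ≤ 4 * T * (400 * A + 2150) := by gcongr
      nlinarith
  obtain ⟨n0, h10, h20⟩ : ∃ n0, 10 * n0 ≤ d ∧ d ≤ 20 * n0 := ⟨d / 10, by omega, by omega⟩
  have hn0 : 1 ≤ n0 := by omega
  have hB : T ≤ (T / (2 * n0) + 1) * (2 * n0) := by
    rw [mul_comm]; exact (Nat.lt_mul_div_succ T (by omega)).le
  have h3 := hL.trans (H2SL.per_seed L (by omega) hε (by linarith) (p := 13 / 20) (by norm_num)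
    fun ω => (H2SL.noiseless (H2SL.meas_stepL L ω) (fun t ht m θ => by
      simp [H2SL.stepL, not_lt.2 ht]) hB hn0 h10 h20 (H2SL.outL L ω) (fun b => L.out_unit _ _ _)
      hε (by linarith) _).trans (ENNReal.ofReal_le_ofReal ?_))
  · norm_num at h3
  have hn : (1 : ℝ) ≤ n0 := by exact_mod_cast hn0
  have h20' : (d : ℝ) ≤ 20 * n0 := by exact_mod_cast h20
  have h4 : 2 * (1 + Real.log N) / n0 ≤ 40 * (A + 2) * d := by
    rw [div_le_iff₀ (by linarith)]
    have h5 : 1 + Real.log N ≤ (A + 2) * d * d := by nlinarith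
    have h6 : (A + 2) * d * d ≤ (A + 2) * d * (20 * n0) := by gcongr
    linarith
  have h5 : ((T / (2 * n0) + 1 : ℕ) : ℝ) * d ≤ 10 * T + d := by
    have h6 : T / (2 * n0) * (2 * n0) ≤ T := Nat.div_mul_le_self _ _
    have h7 : (T / (2 * n0) + 1) * d ≤ 10 * T + d := by nlinarith [Nat.zero_le (T / (2 * n0))]
    exact_mod_cast h7
  rw [div_le_iff₀ (by positivity)]
  have h6 : ((T / (2 * n0) + 1 : ℕ) : ℝ) * (2 * (1 + Real.log N) / n0 + 118 * d)
      ≤ (40 * A + 198) * (10 * T + d) := by
    calc _ ≤ ((T / (2 * n0) + 1 : ℕ) : ℝ) * (40 * (A + 2) * d + 118 * d) := by gcongr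
      _ = (40 * A + 198) * (((T / (2 * n0) + 1 : ℕ) : ℝ) * d) := by ring
      _ ≤ _ := by gcongr
  have h7 : d * (400 * A + 2150) ≤ d * l := by gcongr
  have h8 : 0 < d * l := by positivity
  nlinarith

end Crest.Agent.S0499
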