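import Crest.Statements.S0500
import Crest.Agent.H4.SF.Tq
import Crest.Agent.H4.SF.Half
import Crest.Agent.H4.SF.Cos
import Crest.Agent.H4.SF.Dbl
import Crest.Agent.H4.SF.Grp
import Crest.Agent.H4.SF.Seq
import Crest.Agent.H4.SF.Pell
import Crest.Agent.H4.SF.Add
import Crest.Agent.H4.SF.Idx
import Crest.Agent.H4.SF.Pow
import Crest.Agent.H4.SF.Ch
import Crest.Agent.H4.SF.Crt
import Crest.Agent.H4.SF.Ball
import Crest.Agent.H4.SF.Prec
import Crest.Agent.H4.SF.Fin

set_option autoImplicit false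
open Crest Crest.LogicCS

namespace Crest.Agent.S0500

/-- For every n ≥ 1 and every recursively enumerable set S of n-tuples of natural numbers there are m ≥ 1 and an integer polynomial P in n + m variables such that, for every n-tuple a of naturals, P(a, w) = 0 has exactly one solution w among m-tuples of naturals when a ∈ S and no solution when a ∉ S. Tuples are functions on Fin n; the variables of P are indexed by Fin n ⊕ Fin m, inputs on the left, unknowns on the right. -/
theorem result (n : ℕ) (hn : 1 ≤ n) (S : Set (Fin n → ℕ)) (hS : REPred fun a => a ∈ S) : ∃ m : ℕ, 1 ≤ m ∧ ∃ P : MvPolynomial (Fin n ⊕ Fin m) ℤ, ∀ a : Fin n → ℕ, (a ∈ S → ∃! w : Fin m → ℕ, MvPolynomial.eval (Sum.elim (fun i => (a i : ℤ)) (fun j => (w j : ℤ))) P = 0) ∧ (a ∉ S → ∀ w : Fin m → ℕ, MvPolynomial.eval (Sum.elim (fun i => (a i : ℤ)) (fun j => (w j : ℤ))) P ≠ 0) := by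
  open Crest.Agent.H4.SD in
  obtain ⟨a, d, l, h⟩ := t_seq t_tq t_half t_cos t_dbl t_par t_grp
  open Crest.Agent.H4.SD in
  have hpow : Fn2 fun b n => b ^ n :=
    @t_pow t_pell a d l h (@t_idx t_pell a d l h (@t_sq a d l h (t_add a d l h).1 (t_add a d l h).2))
  open Crest.Agent.H4.SD in
  exact t_fin (t_rec t_prec hpow
    (@t_ball t_crt (t_ch hpow).1 (t_ch hpow).2.1 (t_ch hpow).2.2)) n S hS

end Crest.Agent.S0500
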