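import Crest.Statements.S0535
import Crest.Agent.H5.AD.B5

set_option autoImplicit false
open Crest.Quantum Crest.MathPhysics.AmpDamp
open Crest Crest.MathPhysics

namespace Crest.Agent.S0535

/-- Tensor the generalized amplitude-damping qubit channel (parameters in `[0, 1]`) with any channel `Ψ` between nonzero finite-dimensional systems (linear, completely positive, trace preserving): Holevo capacity and minimum output entropy (nats) are additive: each ensemble for the product map is matched, up to any `ε > 0`, by ensembles for the two factors whose Holevo informations add up to at least as much, and conversely; likewise, reversed, for output entropies of single states. -/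
theorem result (γ ν : ℝ)
    (hγ : γ ∈ Set.Icc (0 : ℝ) 1) (hν : ν ∈ Set.Icc (0 : ℝ) 1)
    (d e : Type) [Fintype d] [Fintype e] [DecidableEq d] [DecidableEq e] [Nonempty d] [Nonempty e]
    (Ψ : Matrix d d ℂ → Matrix e e ℂ) (hΨ : IsChannel Ψ) :
    (∀ (m : ℕ) (q : Fin m → ℝ) (ρ : Fin m → Matrix (Bool × d) (Bool × d) ℂ), IsEnsemble q ρ →
      ∀ ε > (0 : ℝ), ∃ (m₁ : ℕ) (q₁ : Fin m₁ → ℝ) (ρ₁ : Fin m₁ → Matrix Bool Bool ℂ)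
        (m₂ : ℕ) (q₂ : Fin m₂ → ℝ) (ρ₂ : Fin m₂ → Matrix d d ℂ),
        IsEnsemble q₁ ρ₁ ∧ IsEnsemble q₂ ρ₂ ∧
          holevoInfo (qubitTensor (gadMap γ ν) Ψ) q ρ ≤
            holevoInfo (gadMap γ ν) q₁ ρ₁ + holevoInfo Ψ q₂ ρ₂ + ε) ∧
    (∀ (m₁ : ℕ) (q₁ : Fin m₁ → ℝ) (ρ₁ : Fin m₁ → Matrix Bool Bool ℂ)
      (m₂ : ℕ) (q₂ : Fin m₂ → ℝ) (ρ₂ : Fin m₂ → Matrix d d ℂ), IsEnsemble q₁ ρ₁ → IsEnsemble q₂ ρ₂ →
      ∃ (m : ℕ) (q : Fin m → ℝ) (ρ : Fin m → Matrix (Bool × d) (Bool × d) ℂ), IsEnsemble q ρ ∧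
        holevoInfo (gadMap γ ν) q₁ ρ₁ + holevoInfo Ψ q₂ ρ₂ ≤
          holevoInfo (qubitTensor (gadMap γ ν) Ψ) q ρ) ∧
    (∀ ρ : Matrix (Bool × d) (Bool × d) ℂ, IsDensity ρ → ∀ ε > (0 : ℝ),
      ∃ (ρ₁ : Matrix Bool Bool ℂ) (ρ₂ : Matrix d d ℂ), IsDensity ρ₁ ∧ IsDensity ρ₂ ∧
        vnEntropy (gadMap γ ν ρ₁) + vnEntropy (Ψ ρ₂) ≤ vnEntropy (qubitTensor (gadMap γ ν) Ψ ρ) + ε) ∧
    (∀ (ρ₁ : Matrix Bool Bool ℂ) (ρ₂ : Matrix d d ℂ), IsDensity ρ₁ → IsDensity ρ₂ →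
      ∃ ρ : Matrix (Bool × d) (Bool × d) ℂ, IsDensity ρ ∧
        vnEntropy (qubitTensor (gadMap γ ν) Ψ ρ) ≤ vnEntropy (gadMap γ ν ρ₁) + vnEntropy (Ψ ρ₂)) := by
  refine ⟨fun m q ρ h ε hε => ?_, fun m₁ q₁ ρ₁ m₂ q₂ ρ₂ h1 h2 => ?_, fun ρ h ε hε => ?_,
    fun ρ₁ ρ₂ h1 h2 => ?_⟩
  · obtain ⟨p, hp, q2, ρ2, h2, hle⟩ := H5.AD.main1 hγ hν hΨ (ι := Fin m) h
    obtain ⟨m1, q1, ρ1, h1, e1⟩ := H5.AD.to_fin (gadMap γ ν) (H5.AD.ens_pst hp)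
    obtain ⟨m2, q2', ρ2', h2', e2⟩ := H5.AD.to_fin Ψ h2
    refine ⟨m1, q1, ρ1, m2, q2', ρ2', h1, h2', ?_⟩
    rw [e1, e2, H5.AD.hol_pst hγ hν hp]
    have : holevoInfo (qubitTensor (gadMap γ ν) Ψ) q ρ =
      H5.AD.hol (qubitTensor (gadMap γ ν) Ψ) q ρ := rfl
    linarith
  · obtain ⟨m, q, ρ, h, e⟩ := H5.AD.to_fin (qubitTensor (gadMap γ ν) Ψ)
      (H5.AD.ens_prod (ι := Fin m₁) (κ := Fin m₂) h1 h2)
    refine ⟨m, q, ρ, h, ?_⟩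
    rw [e, H5.AD.main2 hγ hν hΨ (ι := Fin m₁) (κ := Fin m₂) h1 h2]
    exact le_rfl
  · obtain ⟨p, σ0, σ1, hp, h0, h1, -, -, hk⟩ := H5.AD.key2 hγ hν hΨ h
    have hp0 := hp.1
    have hp1 := sub_nonneg.mpr hp.2
    rcases le_total (vnEntropy (Ψ σ0)) (vnEntropy (Ψ σ1)) with hc | hc
    · refine ⟨H5.AD.pst p true, σ0, H5.AD.pst_dens hp _, h0, ?_⟩
      rw [H5.AD.ent_pst hγ hν hp]
      nlinarith [mul_le_mul_of_nonneg_left hc hp0]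
    · refine ⟨H5.AD.pst p true, σ1, H5.AD.pst_dens hp _, h1, ?_⟩
      rw [H5.AD.ent_pst hγ hν hp]
      nlinarith [mul_le_mul_of_nonneg_left hc hp1]
  · refine ⟨_, H5.AD.kron_dens h1 h2, ?_⟩
    rw [H5.AD.qT_kron γ ν hΨ, H5.AD.ent_kron (H5.AD.gad_dens hγ hν h1) (H5.AD.chan_dens hΨ h2)]

end Crest.Agent.S0535
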